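import Vale.Agent.Lib.OrdRem.Corner

/-!
# Polynomial removal for the corner pattern
-/

namespace Vale.Agent.OrdRem

open Finset

theorem div_bounds {n c : ℕ} (hc : 0 < c) (hn : c ≤ n) :
    n / c * c ≤ n ∧ n ≤ 2 * (n / c * c) ∧ n < (n / c + 1) * c ∧ 0 < n / c := by
  have h1 := Nat.div_mul_le_self n c
  have h2 := Nat.lt_div_mul_add (a := n) hc
  have h3 : 0 < n / c := Nat.div_pos hn hc
  have h4 : 1 * c ≤ n / c * c := Nat.mul_le_mul_right c h3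
  refine ⟨h1, by omega, ?_, h3⟩
  have : (n / c + 1) * c = n / c * c + c := by ring
  omega

theorem rem2_corner : Rem2 corner := by
  refine rem2_of_large corner 500 ?_
  intro m hm n hn A hcnt
  set μ : ℕ := m ^ 7 with hμ
  have hμ128 : 128 ≤ μ := by
    calc 128 = 2 ^ 7 := by norm_num
      _ ≤ m ^ 7 := Nat.pow_le_pow_left hm 7
  have hmpow : ∀ a b : ℕ, a ≤ b → m ^ a ≤ m ^ b := fun a b h =>
    Nat.pow_le_pow_right (by omega) h
  have hμpow : ∀ k : ℕ, μ ^ k = m ^ (7 * k) := fun k => by rw [hμ, ← pow_mul]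
  have hμn : ∀ k : ℕ, k ≤ 60 → μ ^ k ≤ n := by
    intro k hk
    rw [hμpow]
    exact (hmpow _ _ (by omega)).trans hn
  have hμpos : 0 < μ := by omega
  have hnpos : 0 < n := lt_of_lt_of_le (pow_pos hμpos 1) (hμn 1 (by norm_num))
  -- the parameters
  obtain ⟨a1, a2, a3, a4⟩ := div_bounds (n := n) (c := μ) hμpos (by simpa using hμn 1 (by norm_num))
  have hc4 : 4 * μ ≤ n := by
    have := hμn 2 (by norm_num)
    nlinarith
  obtain ⟨b1, b2, b3, b4⟩ := div_bounds (n := n) (c := 4 * μ) (by omega) hc4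
  have hc16 : 16 * μ ^ 2 ≤ n := by
    have h1 := hμn 3 (by norm_num)
    have h2 : 16 * μ ^ 2 ≤ μ ^ 3 := by
      calc 16 * μ ^ 2 ≤ μ * μ ^ 2 := Nat.mul_le_mul_right _ (by omega)
        _ = μ ^ 3 := by ring
    omega
  obtain ⟨c1, c2, c3, c4⟩ := div_bounds (n := n) (c := 16 * μ ^ 2) (by positivity) hc16
  obtain ⟨d1, d2, d3, d4⟩ := div_bounds (n := n) (c := μ ^ 24) (by positivity)
    (hμn 24 (by norm_num))
  obtain ⟨e1, e2, e3, e4⟩ := div_bounds (n := n) (c := μ ^ 6) (by positivity)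
    (hμn 6 (by norm_num))
  obtain ⟨f1, f2, f3, f4⟩ := div_bounds (n := n ^ 3) (c := μ ^ 35) (by positivity)
    ((hμn 35 (by norm_num)).trans (Nat.le_self_pow (by norm_num) n))
  set t0 := n / μ with ht0
  set h := n / (4 * μ) with hh
  set g := n / (16 * μ ^ 2) with hg
  set t4 := n / μ ^ 24 with ht4
  set q := n / μ ^ 6 with hq
  set g3 := n ^ 3 / μ ^ 35 with hg3
  set N := cnt corner A with hN
  -- few atypical columns
  have hcol : N / (g3 + 1) * (8 * μ) ≤ n := by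
    have h1 : N / (g3 + 1) * (g3 + 1) ≤ N := Nat.div_mul_le_self _ _
    have h2 : 8 * μ ^ 36 ≤ m ^ 500 := by
      calc 8 * μ ^ 36 ≤ μ * μ ^ 36 := Nat.mul_le_mul_right _ (by omega)
        _ = μ ^ 37 := by ring
        _ = m ^ (7 * 37) := hμpow 37
        _ ≤ m ^ 500 := hmpow _ _ (by norm_num)
    have h3 : N / (g3 + 1) * (8 * μ) * n ^ 3 ≤ n * n ^ 3 := by
      calc N / (g3 + 1) * (8 * μ) * n ^ 3 ≤ N / (g3 + 1) * (8 * μ) * ((g3 + 1) * μ ^ 35) :=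
            Nat.mul_le_mul_left _ f3.le
        _ = (N / (g3 + 1) * (g3 + 1)) * (8 * μ ^ 36) := by ring
        _ ≤ N * m ^ 500 := Nat.mul_le_mul h1 h2
        _ = m ^ 500 * N := by ring
        _ ≤ n ^ 4 := hcnt.le
        _ = n * n ^ 3 := by ring
    exact Nat.le_of_mul_le_mul_right h3 (by positivity)
  have hcond1 : g * n ≤ t0 * h := by
    -- `16 μ² g ≤ n`, `n ≤ 2 μ t0`, `n ≤ 8 μ h`
    have h1 : g * n * (16 * μ ^ 2) ≤ t0 * h * (16 * μ ^ 2) := by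
      calc g * n * (16 * μ ^ 2) = (g * (16 * μ ^ 2)) * n := by ring
        _ ≤ n * n := Nat.mul_le_mul_right _ c1
        _ ≤ (2 * (t0 * μ)) * (2 * (h * (4 * μ))) := Nat.mul_le_mul a2 b2
        _ = t0 * h * (16 * μ ^ 2) := by ring
    exact Nat.le_of_mul_le_mul_right h1 (by positivity)
  have hcond2 : h + N / (g3 + 1) ≤ t0 := by
    have h1 : (h + N / (g3 + 1)) * (8 * μ) ≤ t0 * (8 * μ) := by
      calc (h + N / (g3 + 1)) * (8 * μ) = 2 * (h * (4 * μ)) + N / (g3 + 1) * (8 * μ) := by ring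
        _ ≤ 2 * n + n := Nat.add_le_add (Nat.mul_le_mul_left _ b1) hcol
        _ ≤ 4 * (2 * (t0 * μ)) := by omega
        _ = t0 * (8 * μ) := by ring
    exact Nat.le_of_mul_le_mul_right h1 (by positivity)
  obtain ⟨B, s, v, a, hB, hv, hs, ha, hham⟩ :=
    corner_core A t0 t0 t4 g3 q t0 h g b4 hcond1 hcond2
  refine ⟨B, hB, ?_⟩
  -- bounds for `v`, `s`, `a`
  have hv3 : v ≤ μ ^ 3 := by
    have h1 : v * g ≤ (32 * μ ^ 2) * g := by
      calc v * g ≤ n := hv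
        _ ≤ 2 * (g * (16 * μ ^ 2)) := c2
        _ = (32 * μ ^ 2) * g := by ring
    have h2 : v ≤ 32 * μ ^ 2 := Nat.le_of_mul_le_mul_right h1 c4
    calc v ≤ 32 * μ ^ 2 := h2
      _ ≤ μ * μ ^ 2 := Nat.mul_le_mul_right _ (by omega)
      _ = μ ^ 3 := by ring
  have hs4 : s ≤ μ ^ 4 := by
    have h1 : s * (t0 + 1) ≤ μ ^ 4 * (t0 + 1) := by
      calc s * (t0 + 1) ≤ v * n := hs
        _ ≤ μ ^ 3 * ((t0 + 1) * μ) := Nat.mul_le_mul hv3 a3.le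
        _ = μ ^ 4 * (t0 + 1) := by ring
    exact Nat.le_of_mul_le_mul_right h1 (by omega)
  have haμ : a * μ ≤ n := by
    have h1 : (N / (t4 ^ 2 + 1)) * (2 * μ ^ 7) ≤ n ^ 2 := by
      have h2 : N / (t4 ^ 2 + 1) * (t4 ^ 2 + 1) ≤ N := Nat.div_mul_le_self _ _
      have h3 : n ^ 2 ≤ (t4 ^ 2 + 1) * (4 * μ ^ 48) := by
        calc n ^ 2 ≤ (2 * (t4 * μ ^ 24)) ^ 2 := Nat.pow_le_pow_left d2 2
          _ = t4 ^ 2 * (4 * μ ^ 48) := by ring
          _ ≤ (t4 ^ 2 + 1) * (4 * μ ^ 48) := Nat.mul_le_mul_right _ (by omega)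
      have h4 : 8 * μ ^ 55 ≤ m ^ 500 := by
        calc 8 * μ ^ 55 ≤ μ * μ ^ 55 := Nat.mul_le_mul_right _ (by omega)
          _ = μ ^ 56 := by ring
          _ = m ^ (7 * 56) := hμpow 56
          _ ≤ m ^ 500 := hmpow _ _ (by norm_num)
      have h5 : N / (t4 ^ 2 + 1) * (2 * μ ^ 7) * n ^ 2 ≤ n ^ 2 * n ^ 2 := by
        calc N / (t4 ^ 2 + 1) * (2 * μ ^ 7) * n ^ 2
            ≤ N / (t4 ^ 2 + 1) * (2 * μ ^ 7) * ((t4 ^ 2 + 1) * (4 * μ ^ 48)) :=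
              Nat.mul_le_mul_left _ h3
          _ = (N / (t4 ^ 2 + 1) * (t4 ^ 2 + 1)) * (8 * μ ^ 55) := by ring
          _ ≤ N * m ^ 500 := Nat.mul_le_mul h2 h4
          _ = m ^ 500 * N := by ring
          _ ≤ n ^ 4 := hcnt.le
          _ = n ^ 2 * n ^ 2 := by ring
      exact Nat.le_of_mul_le_mul_right h5 (by positivity)
    have h6 : (v * (g3 / (t4 + 1))) * (2 * μ ^ 7) ≤ n ^ 2 := by
      have h2 : g3 / (t4 + 1) * (t4 + 1) ≤ g3 := Nat.div_mul_le_self _ _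
      have h3 : n ≤ (t4 + 1) * (2 * μ ^ 24) := by
        calc n ≤ 2 * (t4 * μ ^ 24) := d2
          _ = t4 * (2 * μ ^ 24) := by ring
          _ ≤ (t4 + 1) * (2 * μ ^ 24) := Nat.mul_le_mul_right _ (by omega)
      have h4 : (v * (g3 / (t4 + 1))) * (2 * μ ^ 7) * n ≤ n ^ 2 * n := by
        calc (v * (g3 / (t4 + 1))) * (2 * μ ^ 7) * n
            ≤ (μ ^ 3 * (g3 / (t4 + 1))) * (2 * μ ^ 7) * ((t4 + 1) * (2 * μ ^ 24)) := by
              gcongr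
          _ = (g3 / (t4 + 1) * (t4 + 1)) * (4 * μ ^ 34) := by ring
          _ ≤ g3 * (μ * μ ^ 34) := Nat.mul_le_mul h2 (Nat.mul_le_mul_right _ (by omega))
          _ = g3 * μ ^ 35 := by ring
          _ ≤ n ^ 3 := f1
          _ = n ^ 2 * n := by ring
      exact Nat.le_of_mul_le_mul_right h4 hnpos
    have h7 : a * μ * ((q + 1) * μ ^ 6) ≤ n * ((q + 1) * μ ^ 6) := by
      have h8 : (a * (q + 1)) * (2 * μ ^ 7) ≤ 2 * n ^ 2 := by
        calc (a * (q + 1)) * (2 * μ ^ 7)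
            ≤ (N / (t4 ^ 2 + 1) + v * (g3 / (t4 + 1))) * (2 * μ ^ 7) :=
              Nat.mul_le_mul_right _ ha
          _ = N / (t4 ^ 2 + 1) * (2 * μ ^ 7) + v * (g3 / (t4 + 1)) * (2 * μ ^ 7) := by ring
          _ ≤ n ^ 2 + n ^ 2 := Nat.add_le_add h1 h6
          _ = 2 * n ^ 2 := by ring
      have h9 : 2 * (a * μ * ((q + 1) * μ ^ 6)) ≤ 2 * (n * ((q + 1) * μ ^ 6)) := by
        calc 2 * (a * μ * ((q + 1) * μ ^ 6)) = (a * (q + 1)) * (2 * μ ^ 7) := by ring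
          _ ≤ 2 * n ^ 2 := h8
          _ = 2 * (n * n) := by ring
          _ ≤ 2 * (n * ((q + 1) * μ ^ 6)) := by gcongr
      omega
    exact Nat.le_of_mul_le_mul_right h7 (by positivity)
  have hsqμ : s * q * μ ≤ n := by
    calc s * q * μ ≤ μ ^ 4 * q * μ := by gcongr
      _ = q * μ ^ 5 := by ring
      _ ≤ q * μ ^ 6 := Nat.mul_le_mul_left _ (Nat.pow_le_pow_right hμpos (by norm_num))
      _ ≤ n := e1
  have hsμ : s * μ ≤ n := by
    calc s * μ ≤ μ ^ 4 * μ := Nat.mul_le_mul_right _ hs4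
      _ = μ ^ 5 := by ring
      _ ≤ n := hμn 5 (by norm_num)
  have hbr : (s ^ 2 * (2 * t4) + v * (s ^ 2 * (t4 + (s ^ 2 * (2 * t4) + s * (3 * t4) + 1))) +
          s * (3 * t4)) * μ ≤ 2 * n := by
    have k1 : 1 ≤ μ ^ 8 := Nat.one_le_pow _ _ hμpos
    have k4 : μ ^ 4 ≤ μ ^ 8 := Nat.pow_le_pow_right hμpos (by norm_num)
    have k8 : μ ^ 8 ≤ μ ^ 19 := Nat.pow_le_pow_right hμpos (by norm_num)
    have k419 : μ ^ 4 ≤ μ ^ 19 := Nat.pow_le_pow_right hμpos (by norm_num)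
    have h1 : s ^ 2 * (2 * t4) ≤ μ ^ 8 * (2 * t4) := by
      calc s ^ 2 * (2 * t4) ≤ (μ ^ 4) ^ 2 * (2 * t4) := by gcongr
        _ = μ ^ 8 * (2 * t4) := by ring
    have h2 : s * (3 * t4) ≤ μ ^ 8 * (3 * t4) := by
      calc s * (3 * t4) ≤ μ ^ 4 * (3 * t4) := by gcongr
        _ ≤ μ ^ 8 * (3 * t4) := by gcongr
    have h3 : t4 + (s ^ 2 * (2 * t4) + s * (3 * t4) + 1) ≤ μ ^ 8 * (6 * t4) + 1 := by
      have h4 : t4 ≤ μ ^ 8 * t4 := Nat.le_mul_of_pos_left _ k1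
      have h5 : μ ^ 8 * (6 * t4) = μ ^ 8 * t4 + μ ^ 8 * (2 * t4) + μ ^ 8 * (3 * t4) := by ring
      omega
    have h6 : v * (s ^ 2 * (t4 + (s ^ 2 * (2 * t4) + s * (3 * t4) + 1))) ≤
        μ ^ 19 * (6 * t4) + μ ^ 11 := by
      calc v * (s ^ 2 * (t4 + (s ^ 2 * (2 * t4) + s * (3 * t4) + 1)))
          ≤ μ ^ 3 * ((μ ^ 4) ^ 2 * (μ ^ 8 * (6 * t4) + 1)) := by gcongr
        _ = μ ^ 19 * (6 * t4) + μ ^ 11 := by ring
    have h7 : μ ^ 8 * (2 * t4) ≤ μ ^ 19 * (2 * t4) := by gcongr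
    have h8 : s * (3 * t4) ≤ μ ^ 19 * (3 * t4) := by
      calc s * (3 * t4) ≤ μ ^ 4 * (3 * t4) := by gcongr
        _ ≤ μ ^ 19 * (3 * t4) := by gcongr
    have h9 : (s ^ 2 * (2 * t4) + v * (s ^ 2 * (t4 + (s ^ 2 * (2 * t4) + s * (3 * t4) + 1))) +
          s * (3 * t4)) ≤ μ ^ 19 * (11 * t4) + μ ^ 11 := by
      have : μ ^ 19 * (11 * t4) = μ ^ 19 * (2 * t4) + μ ^ 19 * (6 * t4) + μ ^ 19 * (3 * t4) := by
        ring
      omega
    calc _ ≤ (μ ^ 19 * (11 * t4) + μ ^ 11) * μ := Nat.mul_le_mul_right _ h9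
      _ = 11 * (t4 * μ ^ 20) + μ ^ 12 := by ring
      _ ≤ μ * (t4 * μ ^ 20) + μ ^ 12 := by gcongr; omega
      _ = t4 * μ ^ 21 + μ ^ 12 := by ring
      _ ≤ t4 * μ ^ 24 + μ ^ 12 := by
          gcongr
          omega
      _ ≤ n + n := Nat.add_le_add d1 (hμn 12 (by norm_num))
      _ = 2 * n := by ring
  -- conclusion
  have hfinal : ham A B * μ ≤ 8 * n ^ 2 := by
    calc ham A B * μ ≤ ((t0 + a + s * q + s) * n + n * (t0 + t0 +
        (s ^ 2 * (2 * t4) + v * (s ^ 2 * (t4 + (s ^ 2 * (2 * t4) + s * (3 * t4) + 1)))) +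
          s * (3 * t4))) * μ := Nat.mul_le_mul_right _ hham
      _ = (t0 * μ + a * μ + s * q * μ + s * μ + (t0 * μ + t0 * μ +
        (s ^ 2 * (2 * t4) + v * (s ^ 2 * (t4 + (s ^ 2 * (2 * t4) + s * (3 * t4) + 1))) +
          s * (3 * t4)) * μ)) * n := by ring
      _ ≤ (n + n + n + n + (n + n + 2 * n)) * n := by
          gcongr
      _ = 8 * n ^ 2 := by ring
  have hm6 : 64 ≤ m ^ 6 := by
    calc 64 = 2 ^ 6 := by norm_num
      _ ≤ m ^ 6 := Nat.pow_le_pow_left hm 6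
  have h64 : 64 * (m * ham A B) ≤ 8 * n ^ 2 := by
    calc 64 * (m * ham A B) ≤ m ^ 6 * (m * ham A B) := Nat.mul_le_mul_right _ hm6
      _ = ham A B * m ^ 7 := by ring
      _ ≤ 8 * n ^ 2 := hfinal
  have hn2 : 0 < n ^ 2 := by positivity
  omega

end Vale.Agent.OrdRem
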