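import Vale.Agent.Lib.OrdRem.IdenCore
import Vale.Agent.Lib.OrdRem.CornerRem

/-!
# Polynomial removal for the identity pattern
-/

namespace Vale.Agent.OrdRem

open Finset

theorem div_le_of_bounds {n c : ℕ} (hc : 0 < c) (hn : c ≤ n) : n / (n / c) ≤ 2 * c := by
  obtain ⟨_, h2, _, h4⟩ := div_bounds hc hn
  have h5 : n ≤ 2 * c * (n / c) := by
    calc n ≤ 2 * (n / c * c) := h2
      _ = 2 * c * (n / c) := by ring
  exact Nat.div_le_of_le_mul (by rw [mul_comm]; exact h5)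

theorem rem2_iden : Rem2 iden := by
  refine rem2_of_large iden 700 ?_
  intro m hm n hn A hcnt
  set μ : ℕ := m ^ 7 with hμ
  have hμ128 : 128 ≤ μ := by
    calc 128 = 2 ^ 7 := by norm_num
      _ ≤ m ^ 7 := Nat.pow_le_pow_left hm 7
  have hmpow : ∀ a b : ℕ, a ≤ b → m ^ a ≤ m ^ b := fun a b h =>
    Nat.pow_le_pow_right (by omega) h
  have hμpow : ∀ k : ℕ, μ ^ k = m ^ (7 * k) := fun k => by rw [hμ, ← pow_mul]
  have hμn : ∀ k : ℕ, k ≤ 100 → μ ^ k ≤ n := by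
    intro k hk
    rw [hμpow]
    exact (hmpow _ _ (by omega)).trans hn
  have hμpos : 0 < μ := by omega
  have hnpos : 0 < n := lt_of_lt_of_le (pow_pos hμpos 1) (hμn 1 (by norm_num))
  have hμn1 : μ ≤ n := by simpa using hμn 1 (by norm_num)
  obtain ⟨a1, a2, a3, a4⟩ := div_bounds (n := n) (c := μ) hμpos hμn1
  obtain ⟨b1, b2, b3, b4⟩ := div_bounds (n := n) (c := μ ^ 3) (by positivity)
    (hμn 3 (by norm_num))
  obtain ⟨c1, c2, c3, c4⟩ := div_bounds (n := n) (c := μ ^ 4) (by positivity)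
    (hμn 4 (by norm_num))
  obtain ⟨d1, d2, d3, d4⟩ := div_bounds (n := n) (c := μ ^ 38) (by positivity)
    (hμn 38 (by norm_num))
  obtain ⟨e1, e2, e3, e4⟩ := div_bounds (n := n) (c := μ ^ 20) (by positivity)
    (hμn 20 (by norm_num))
  have hdw : n / (n / μ) ≤ 2 * μ := div_le_of_bounds hμpos hμn1
  have hdg : n / (n / μ ^ 4) ≤ 2 * μ ^ 4 := div_le_of_bounds (by positivity) (hμn 4 (by norm_num))
  set w := n / μ with hw
  set τ := n / μ ^ 3 with hτ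
  set g := n / μ ^ 4 with hg
  set t := n / μ ^ 38 with ht
  set q := n / μ ^ 20 with hq
  set N := cnt iden A with hN
  have hcond : g + 3 * t + g ≤ τ := by
    have h1 : t * μ ^ 4 ≤ n := by
      calc t * μ ^ 4 ≤ t * μ ^ 38 :=
            Nat.mul_le_mul_left _ (Nat.pow_le_pow_right hμpos (by norm_num))
        _ ≤ n := d1
    have h2 : (g + 3 * t + g) * μ ^ 4 ≤ τ * μ ^ 4 := by
      calc (g + 3 * t + g) * μ ^ 4 = g * μ ^ 4 + 3 * (t * μ ^ 4) + g * μ ^ 4 := by ring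
        _ ≤ n + 3 * n + n := by gcongr
        _ = 5 * n := by ring
        _ ≤ 5 * (2 * (τ * μ ^ 3)) := by gcongr
        _ = 10 * (τ * μ ^ 3) := by ring
        _ ≤ μ * (τ * μ ^ 3) := by gcongr; omega
        _ = τ * μ ^ 4 := by ring
    exact Nat.le_of_mul_le_mul_right h2 (by positivity)
  obtain ⟨B, s, a, e, hB, ha, he, hs, hham⟩ :=
    iden_core A t τ w g g q c4 a4 c4 hcond
  refine ⟨B, hB, ?_⟩
  have hw1 : n / w + 1 ≤ μ ^ 2 := by
    have : 3 * μ ≤ μ ^ 2 := by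
      calc 3 * μ ≤ μ * μ := Nat.mul_le_mul_right _ (by omega)
        _ = μ ^ 2 := by ring
    omega
  have hg1 : n / g + 1 ≤ μ ^ 5 := by
    have h1 : 3 * μ ^ 4 ≤ μ ^ 5 := by
      calc 3 * μ ^ 4 ≤ μ * μ ^ 4 := Nat.mul_le_mul_right _ (by omega)
        _ = μ ^ 5 := by ring
    have h2 : 1 ≤ μ ^ 4 := Nat.one_le_pow _ _ hμpos
    omega
  have he15 : e ≤ μ ^ 15 := by
    calc e ≤ (n / g + 1) * ((n / g + 1) * (n / g + 1)) := he
      _ ≤ μ ^ 5 * (μ ^ 5 * μ ^ 5) := by gcongr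
      _ = μ ^ 15 := by ring
  have hs18 : s ≤ μ ^ 18 := by
    have h1 : e + 1 ≤ μ ^ 16 := by
      have h2 : 1 ≤ μ ^ 15 := Nat.one_le_pow _ _ hμpos
      have h3 : 2 * μ ^ 15 ≤ μ ^ 16 := by
        calc 2 * μ ^ 15 ≤ μ * μ ^ 15 := Nat.mul_le_mul_right _ (by omega)
          _ = μ ^ 16 := by ring
      omega
    calc s ≤ (e + 1) * (n / w + 1) := hs
      _ ≤ μ ^ 16 * μ ^ 2 := by gcongr
      _ = μ ^ 18 := by ring
  have haμ : a * μ ≤ n := by
    have h1 : (N / (t ^ 2 + 1)) * μ ^ 21 ≤ n ^ 2 := by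
      have h2 : N / (t ^ 2 + 1) * (t ^ 2 + 1) ≤ N := Nat.div_mul_le_self _ _
      have h3 : n ^ 2 ≤ (t ^ 2 + 1) * (4 * μ ^ 76) := by
        calc n ^ 2 ≤ (2 * (t * μ ^ 38)) ^ 2 := Nat.pow_le_pow_left d2 2
          _ = t ^ 2 * (4 * μ ^ 76) := by ring
          _ ≤ (t ^ 2 + 1) * (4 * μ ^ 76) := Nat.mul_le_mul_right _ (by omega)
      have h4 : 4 * μ ^ 97 ≤ m ^ 700 := by
        calc 4 * μ ^ 97 ≤ μ * μ ^ 97 := Nat.mul_le_mul_right _ (by omega)
          _ = μ ^ 98 := by ring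
          _ = m ^ (7 * 98) := hμpow 98
          _ ≤ m ^ 700 := hmpow _ _ (by norm_num)
      have h5 : N / (t ^ 2 + 1) * μ ^ 21 * n ^ 2 ≤ n ^ 2 * n ^ 2 := by
        calc N / (t ^ 2 + 1) * μ ^ 21 * n ^ 2
            ≤ N / (t ^ 2 + 1) * μ ^ 21 * ((t ^ 2 + 1) * (4 * μ ^ 76)) :=
              Nat.mul_le_mul_left _ h3
          _ = (N / (t ^ 2 + 1) * (t ^ 2 + 1)) * (4 * μ ^ 97) := by ring
          _ ≤ N * m ^ 700 := Nat.mul_le_mul h2 h4
          _ = m ^ 700 * N := by ring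
          _ ≤ n ^ 4 := hcnt.le
          _ = n ^ 2 * n ^ 2 := by ring
      exact Nat.le_of_mul_le_mul_right h5 (by positivity)
    have h7 : a * μ * ((q + 1) * μ ^ 20) ≤ n * ((q + 1) * μ ^ 20) := by
      calc a * μ * ((q + 1) * μ ^ 20) = (a * (q + 1)) * μ ^ 21 := by ring
        _ ≤ N / (t ^ 2 + 1) * μ ^ 21 := Nat.mul_le_mul_right _ ha
        _ ≤ n ^ 2 := h1
        _ = n * n := by ring
        _ ≤ n * ((q + 1) * μ ^ 20) := by gcongr
    exact Nat.le_of_mul_le_mul_right h7 (by positivity)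
  have hsqμ : s * q * μ ≤ n := by
    calc s * q * μ ≤ μ ^ 18 * q * μ := by gcongr
      _ = q * μ ^ 19 := by ring
      _ ≤ q * μ ^ 20 := Nat.mul_le_mul_left _ (Nat.pow_le_pow_right hμpos (by norm_num))
      _ ≤ n := e1
  have hst : s ^ 2 * (2 * t) * μ ≤ n := by
    calc s ^ 2 * (2 * t) * μ ≤ (μ ^ 18) ^ 2 * (2 * t) * μ := by gcongr
      _ = 2 * (t * μ ^ 37) := by ring
      _ ≤ μ * (t * μ ^ 37) := by gcongr; omega
      _ = t * μ ^ 38 := by ring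
      _ ≤ n := d1
  have hτw : 2 * (τ + w) * μ ≤ 4 * n := by
    have h1 : τ * μ ≤ n := by
      calc τ * μ = τ * μ ^ 1 := by ring
        _ ≤ τ * μ ^ 3 := Nat.mul_le_mul_left _ (Nat.pow_le_pow_right hμpos (by norm_num))
        _ ≤ n := b1
    calc 2 * (τ + w) * μ = 2 * (τ * μ) + 2 * (w * μ) := by ring
      _ ≤ 2 * n + 2 * n := by gcongr
      _ = 4 * n := by ring
  have hwτ : (n / w + 1) * τ * μ ≤ n := by
    calc (n / w + 1) * τ * μ ≤ μ ^ 2 * τ * μ := by gcongr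
      _ = τ * μ ^ 3 := by ring
      _ ≤ n := b1
  have hfinal : ham A B * μ ≤ 8 * n ^ 2 := by
    calc ham A B * μ ≤ ((a + s * q) * n +
          n * (s ^ 2 * (2 * t) + 2 * (τ + w) + (n / w + 1) * τ)) * μ :=
          Nat.mul_le_mul_right _ hham
      _ = (a * μ + s * q * μ + (s ^ 2 * (2 * t) * μ + 2 * (τ + w) * μ +
          (n / w + 1) * τ * μ)) * n := by ring
      _ ≤ (n + n + (n + 4 * n + n)) * n := by gcongr
      _ = 8 * n ^ 2 := by ring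
  have hm6 : 64 ≤ m ^ 6 := by
    calc 64 = 2 ^ 6 := by norm_num
      _ ≤ m ^ 6 := Nat.pow_le_pow_left hm 6
  have h64 : 64 * (m * ham A B) ≤ 8 * n ^ 2 := by
    calc 64 * (m * ham A B) ≤ m ^ 6 * (m * ham A B) := Nat.mul_le_mul_right _ hm6
      _ = ham A B * m ^ 7 := by ring
      _ ≤ 8 * n ^ 2 := hfinal
  have hn2 : 0 < n ^ 2 := by positivity
  omega

end Vale.Agent.OrdRem
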