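import Vale.Agent.Lib.OrdRem.Easy
import Vale.Agent.Lib.OrdRem.IdenRem

/-!
# Polynomial removal for all two by two patterns
-/

namespace Vale.Agent.OrdRem

/-- The four base patterns. -/
def basePat : Fin 4 → (Fin 2 → Fin 2 → Bool)
  | 0 => ones
  | 1 => stripe
  | 2 => corner
  | 3 => iden

theorem rem2_basePat (b : Fin 4) : Rem2 (basePat b) := by
  fin_cases b
  · exact rem2_ones
  · exact rem2_stripe
  · exact rem2_corner
  · exact rem2_iden

/-- Apply a choice of the symmetries. -/
def symm2 (cp tr rr rc : Bool) (G : Fin 2 → Fin 2 → Bool) : Fin 2 → Fin 2 → Bool :=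
  let G1 : Fin 2 → Fin 2 → Bool := if rc then fun i j => G i (Fin.rev j) else G
  let G2 : Fin 2 → Fin 2 → Bool := if rr then fun i j => G1 (Fin.rev i) j else G1
  let G3 : Fin 2 → Fin 2 → Bool := if tr then fun i j => G2 j i else G2
  if cp then fun i j => !(G3 i j) else G3

theorem Rem2.symm2 {G : Fin 2 → Fin 2 → Bool} (h : Rem2 G) (cp tr rr rc : Bool) :
    Rem2 (symm2 cp tr rr rc G) := by
  unfold OrdRem.symm2
  have h1 : Rem2 (if rc then fun i j => G i (Fin.rev j) else G) := by
    cases rc
    · simpa using h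
    · simpa using h.rev_cols
  simp only
  generalize (if rc then fun i j => G i (Fin.rev j) else G) = G1 at h1 ⊢
  have h2 : Rem2 (if rr then fun i j => G1 (Fin.rev i) j else G1) := by
    cases rr
    · simpa using h1
    · simpa using h1.rev_rows
  generalize (if rr then fun i j => G1 (Fin.rev i) j else G1) = G2 at h2 ⊢
  have h3 : Rem2 (if tr then fun i j => G2 j i else G2) := by
    cases tr
    · simpa using h2
    · simpa using h2.transpose
  generalize (if tr then fun i j => G2 j i else G2) = G3 at h3 ⊢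
  cases cp
  · simpa using h3
  · simpa using h3.compl

theorem exists_symm2 (a b c d : Bool) : ∃ (k : Fin 4) (cp tr rr rc : Bool),
    (symm2 cp tr rr rc (basePat k) 0 0 = a ∧ symm2 cp tr rr rc (basePat k) 0 1 = b) ∧
    (symm2 cp tr rr rc (basePat k) 1 0 = c ∧ symm2 cp tr rr rc (basePat k) 1 1 = d) := by
  revert a b c d
  decide

/-- Polynomial removal holds for every two by two pattern. -/
theorem rem2_all (G : Fin 2 → Fin 2 → Bool) : Rem2 G := by
  obtain ⟨k, cp, tr, rr, rc, ⟨h1, h2⟩, h3, h4⟩ := exists_symm2 (G 0 0) (G 0 1) (G 1 0) (G 1 1)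
  have h : G = symm2 cp tr rr rc (basePat k) := by
    funext i j
    fin_cases i <;> fin_cases j
    · exact h1.symm
    · exact h2.symm
    · exact h3.symm
    · exact h4.symm
  rw [h]
  exact (rem2_basePat k).symm2 cp tr rr rc

end Vale.Agent.OrdRem
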