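import Mathlib

/-!
# Ordered binary matrices: two by two patterns

Basic definitions and counting lemmas used in the polynomial removal lemma for the monotone
blow-ups of two by two patterns.
-/

namespace Vale.Agent.OrdRem

open Finset

variable {n : ℕ}

/-- The quadruple `(r, r', c, c')` carries an ordered copy of the two by two pattern `G`. -/
def Occ (G : Fin 2 → Fin 2 → Bool) (A : Fin n → Fin n → Bool)
    (q : (Fin n × Fin n) × (Fin n × Fin n)) : Prop :=
  q.1.1 < q.1.2 ∧ q.2.1 < q.2.2 ∧ A q.1.1 q.2.1 = G 0 0 ∧ A q.1.1 q.2.2 = G 0 1 ∧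
    A q.1.2 q.2.1 = G 1 0 ∧ A q.1.2 q.2.2 = G 1 1

instance (G : Fin 2 → Fin 2 → Bool) (A : Fin n → Fin n → Bool) : DecidablePred (Occ G A) :=
  fun q => by unfold Occ; infer_instance

/-- The number of ordered copies of a two by two pattern. -/
def cnt (G : Fin 2 → Fin 2 → Bool) (A : Fin n → Fin n → Bool) : ℕ :=
  (univ.filter (Occ G A)).card

/-- Number of entries in which two matrices differ. -/
def ham (A B : Fin n → Fin n → Bool) : ℕ :=
  (univ.filter fun p : Fin n × Fin n => A p.1 p.2 ≠ B p.1 p.2).card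

/-- Polynomial removal for a two by two pattern, in terms of `1 / m`. -/
def Rem2 (G : Fin 2 → Fin 2 → Bool) : Prop :=
  ∃ C : ℕ, ∀ m : ℕ, 2 ≤ m → ∀ n : ℕ, 1 ≤ n → ∀ A : Fin n → Fin n → Bool,
    (∀ B : Fin n → Fin n → Bool, cnt G B = 0 → n ^ 2 ≤ m * ham A B) →
      n ^ 4 ≤ m ^ C * cnt G A

/-- A criterion for `Rem2`: it is enough to treat large sizes. -/
theorem rem2_of_large (G : Fin 2 → Fin 2 → Bool) (C : ℕ)
    (h : ∀ m : ℕ, 2 ≤ m → ∀ n : ℕ, m ^ C ≤ n → ∀ A : Fin n → Fin n → Bool,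
      m ^ C * cnt G A < n ^ 4 → ∃ B : Fin n → Fin n → Bool, cnt G B = 0 ∧ m * ham A B < n ^ 2) :
    Rem2 G := by
  refine ⟨4 * C, ?_⟩
  intro m hm n hn A hfar
  by_contra hcon
  push Not at hcon
  have hle : m ^ C ≤ m ^ (4 * C) := Nat.pow_le_pow_right (by omega) (by omega)
  by_cases hnl : m ^ C ≤ n
  · obtain ⟨B, hB0, hB⟩ := h m hm n hnl A
      (lt_of_le_of_lt (Nat.mul_le_mul_right _ hle) hcon)
    have := hfar B hB0
    omega
  · push Not at hnl
    have hpos : 1 ≤ cnt G A := by
      by_contra h0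
      have h0' : cnt G A = 0 := by omega
      have := hfar A h0'
      have hz : ham A A = 0 := by
        simp [ham]
      rw [hz] at this
      have : 1 ≤ n ^ 2 := Nat.one_le_pow _ _ hn
      omega
    have h1 : n ^ 4 < (m ^ C) ^ 4 := Nat.pow_lt_pow_left hnl (by norm_num)
    have h2 : (m ^ C) ^ 4 = m ^ (4 * C) := by rw [← pow_mul, mul_comm]
    have h3 : m ^ (4 * C) * 1 ≤ m ^ (4 * C) * cnt G A := Nat.mul_le_mul_left _ hpos
    omega

/-! ### Symmetries -/

theorem ham_rev_rows (A B : Fin n → Fin n → Bool) :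
    ham (fun r c => A (Fin.rev r) c) (fun r c => B (Fin.rev r) c) = ham A B := by
  unfold ham
  refine Finset.card_bij (fun p _ => (Fin.rev p.1, p.2)) ?_ ?_ ?_
  · intro p hp
    simpa using hp
  · intro p _ q _ h
    simp only [Prod.mk.injEq, Fin.rev_inj] at h
    exact Prod.ext h.1 h.2
  · intro p hp
    refine ⟨(Fin.rev p.1, p.2), ?_, ?_⟩
    · simpa using hp
    · simp

theorem ham_transpose (A B : Fin n → Fin n → Bool) :
    ham (fun r c => A c r) (fun r c => B c r) = ham A B := by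
  unfold ham
  refine Finset.card_bij (fun p _ => (p.2, p.1)) ?_ ?_ ?_
  · intro p hp
    simpa using hp
  · intro p _ q _ h
    simp only [Prod.mk.injEq] at h
    exact Prod.ext h.2 h.1
  · intro p hp
    refine ⟨(p.2, p.1), ?_, ?_⟩
    · simpa using hp
    · simp

theorem ham_compl (A B : Fin n → Fin n → Bool) :
    ham (fun r c => !(A r c)) (fun r c => !(B r c)) = ham A B := by
  unfold ham
  congr 1
  ext p
  simp

theorem cnt_rev_rows (G : Fin 2 → Fin 2 → Bool) (A : Fin n → Fin n → Bool) :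
    cnt (fun i j => G (Fin.rev i) j) (fun r c => A (Fin.rev r) c) = cnt G A := by
  unfold cnt
  refine Finset.card_bij (fun q _ => ((Fin.rev q.1.2, Fin.rev q.1.1), q.2)) ?_ ?_ ?_
  · intro q hq
    simp only [mem_filter, mem_univ, true_and, Occ] at hq ⊢
    obtain ⟨h1, h2, h3, h4, h5, h6⟩ := hq
    refine ⟨by simpa using h1, h2, ?_, ?_, ?_, ?_⟩
    · simpa using h5
    · simpa using h6
    · simpa using h3
    · simpa using h4
  · intro p _ q _ h
    simp only [Prod.mk.injEq, Fin.rev_inj] at h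
    obtain ⟨⟨h1, h2⟩, h3⟩ := h
    exact Prod.ext (Prod.ext h2 h1) h3
  · intro q hq
    simp only [mem_filter, mem_univ, true_and, Occ] at hq
    obtain ⟨h1, h2, h3, h4, h5, h6⟩ := hq
    refine ⟨((Fin.rev q.1.2, Fin.rev q.1.1), q.2), ?_, ?_⟩
    · simp only [mem_filter, mem_univ, true_and, Occ]
      refine ⟨by simpa using h1, h2, ?_, ?_, ?_, ?_⟩
      · simpa using h5
      · simpa using h6
      · simpa using h3
      · simpa using h4
    · simp

theorem cnt_transpose (G : Fin 2 → Fin 2 → Bool) (A : Fin n → Fin n → Bool) :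
    cnt (fun i j => G j i) (fun r c => A c r) = cnt G A := by
  unfold cnt
  refine Finset.card_bij (fun q _ => (q.2, q.1)) ?_ ?_ ?_
  · intro q hq
    simp only [mem_filter, mem_univ, true_and, Occ] at hq ⊢
    obtain ⟨h1, h2, h3, h4, h5, h6⟩ := hq
    exact ⟨h2, h1, h3, h5, h4, h6⟩
  · intro p _ q _ h
    simp only [Prod.mk.injEq] at h
    exact Prod.ext h.2 h.1
  · intro q hq
    simp only [mem_filter, mem_univ, true_and, Occ] at hq
    obtain ⟨h1, h2, h3, h4, h5, h6⟩ := hq
    refine ⟨(q.2, q.1), ?_, ?_⟩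
    · simp only [mem_filter, mem_univ, true_and, Occ]
      exact ⟨h2, h1, h3, h5, h4, h6⟩
    · simp

theorem cnt_compl (G : Fin 2 → Fin 2 → Bool) (A : Fin n → Fin n → Bool) :
    cnt (fun i j => !(G i j)) (fun r c => !(A r c)) = cnt G A := by
  unfold cnt
  congr 1
  ext q
  simp [Occ]

theorem Rem2.rev_rows {G : Fin 2 → Fin 2 → Bool} (h : Rem2 G) :
    Rem2 (fun i j => G (Fin.rev i) j) := by
  obtain ⟨C, h⟩ := h
  refine ⟨C, ?_⟩
  intro m hm n hn A hfar
  have h1 := h m hm n hn (fun r c => A (Fin.rev r) c) ?_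
  · have h2 := cnt_rev_rows G (fun r c => A (Fin.rev r) c)
    simp only [Fin.rev_rev] at h2
    rw [h2]
    exact h1
  · intro B hB
    have h3 := hfar (fun r c => B (Fin.rev r) c) (by rw [cnt_rev_rows]; exact hB)
    have h4 := ham_rev_rows (fun r c => A (Fin.rev r) c) B
    simp only [Fin.rev_rev] at h4
    rw [← h4]
    exact h3

theorem Rem2.transpose {G : Fin 2 → Fin 2 → Bool} (h : Rem2 G) :
    Rem2 (fun i j => G j i) := by
  obtain ⟨C, h⟩ := h
  refine ⟨C, ?_⟩
  intro m hm n hn A hfar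
  have h1 := h m hm n hn (fun r c => A c r) ?_
  · have h2 := cnt_transpose G (fun r c => A c r)
    rw [h2]
    exact h1
  · intro B hB
    have h3 := hfar (fun r c => B c r) (by rw [cnt_transpose]; exact hB)
    have h4 := ham_transpose (fun r c => A c r) B
    rw [← h4]
    exact h3

theorem Rem2.compl {G : Fin 2 → Fin 2 → Bool} (h : Rem2 G) :
    Rem2 (fun i j => !(G i j)) := by
  obtain ⟨C, h⟩ := h
  refine ⟨C, ?_⟩
  intro m hm n hn A hfar
  have h1 := h m hm n hn (fun r c => !(A r c)) ?_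
  · have h2 := cnt_compl G (fun r c => !(A r c))
    simp only [Bool.not_not] at h2
    rw [h2]
    exact h1
  · intro B hB
    have h3 := hfar (fun r c => !(B r c)) (by rw [cnt_compl]; exact hB)
    have h4 := ham_compl (fun r c => !(A r c)) B
    simp only [Bool.not_not] at h4
    rw [← h4]
    exact h3

theorem Rem2.rev_cols {G : Fin 2 → Fin 2 → Bool} (h : Rem2 G) :
    Rem2 (fun i j => G i (Fin.rev j)) :=
  h.transpose.rev_rows.transpose

end Vale.Agent.OrdRem
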