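import Vale.Agent.Lib.OrdRem.Basic

/-!
# Counting blow-ups

A dense four-partite relation contains many complete blow-ups of prescribed part sizes.
-/

namespace Vale.Agent.OrdRem

open Finset

theorem pow_sum_le_nat {τ : Type*} [Fintype τ] (f : τ → ℕ) (b : ℕ) :
    (∑ t, f t) ^ (b + 1) ≤ (Fintype.card τ) ^ b * ∑ t, f t ^ (b + 1) := by
  rcases isEmpty_or_nonempty τ with hτ | hτ
  · simp
  · have h := pow_sum_div_card_le_sum_pow (s := (univ : Finset τ)) (f := fun t => (f t : ℝ))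
      (fun _ _ => Nat.cast_nonneg _) b
    have hpos : (0 : ℝ) < ((univ : Finset τ).card : ℝ) ^ b := by
      have : 0 < (univ : Finset τ).card := card_pos.mpr univ_nonempty
      positivity
    rw [div_le_iff₀ hpos] at h
    have h2 : (((∑ t, f t) ^ (b + 1) : ℕ) : ℝ) ≤
        (((Fintype.card τ) ^ b * ∑ t, f t ^ (b + 1) : ℕ) : ℝ) := by
      push_cast
      rw [card_univ] at h
      linarith
    exact_mod_cast h2

/-- One step of the blow-up count: replacing a vertex by an `a`-tuple of vertices. -/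
theorem blow_step {Ω τ : Type*} [Fintype Ω] [Fintype τ] (Q : Ω → τ → Prop)
    [∀ ω t, Decidable (Q ω t)] (a : ℕ) (ha : 1 ≤ a) :
    (univ.filter fun p : Ω × τ => Q p.1 p.2).card ^ a ≤ (Fintype.card τ) ^ (a - 1) *
      (univ.filter fun p : (Fin a → Ω) × τ => ∀ i, Q (p.1 i) p.2).card := by
  classical
  have h1 : (univ.filter fun p : Ω × τ => Q p.1 p.2).card =
      ∑ t : τ, (univ.filter fun ω : Ω => Q ω t).card := by
    rw [card_filter]
    rw [← univ_product_univ, sum_product_right]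
    refine sum_congr rfl fun t _ => ?_
    rw [card_filter]
  have h2 : (univ.filter fun p : (Fin a → Ω) × τ => ∀ i, Q (p.1 i) p.2).card =
      ∑ t : τ, (univ.filter fun ω : Ω => Q ω t).card ^ a := by
    rw [card_filter]
    rw [← univ_product_univ, sum_product_right]
    refine sum_congr rfl fun t _ => ?_
    rw [← card_filter]
    have : (univ.filter fun x : Fin a → Ω => ∀ i, Q (x i) t) =
        Fintype.piFinset fun _ : Fin a => univ.filter fun ω : Ω => Q ω t := by
      ext x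
      simp [Fintype.mem_piFinset]
    rw [this, Fintype.card_piFinset]
    simp
  rw [h1, h2]
  obtain ⟨b, rfl⟩ : ∃ b, a = b + 1 := ⟨a - 1, by omega⟩
  exact pow_sum_le_nat _ b

/-- Arithmetic of one step. -/
theorem blow_arith {n s a N N' M : ℕ} (hn : 1 ≤ n) (ha : 1 ≤ a) (h1 : n ^ (s + 1) ≤ M * N)
    (h2 : N ^ a ≤ (n ^ s) ^ (a - 1) * N') : n ^ (s + a) ≤ M ^ a * N' := by
  have h3 : (n ^ (s + 1)) ^ a ≤ M ^ a * ((n ^ s) ^ (a - 1) * N') := by
    calc (n ^ (s + 1)) ^ a ≤ (M * N) ^ a := Nat.pow_le_pow_left h1 a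
      _ = M ^ a * N ^ a := mul_pow _ _ _
      _ ≤ _ := Nat.mul_le_mul_left _ h2
  have h4 : (n ^ (s + 1)) ^ a = (n ^ s) ^ (a - 1) * n ^ (s + a) := by
    rw [← pow_mul, ← pow_mul, ← pow_add]
    congr 1
    obtain ⟨b, rfl⟩ : ∃ b, a = b + 1 := ⟨a - 1, by omega⟩
    simp only [Nat.add_sub_cancel]
    ring
  rw [h4] at h3
  have h5 : M ^ a * ((n ^ s) ^ (a - 1) * N') = (n ^ s) ^ (a - 1) * (M ^ a * N') := by ring
  rw [h5] at h3
  have hpos : 0 < (n ^ s) ^ (a - 1) := by positivity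
  exact Nat.le_of_mul_le_mul_left h3 hpos

/-- Tuples of rows and columns all of whose quadruples satisfy `P`. -/
def Blown {n : ℕ} (P : Fin n → Fin n → Fin n → Fin n → Prop) (a a' b b' : ℕ)
    (p : (Fin a → Fin n) × (Fin a' → Fin n) × (Fin b → Fin n) × (Fin b' → Fin n)) : Prop :=
  ∀ i j l u, P (p.1 i) (p.2.1 j) (p.2.2.1 l) (p.2.2.2 u)

/-- The blow-up count. -/
theorem blow_count {n : ℕ} (hn : 1 ≤ n) (P : Fin n → Fin n → Fin n → Fin n → Prop)
    [∀ r r' c c', Decidable (P r r' c c')] (a a' b b' : ℕ) (ha : 1 ≤ a) (ha' : 1 ≤ a')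
    (hb : 1 ≤ b) (hb' : 1 ≤ b') (M : ℕ)
    [DecidablePred (Blown P a a' b b')]
    (h : n ^ 4 ≤ M * (univ.filter fun p : Fin n × Fin n × Fin n × Fin n =>
      P p.1 p.2.1 p.2.2.1 p.2.2.2).card) :
    n ^ (a + a' + b + b') ≤ (((M ^ a) ^ a') ^ b) ^ b' *
      (univ.filter (Blown P a a' b b')).card := by
  classical
  -- first step
  have s1 := blow_step (Ω := Fin n) (τ := Fin n × Fin n × Fin n)
    (fun r t => P r t.1 t.2.1 t.2.2) a ha
  have c1 : Fintype.card (Fin n × Fin n × Fin n) = n ^ 3 := by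
    simp [Fintype.card_prod]
    ring
  rw [c1] at s1
  have e1 := blow_arith hn ha (s := 3) h s1
  -- second step
  have s2 := blow_step (Ω := Fin n) (τ := (Fin a → Fin n) × Fin n × Fin n)
    (fun r' t => ∀ i, P (t.1 i) r' t.2.1 t.2.2) a' ha'
  have c2 : Fintype.card ((Fin a → Fin n) × Fin n × Fin n) = n ^ (a + 2) := by
    simp only [Fintype.card_prod, Fintype.card_pi, Fintype.card_fin, prod_const, card_univ]
    ring
  rw [c2] at s2
  have d2 : (univ.filter fun p : (Fin a → Fin n) × Fin n × Fin n × Fin n =>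
      ∀ i, P (p.1 i) p.2.1 p.2.2.1 p.2.2.2).card =
      (univ.filter fun p : Fin n × (Fin a → Fin n) × Fin n × Fin n =>
        ∀ i, P (p.2.1 i) p.1 p.2.2.1 p.2.2.2).card := by
    refine card_bij (fun p _ => (p.2.1, p.1, p.2.2)) ?_ ?_ ?_
    · intro p hp
      simpa using hp
    · intro p _ q _ hpq
      simp only [Prod.mk.injEq] at hpq
      obtain ⟨h1, h2, h3⟩ := hpq
      exact Prod.ext h2 (Prod.ext h1 h3)
    · intro q hq
      exact ⟨(q.2.1, q.1, q.2.2), by simpa using hq, rfl⟩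
  have e1' : n ^ (a + 2 + 1) ≤ M ^ a * (univ.filter fun p : Fin n × (Fin a → Fin n) × Fin n × Fin n =>
        ∀ i, P (p.2.1 i) p.1 p.2.2.1 p.2.2.2).card := by
    rw [← d2]
    have : a + 2 + 1 = 3 + a := by ring
    rw [this]
    exact e1
  have e2 := blow_arith hn ha' e1' s2
  -- third step
  have s3 := blow_step (Ω := Fin n) (τ := (Fin a → Fin n) × (Fin a' → Fin n) × Fin n)
    (fun c t => ∀ i j, P (t.1 i) (t.2.1 j) c t.2.2) b hb
  have c3 : Fintype.card ((Fin a → Fin n) × (Fin a' → Fin n) × Fin n) = n ^ (a + a' + 1) := by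
    simp only [Fintype.card_prod, Fintype.card_pi, Fintype.card_fin, prod_const, card_univ]
    ring
  rw [c3] at s3
  have d3 : (univ.filter fun p : (Fin a' → Fin n) × (Fin a → Fin n) × Fin n × Fin n =>
      ∀ j, ∀ i, P (p.2.1 i) (p.1 j) p.2.2.1 p.2.2.2).card =
      (univ.filter fun p : Fin n × (Fin a → Fin n) × (Fin a' → Fin n) × Fin n =>
        ∀ i j, P (p.2.1 i) (p.2.2.1 j) p.1 p.2.2.2).card := by
    refine card_bij (fun p _ => (p.2.2.1, p.2.1, p.1, p.2.2.2)) ?_ ?_ ?_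
    · intro p hp
      simp only [mem_filter, mem_univ, true_and] at hp ⊢
      exact fun i j => hp j i
    · intro p _ q _ hpq
      simp only [Prod.mk.injEq] at hpq
      obtain ⟨h1, h2, h3, h4⟩ := hpq
      exact Prod.ext h3 (Prod.ext h2 (Prod.ext h1 h4))
    · intro q hq
      refine ⟨(q.2.2.1, q.2.1, q.1, q.2.2.2), ?_, rfl⟩
      simp only [mem_filter, mem_univ, true_and] at hq ⊢
      exact fun j i => hq i j
  have e2' : n ^ (a + a' + 1 + 1) ≤ (M ^ a) ^ a' *
      (univ.filter fun p : Fin n × (Fin a → Fin n) × (Fin a' → Fin n) × Fin n =>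
        ∀ i j, P (p.2.1 i) (p.2.2.1 j) p.1 p.2.2.2).card := by
    rw [← d3]
    have : a + a' + 1 + 1 = a + 2 + a' := by ring
    rw [this]
    exact e2
  have e3 := blow_arith hn hb e2' s3
  -- fourth step
  have s4 := blow_step (Ω := Fin n) (τ := (Fin a → Fin n) × (Fin a' → Fin n) × (Fin b → Fin n))
    (fun c' t => ∀ i j l, P (t.1 i) (t.2.1 j) (t.2.2 l) c') b' hb'
  have c4 : Fintype.card ((Fin a → Fin n) × (Fin a' → Fin n) × (Fin b → Fin n)) =
      n ^ (a + a' + b) := by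
    simp only [Fintype.card_prod, Fintype.card_pi, Fintype.card_fin, prod_const, card_univ]
    ring
  rw [c4] at s4
  have d4 : (univ.filter fun p : (Fin b → Fin n) × (Fin a → Fin n) × (Fin a' → Fin n) × Fin n =>
      ∀ l, ∀ i j, P (p.2.1 i) (p.2.2.1 j) (p.1 l) p.2.2.2).card =
      (univ.filter fun p : Fin n × (Fin a → Fin n) × (Fin a' → Fin n) × (Fin b → Fin n) =>
        ∀ i j l, P (p.2.1 i) (p.2.2.1 j) (p.2.2.2 l) p.1).card := by
    refine card_bij (fun p _ => (p.2.2.2, p.2.1, p.2.2.1, p.1)) ?_ ?_ ?_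
    · intro p hp
      simp only [mem_filter, mem_univ, true_and] at hp ⊢
      exact fun i j l => hp l i j
    · intro p _ q _ hpq
      simp only [Prod.mk.injEq] at hpq
      obtain ⟨h1, h2, h3, h4⟩ := hpq
      exact Prod.ext h4 (Prod.ext h2 (Prod.ext h3 h1))
    · intro q hq
      refine ⟨(q.2.2.2, q.2.1, q.2.2.1, q.1), ?_, rfl⟩
      simp only [mem_filter, mem_univ, true_and] at hq ⊢
      exact fun l i j => hq i j l
  have e3' : n ^ (a + a' + b + 1) ≤ ((M ^ a) ^ a') ^ b *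
      (univ.filter fun p : Fin n × (Fin a → Fin n) × (Fin a' → Fin n) × (Fin b → Fin n) =>
        ∀ i j l, P (p.2.1 i) (p.2.2.1 j) (p.2.2.2 l) p.1).card := by
    rw [← d4]
    have : a + a' + b + 1 = a + a' + 1 + b := by ring
    rw [this]
    exact e3
  have e4 := blow_arith hn hb' e3' s4
  have d5 : (univ.filter fun p : (Fin b' → Fin n) × (Fin a → Fin n) × (Fin a' → Fin n) ×
      (Fin b → Fin n) => ∀ u, ∀ i j l, P (p.2.1 i) (p.2.2.1 j) (p.2.2.2 l) (p.1 u)).card =
      (univ.filter (Blown P a a' b b')).card := by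
    refine card_bij (fun p _ => (p.2.1, p.2.2.1, p.2.2.2, p.1)) ?_ ?_ ?_
    · intro p hp
      simp only [mem_filter, mem_univ, true_and] at hp ⊢
      exact fun i j l u => hp u i j l
    · intro p _ q _ hpq
      simp only [Prod.mk.injEq] at hpq
      obtain ⟨h1, h2, h3, h4⟩ := hpq
      exact Prod.ext h4 (Prod.ext h1 (Prod.ext h2 h3))
    · intro q hq
      refine ⟨(q.2.2.2, q.1, q.2.1, q.2.2.1), ?_, rfl⟩
      simp only [mem_filter, mem_univ, true_and] at hq ⊢
      exact fun u i j l => hq i j l u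
  rw [← d5]
  exact e4

end Vale.Agent.OrdRem
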