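import Vale.Agent.Lib.OrdRem.Blow

/-!
# From blow-ups of a two by two pattern to ordered copies of the large pattern
-/

namespace Vale.Agent.OrdRem

open Finset

/-- An ordered copy of a square pattern, as a pair of increasing choices of rows and columns. -/
def CopyOf {k n : ℕ} (H : Fin k → Fin k → Bool) (A : Fin n → Fin n → Bool)
    (p : (Fin k → Fin n) × (Fin k → Fin n)) : Prop :=
  StrictMono p.1 ∧ StrictMono p.2 ∧ ∀ i j, A (p.1 i) (p.2 j) = H i j

open Classical in
/-- The number of ordered copies of a square pattern. -/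
noncomputable def cntH {k n : ℕ} (H : Fin k → Fin k → Bool) (A : Fin n → Fin n → Bool) : ℕ :=
  (univ.filter (CopyOf H A)).card

theorem card_eq_entries_le (a n : ℕ) (i j : Fin a) (hij : i ≠ j) :
    (univ.filter fun x : Fin a → Fin n => x i = x j).card ≤ n ^ (a - 1) := by
  classical
  have h : Fintype.card ({l : Fin a // l ≠ i} → Fin n) = n ^ (a - 1) := by
    rw [Fintype.card_fun, Fintype.card_fin]
    congr 1
    rw [Fintype.card_subtype_compl]
    simp
  rw [← h, ← card_univ]
  refine card_le_card_of_injOn (fun x l => x l.1) (fun _ _ => mem_coe.mpr (mem_univ _)) ?_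
  intro x hx y hy hxy
  simp only [coe_filter, mem_univ, true_and, Set.mem_ofPred_eq] at hx hy
  have h1 : ∀ l, l ≠ i → x l = y l := fun l hl => congrFun hxy ⟨l, hl⟩
  funext l
  by_cases hl : l = i
  · subst hl
    rw [hx, hy]
    exact h1 j (fun h => hij h.symm)
  · exact h1 l hl

theorem card_not_inj (a n : ℕ) [DecidablePred fun x : Fin a → Fin n => ¬ Function.Injective x] :
    (univ.filter fun x : Fin a → Fin n => ¬ Function.Injective x).card ≤
      a ^ 2 * n ^ (a - 1) := by
  classical
  have hsub : (univ.filter fun x : Fin a → Fin n => ¬ Function.Injective x) ⊆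
      ((univ : Finset (Fin a × Fin a)).filter fun p => p.1 ≠ p.2).biUnion
        fun p => univ.filter fun x : Fin a → Fin n => x p.1 = x p.2 := by
    intro x hx
    have hx2 := (mem_filter.mp hx).2
    unfold Function.Injective at hx2
    push Not at hx2
    obtain ⟨i, j, h1, h2⟩ := hx2
    simp only [mem_biUnion, mem_filter, mem_univ, true_and]
    exact ⟨(i, j), h2, h1⟩
  refine (card_le_card hsub).trans ?_
  refine (card_biUnion_le_card_mul _ _ (n ^ (a - 1)) ?_).trans ?_
  · intro p hp
    exact card_eq_entries_le a n p.1 p.2 (by simpa using hp)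
  · refine Nat.mul_le_mul_right _ ?_
    refine (card_filter_le _ _).trans ?_
    simp [sq]

/-- Joining two increasing families of points. -/
theorem exists_join {n k a a' : ℕ} (hk : k = a + a') (x : Fin a → Fin n) (y : Fin a' → Fin n)
    (hx : Function.Injective x) (hy : Function.Injective y) (hxy : ∀ i j, x i < y j) :
    ∃ R : Fin k → Fin n, StrictMono R ∧ (∀ i : Fin k, i.val < a → ∃ i', R i = x i') ∧
      (∀ i : Fin k, a ≤ i.val → ∃ j', R i = y j') ∧ (∀ i', ∃ i, R i = x i') ∧
      (∀ j', ∃ i, R i = y j') := by
  classical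
  have hcx : (univ.image x).card = a := by
    rw [card_image_of_injective _ hx]
    simp
  have hcy : (univ.image y).card = a' := by
    rw [card_image_of_injective _ hy]
    simp
  set ex := (univ.image x).orderEmbOfFin hcx with hex
  set ey := (univ.image y).orderEmbOfFin hcy with hey
  have mx : ∀ i, ∃ i', ex i = x i' := by
    intro i
    have := (univ.image x).orderEmbOfFin_mem hcx i
    rw [mem_image] at this
    obtain ⟨i', _, h⟩ := this
    exact ⟨i', h.symm⟩
  have my : ∀ i, ∃ i', ey i = y i' := by
    intro i
    have := (univ.image y).orderEmbOfFin_mem hcy i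
    rw [mem_image] at this
    obtain ⟨i', _, h⟩ := this
    exact ⟨i', h.symm⟩
  have sx : ∀ i', ∃ i, ex i = x i' := by
    intro i'
    have h1 : x i' ∈ Set.range ex := by
      rw [hex, range_orderEmbOfFin]
      simp
    exact h1
  have sy : ∀ i', ∃ i, ey i = y i' := by
    intro i'
    have h1 : y i' ∈ Set.range ey := by
      rw [hey, range_orderEmbOfFin]
      simp
    exact h1
  refine ⟨fun i => if h : i.val < a then ex ⟨i.val, h⟩ else ey ⟨i.val - a, by omega⟩,
    ?_, ?_, ?_, ?_, ?_⟩
  · intro i j hij
    simp only
    by_cases h1 : i.val < a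
    · by_cases h2 : j.val < a
      · rw [dif_pos h1, dif_pos h2]
        exact ex.strictMono hij
      · rw [dif_pos h1, dif_neg h2]
        obtain ⟨i', e1⟩ := mx ⟨i.val, h1⟩
        obtain ⟨j', e2⟩ := my ⟨j.val - a, by omega⟩
        rw [e1, e2]
        exact hxy i' j'
    · have h2 : ¬ j.val < a := by
        have : i.val < j.val := hij
        omega
      rw [dif_neg h1, dif_neg h2]
      refine ey.strictMono ?_
      have h3 : i.val < j.val := hij
      show (⟨i.val - a, _⟩ : Fin a') < ⟨j.val - a, _⟩
      rw [Fin.lt_def]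
      simp only
      omega
  · intro i hi
    simp only [dif_pos hi]
    exact mx _
  · intro i hi
    have : ¬ i.val < a := by omega
    simp only [dif_neg this]
    exact my _
  · intro i'
    obtain ⟨i, hi⟩ := sx i'
    refine ⟨⟨i.val, by omega⟩, ?_⟩
    simp only [dif_pos i.isLt]
    exact hi
  · intro i'
    obtain ⟨i, hi⟩ := sy i'
    refine ⟨⟨a + i.val, by omega⟩, ?_⟩
    have : ¬ (a + i.val < a) := by omega
    simp only [dif_neg this]
    rw [← hi]
    congr 1
    apply Fin.ext
    simp

/-- Number of tuples with all coordinates in given ranges. -/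
theorem card_in_range {n k a : ℕ} (R : Fin k → Fin n)
    [DecidablePred fun x : Fin a → Fin n => ∀ i, ∃ t, R t = x i] :
    (univ.filter fun x : Fin a → Fin n => ∀ i, ∃ t, R t = x i).card ≤ k ^ a := by
  classical
  have h : (univ.filter fun x : Fin a → Fin n => ∀ i, ∃ t, R t = x i) =
      Fintype.piFinset fun _ : Fin a => univ.image R := by
    ext x
    simp [Fintype.mem_piFinset]
  rw [h, Fintype.card_piFinset]
  simp only [prod_const, card_univ, Fintype.card_fin]
  refine Nat.pow_le_pow_left ?_ a
  refine card_image_le.trans ?_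
  simp

end Vale.Agent.OrdRem
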