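import Vale.Agent.Lib.OrdRem.BlowCopy

/-!
# Polynomial removal passes to blow-ups of two by two patterns
-/

namespace Vale.Agent.OrdRem

open Finset

/-- Which side of the threshold `a` the index `i` is on. -/
def side {k : ℕ} (a : ℕ) (i : Fin k) : Fin 2 := if i.val < a then 0 else 1

/-- The type of quadruples of tuples. -/
abbrev Quad (n a a' b b' : ℕ) : Type :=
  (Fin a → Fin n) × (Fin a' → Fin n) × (Fin b → Fin n) × (Fin b' → Fin n)

/-- All four tuples are injective. -/
def AllInj {n a a' b b' : ℕ} (p : Quad n a a' b b') : Prop :=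
  Function.Injective p.1 ∧ Function.Injective p.2.1 ∧ Function.Injective p.2.2.1 ∧
    Function.Injective p.2.2.2

/-- The four-place relation attached to a two by two pattern. -/
def OccRel {n : ℕ} (G : Fin 2 → Fin 2 → Bool) (A : Fin n → Fin n → Bool)
    (r r' c c' : Fin n) : Prop := Occ G A ((r, r'), (c, c'))

/-- The tuples all lie in the rows and columns of a given copy. -/
def Below {n k a a' b b' : ℕ} (p : Quad n a a' b b')
    (q : (Fin k → Fin n) × (Fin k → Fin n)) : Prop :=
  (∀ i, ∃ t, q.1 t = p.1 i) ∧ (∀ i, ∃ t, q.1 t = p.2.1 i) ∧ (∀ i, ∃ t, q.2 t = p.2.2.1 i) ∧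
    (∀ i, ∃ t, q.2 t = p.2.2.2 i)

theorem exists_copy {n k a a' b b' : ℕ} (G : Fin 2 → Fin 2 → Bool) (H : Fin k → Fin k → Bool)
    (A : Fin n → Fin n → Bool) (ha : 1 ≤ a) (ha' : 1 ≤ a') (hb : 1 ≤ b) (hb' : 1 ≤ b')
    (hk : k = a + a') (hk' : k = b + b') (hH : ∀ i j, H i j = G (side a i) (side b j))
    (p : Quad n a a' b b') (hp : Blown (OccRel G A) a a' b b' p) (hi : AllInj p) :
    ∃ q : (Fin k → Fin n) × (Fin k → Fin n), CopyOf H A q ∧ Below p q := by
  obtain ⟨x, y, z, w⟩ := p
  obtain ⟨ix, iy, iz, iw⟩ := hi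
  simp only at ix iy iz iw
  have hocc : ∀ i j l u, Occ G A ((x i, y j), (z l, w u)) := hp
  let zx : Fin a := ⟨0, ha⟩
  let zy : Fin a' := ⟨0, ha'⟩
  let zz : Fin b := ⟨0, hb⟩
  let zw : Fin b' := ⟨0, hb'⟩
  obtain ⟨R, R1, R2, R3, R4, R5⟩ := exists_join hk x y ix iy (fun i j => (hocc i j zz zw).1)
  obtain ⟨S, S1, S2, S3, S4, S5⟩ := exists_join hk' z w iz iw (fun i j => (hocc zx zy i j).2.1)
  refine ⟨(R, S), ⟨R1, S1, ?_⟩, R4, R5, S4, S5⟩
  intro i j
  rw [hH]
  unfold side
  by_cases hi : i.val < a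
  · obtain ⟨i', e1⟩ := R2 i hi
    by_cases hj : j.val < b
    · obtain ⟨j', e2⟩ := S2 j hj
      rw [if_pos hi, if_pos hj]
      simp only
      rw [e1, e2]
      exact (hocc i' zy j' zw).2.2.1
    · obtain ⟨j', e2⟩ := S3 j (by omega)
      rw [if_pos hi, if_neg hj]
      simp only
      rw [e1, e2]
      exact (hocc i' zy zz j').2.2.2.1
  · obtain ⟨i', e1⟩ := R3 i (by omega)
    by_cases hj : j.val < b
    · obtain ⟨j', e2⟩ := S2 j hj
      rw [if_neg hi, if_pos hj]
      simp only
      rw [e1, e2]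
      exact (hocc zx i' j' zw).2.2.2.2.1
    · obtain ⟨j', e2⟩ := S3 j (by omega)
      rw [if_neg hi, if_neg hj]
      simp only
      rw [e1, e2]
      exact (hocc zx i' zz j').2.2.2.2.2

open Classical in
theorem card_below {n k a a' b b' : ℕ} (q : (Fin k → Fin n) × (Fin k → Fin n)) :
    (univ.filter fun p : Quad n a a' b b' => Below p q).card ≤ k ^ (a + a' + b + b') := by
  have h : (univ.filter fun p : Quad n a a' b b' => Below p q) ⊆
      (univ.filter fun x : Fin a → Fin n => ∀ i, ∃ t, q.1 t = x i) ×ˢ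
      ((univ.filter fun x : Fin a' → Fin n => ∀ i, ∃ t, q.1 t = x i) ×ˢ
      ((univ.filter fun x : Fin b → Fin n => ∀ i, ∃ t, q.2 t = x i) ×ˢ
      (univ.filter fun x : Fin b' → Fin n => ∀ i, ∃ t, q.2 t = x i))) := by
    intro p hp
    have hp2 := (mem_filter.mp hp).2
    obtain ⟨h1, h2, h3, h4⟩ := hp2
    simp only [mem_product, mem_filter, mem_univ, true_and]
    exact ⟨h1, h2, h3, h4⟩
  refine (card_le_card h).trans ?_
  rw [card_product, card_product, card_product]
  have e1 := card_in_range (a := a) q.1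
  have e2 := card_in_range (a := a') q.1
  have e3 := card_in_range (a := b) q.2
  have e4 := card_in_range (a := b') q.2
  calc _ ≤ k ^ a * (k ^ a' * (k ^ b * k ^ b')) :=
        Nat.mul_le_mul e1 (Nat.mul_le_mul e2 (Nat.mul_le_mul e3 e4))
    _ = _ := by
        rw [← pow_add, ← pow_add, ← pow_add]
        congr 1
        ring

open Classical in
theorem card_good_le {n k a a' b b' : ℕ} (G : Fin 2 → Fin 2 → Bool) (H : Fin k → Fin k → Bool)
    (A : Fin n → Fin n → Bool) (ha : 1 ≤ a) (ha' : 1 ≤ a') (hb : 1 ≤ b) (hb' : 1 ≤ b')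
    (hk : k = a + a') (hk' : k = b + b') (hH : ∀ i j, H i j = G (side a i) (side b j)) :
    (univ.filter fun p : Quad n a a' b b' =>
      Blown (OccRel G A) a a' b b' p ∧ AllInj p).card ≤ k ^ (2 * k) * cntH H A := by
  have key := card_mul_le_card_mul (s := univ.filter fun p : Quad n a a' b b' =>
      Blown (OccRel G A) a a' b b' p ∧ AllInj p)
    (t := univ.filter (CopyOf H A)) (r := fun p q => Below p q) (m := 1)
    (n := k ^ (a + a' + b + b')) ?_ ?_
  · have e : a + a' + b + b' = 2 * k := by omega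
    rw [e] at key
    unfold cntH
    rw [mul_comm (k ^ (2 * k))]
    simpa using key
  · intro p hp
    have hp2 := (mem_filter.mp hp).2
    obtain ⟨q, h1, h2⟩ := exists_copy G H A ha ha' hb hb' hk hk' hH p hp2.1 hp2.2
    rw [Nat.one_le_iff_ne_zero, Ne, card_eq_zero]
    intro h0
    have : q ∈ (∅ : Finset _) := by
      rw [← h0, mem_bipartiteAbove]
      exact ⟨mem_filter.mpr ⟨mem_univ _, h1⟩, h2⟩
    simp at this
  · intro q hq
    refine le_trans (card_le_card ?_) (card_below q)
    intro p hp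
    rw [mem_bipartiteBelow] at hp
    exact mem_filter.mpr ⟨mem_univ _, hp.2⟩

open Classical in
theorem card_not_allInj {n k a a' b b' : ℕ} (hn : 1 ≤ n) (ha : 1 ≤ a) (ha' : 1 ≤ a')
    (hb : 1 ≤ b) (hb' : 1 ≤ b') (hk : k = a + a') (hk' : k = b + b') :
    (univ.filter fun p : Quad n a a' b b' => ¬ AllInj p).card ≤
      4 * k ^ 2 * n ^ (2 * k - 1) := by
  have hsub : (univ.filter fun p : Quad n a a' b b' => ¬ AllInj p) ⊆
      ((univ.filter fun x : Fin a → Fin n => ¬ Function.Injective x) ×ˢ univ) ∪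
      ((univ ×ˢ ((univ.filter fun x : Fin a' → Fin n => ¬ Function.Injective x) ×ˢ univ)) ∪
      ((univ ×ˢ (univ ×ˢ ((univ.filter fun x : Fin b → Fin n => ¬ Function.Injective x) ×ˢ
        univ))) ∪
      (univ ×ˢ (univ ×ˢ (univ ×ˢ
        (univ.filter fun x : Fin b' → Fin n => ¬ Function.Injective x)))))) := by
    intro p hp
    have hp2 := (mem_filter.mp hp).2
    unfold AllInj at hp2
    simp only [mem_union, mem_product, mem_filter, mem_univ, true_and, and_true]
    tauto
  refine (card_le_card hsub).trans ?_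
  refine (card_union_le _ _).trans ?_
  have hk2 : ∀ t, t ≤ k → ∀ e, t ^ 2 * n ^ e ≤ k ^ 2 * n ^ e := fun t ht e =>
    Nat.mul_le_mul_right _ (Nat.pow_le_pow_left ht 2)
  have f1 : ((univ.filter fun x : Fin a → Fin n => ¬ Function.Injective x) ×ˢ
      (univ : Finset ((Fin a' → Fin n) × (Fin b → Fin n) × (Fin b' → Fin n)))).card ≤
      k ^ 2 * n ^ (2 * k - 1) := by
    rw [card_product]
    have c : (univ : Finset ((Fin a' → Fin n) × (Fin b → Fin n) × (Fin b' → Fin n))).card =
        n ^ (a' + b + b') := by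
      simp only [card_univ, Fintype.card_prod, Fintype.card_pi, Fintype.card_fin, prod_const]
      ring
    rw [c]
    have := card_not_inj a n
    calc _ ≤ (a ^ 2 * n ^ (a - 1)) * n ^ (a' + b + b') := Nat.mul_le_mul_right _ this
      _ = a ^ 2 * n ^ (2 * k - 1) := by
        rw [mul_assoc, ← pow_add]
        congr 2
        omega
      _ ≤ _ := hk2 a (by omega) _
  have f2 : ((univ : Finset (Fin a → Fin n)) ×ˢ
      ((univ.filter fun x : Fin a' → Fin n => ¬ Function.Injective x) ×ˢ
      (univ : Finset ((Fin b → Fin n) × (Fin b' → Fin n))))).card ≤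
      k ^ 2 * n ^ (2 * k - 1) := by
    rw [card_product, card_product]
    have c : (univ : Finset ((Fin b → Fin n) × (Fin b' → Fin n))).card = n ^ (b + b') := by
      simp only [card_univ, Fintype.card_prod, Fintype.card_pi, Fintype.card_fin, prod_const]
      ring
    have c2 : (univ : Finset (Fin a → Fin n)).card = n ^ a := by
      simp
    rw [c, c2]
    have := card_not_inj a' n
    calc _ ≤ n ^ a * ((a' ^ 2 * n ^ (a' - 1)) * n ^ (b + b')) :=
          Nat.mul_le_mul_left _ (Nat.mul_le_mul_right _ this)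
      _ = a' ^ 2 * (n ^ a * n ^ (a' - 1) * n ^ (b + b')) := by ring
      _ = a' ^ 2 * n ^ (2 * k - 1) := by
        rw [← pow_add, ← pow_add]
        congr 2
        omega
      _ ≤ _ := hk2 a' (by omega) _
  have f3 : ((univ : Finset (Fin a → Fin n)) ×ˢ ((univ : Finset (Fin a' → Fin n)) ×ˢ
      ((univ.filter fun x : Fin b → Fin n => ¬ Function.Injective x) ×ˢ
      (univ : Finset (Fin b' → Fin n))))).card ≤ k ^ 2 * n ^ (2 * k - 1) := by
    rw [card_product, card_product, card_product]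
    have c1 : (univ : Finset (Fin b' → Fin n)).card = n ^ b' := by simp
    have c2 : (univ : Finset (Fin a → Fin n)).card = n ^ a := by simp
    have c3 : (univ : Finset (Fin a' → Fin n)).card = n ^ a' := by simp
    rw [c1, c2, c3]
    have := card_not_inj b n
    calc _ ≤ n ^ a * (n ^ a' * ((b ^ 2 * n ^ (b - 1)) * n ^ b')) :=
          Nat.mul_le_mul_left _ (Nat.mul_le_mul_left _ (Nat.mul_le_mul_right _ this))
      _ = b ^ 2 * (n ^ a * n ^ a' * n ^ (b - 1) * n ^ b') := by ring
      _ = b ^ 2 * n ^ (2 * k - 1) := by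
        rw [← pow_add, ← pow_add, ← pow_add]
        congr 2
        omega
      _ ≤ _ := hk2 b (by omega) _
  have f4 : ((univ : Finset (Fin a → Fin n)) ×ˢ ((univ : Finset (Fin a' → Fin n)) ×ˢ
      ((univ : Finset (Fin b → Fin n)) ×ˢ
      (univ.filter fun x : Fin b' → Fin n => ¬ Function.Injective x)))).card ≤
      k ^ 2 * n ^ (2 * k - 1) := by
    rw [card_product, card_product, card_product]
    have c1 : (univ : Finset (Fin b → Fin n)).card = n ^ b := by simp
    have c2 : (univ : Finset (Fin a → Fin n)).card = n ^ a := by simp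
    have c3 : (univ : Finset (Fin a' → Fin n)).card = n ^ a' := by simp
    rw [c1, c2, c3]
    have := card_not_inj b' n
    calc _ ≤ n ^ a * (n ^ a' * (n ^ b * (b' ^ 2 * n ^ (b' - 1)))) :=
          Nat.mul_le_mul_left _ (Nat.mul_le_mul_left _ (Nat.mul_le_mul_left _ this))
      _ = b' ^ 2 * (n ^ a * n ^ a' * n ^ b * n ^ (b' - 1)) := by ring
      _ = b' ^ 2 * n ^ (2 * k - 1) := by
        rw [← pow_add, ← pow_add, ← pow_add]
        congr 2
        omega
      _ ≤ _ := hk2 b' (by omega) _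
  have g1 := card_union_le ((univ : Finset (Fin a → Fin n)) ×ˢ
      ((univ.filter fun x : Fin a' → Fin n => ¬ Function.Injective x) ×ˢ
      (univ : Finset ((Fin b → Fin n) × (Fin b' → Fin n)))))
      (((univ : Finset (Fin a → Fin n)) ×ˢ ((univ : Finset (Fin a' → Fin n)) ×ˢ
      ((univ.filter fun x : Fin b → Fin n => ¬ Function.Injective x) ×ˢ
      (univ : Finset (Fin b' → Fin n))))) ∪
      ((univ : Finset (Fin a → Fin n)) ×ˢ ((univ : Finset (Fin a' → Fin n)) ×ˢ
      ((univ : Finset (Fin b → Fin n)) ×ˢ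
      (univ.filter fun x : Fin b' → Fin n => ¬ Function.Injective x)))))
  have g2 := card_union_le ((univ : Finset (Fin a → Fin n)) ×ˢ
      ((univ : Finset (Fin a' → Fin n)) ×ˢ
      ((univ.filter fun x : Fin b → Fin n => ¬ Function.Injective x) ×ˢ
      (univ : Finset (Fin b' → Fin n)))))
      ((univ : Finset (Fin a → Fin n)) ×ˢ ((univ : Finset (Fin a' → Fin n)) ×ˢ
      ((univ : Finset (Fin b → Fin n)) ×ˢ
      (univ.filter fun x : Fin b' → Fin n => ¬ Function.Injective x))))
  have e : 4 * k ^ 2 * n ^ (2 * k - 1) = k ^ 2 * n ^ (2 * k - 1) + (k ^ 2 * n ^ (2 * k - 1) +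
      (k ^ 2 * n ^ (2 * k - 1) + k ^ 2 * n ^ (2 * k - 1))) := by ring
  rw [e]
  exact add_le_add f1 (g1.trans (add_le_add f2 (g2.trans (add_le_add f3 f4))))

end Vale.Agent.OrdRem
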