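import Vale.Agent.Lib.OrdRem.BlowMain
import Vale.Agent.Lib.OrdRem.AllTwo

/-!
# Polynomial removal for blow-ups of two by two patterns
-/

namespace Vale.Agent.OrdRem

open Finset

/-- Polynomial removal for a square pattern, in terms of `1 / m`. -/
def RemH {k : ℕ} (H : Fin k → Fin k → Bool) : Prop :=
  ∃ K C : ℕ, 1 ≤ K ∧ ∀ m : ℕ, 2 ≤ m → ∀ n : ℕ, 1 ≤ n → ∀ A : Fin n → Fin n → Bool,
    (∀ B : Fin n → Fin n → Bool, cntH H B = 0 → n ^ 2 ≤ m * ham A B) →
      n ^ (2 * k) ≤ K * m ^ C * cntH H A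

theorem blow_numbers {k n M Nb Ng Nbad NH : ℕ} (hk : 1 ≤ k) (hM : 1 ≤ M) (hn : 1 ≤ n)
    (h1 : n ^ (2 * k) ≤ M * Nb) (h2 : Nb ≤ Ng + Nbad) (h3 : Nbad ≤ 4 * k ^ 2 * n ^ (2 * k - 1))
    (h4 : Ng ≤ k ^ (2 * k) * NH) (h5 : 1 ≤ NH) :
    n ^ (2 * k) ≤ (8 * k ^ 2 * M) ^ (2 * k) * NH := by
  by_cases hlarge : 8 * k ^ 2 * M ≤ n
  · have e1 : n ^ (2 * k) = n ^ (2 * k - 1) * n := by
      rw [← pow_succ]
      congr 1
      omega
    have h6 : 2 * (M * Nbad) ≤ n ^ (2 * k) := by
      calc 2 * (M * Nbad) ≤ 2 * (M * (4 * k ^ 2 * n ^ (2 * k - 1))) :=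
            Nat.mul_le_mul_left _ (Nat.mul_le_mul_left _ h3)
        _ = n ^ (2 * k - 1) * (8 * k ^ 2 * M) := by ring
        _ ≤ n ^ (2 * k - 1) * n := Nat.mul_le_mul_left _ hlarge
        _ = _ := e1.symm
    have h7 : M * Nb ≤ M * Ng + M * Nbad := by
      rw [← mul_add]
      exact Nat.mul_le_mul_left _ h2
    have h8 : n ^ (2 * k) ≤ 2 * (M * Ng) := by omega
    have h9 : 2 * (M * Ng) ≤ 2 * (M * (k ^ (2 * k) * NH)) :=
      Nat.mul_le_mul_left _ (Nat.mul_le_mul_left _ h4)
    have h10 : 2 * M * k ^ (2 * k) ≤ (8 * k ^ 2 * M) ^ (2 * k) := by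
      have e2 : (8 * k ^ 2 * M) ^ (2 * k) = (8 * (k * M)) ^ (2 * k) * k ^ (2 * k) := by
        rw [← mul_pow]
        congr 1
        ring
      rw [e2]
      refine Nat.mul_le_mul_right _ ?_
      have h11 : (8 * (k * M)) ^ 1 ≤ (8 * (k * M)) ^ (2 * k) := by
        refine Nat.pow_le_pow_right ?_ (by omega)
        have : 0 < k * M := Nat.mul_pos hk hM
        omega
      have h12 : M ≤ k * M := Nat.le_mul_of_pos_left M hk
      rw [pow_one] at h11
      omega
    calc n ^ (2 * k) ≤ 2 * (M * (k ^ (2 * k) * NH)) := h8.trans h9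
      _ = 2 * M * k ^ (2 * k) * NH := by ring
      _ ≤ _ := Nat.mul_le_mul_right _ h10
  · push Not at hlarge
    calc n ^ (2 * k) ≤ (8 * k ^ 2 * M) ^ (2 * k) := Nat.pow_le_pow_left hlarge.le _
      _ = (8 * k ^ 2 * M) ^ (2 * k) * 1 := (mul_one _).symm
      _ ≤ _ := Nat.mul_le_mul_left _ h5

/-- A matrix without copies of the two by two pattern has no copies of the blow-up. -/
theorem cntH_zero_of_cnt_zero {k n a b : ℕ} (G : Fin 2 → Fin 2 → Bool)
    (H : Fin k → Fin k → Bool) (ha : 1 ≤ a) (hak : a < k) (hb : 1 ≤ b) (hbk : b < k)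
    (hH : ∀ i j, H i j = G (side a i) (side b j)) (B : Fin n → Fin n → Bool)
    (hB : cnt G B = 0) : cntH H B = 0 := by
  classical
  unfold cntH
  rw [card_eq_zero, eq_empty_iff_forall_notMem]
  intro q hq
  obtain ⟨h1, h2, h3⟩ := (mem_filter.mp hq).2
  unfold cnt at hB
  rw [card_eq_zero, eq_empty_iff_forall_notMem] at hB
  have i0 : (⟨0, by omega⟩ : Fin k) < ⟨a, hak⟩ := by
    rw [Fin.lt_def]
    exact ha
  have j0 : (⟨0, by omega⟩ : Fin k) < ⟨b, hbk⟩ := by
    rw [Fin.lt_def]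
    exact hb
  refine hB ((q.1 ⟨0, by omega⟩, q.1 ⟨a, hak⟩), (q.2 ⟨0, by omega⟩, q.2 ⟨b, hbk⟩)) ?_
  refine mem_filter.mpr ⟨mem_univ _, h1 i0, h2 j0, ?_, ?_, ?_, ?_⟩
  · show B (q.1 _) (q.2 _) = _
    rw [h3, hH]
    simp only [side]
    rw [if_pos (by show (0 : ℕ) < a; omega), if_pos (by show (0 : ℕ) < b; omega)]
  · show B (q.1 _) (q.2 _) = _
    rw [h3, hH]
    simp only [side]
    rw [if_pos (by show (0 : ℕ) < a; omega), if_neg (by show ¬ b < b; omega)]
  · show B (q.1 _) (q.2 _) = _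
    rw [h3, hH]
    simp only [side]
    rw [if_neg (by show ¬ a < a; omega), if_pos (by show (0 : ℕ) < b; omega)]
  · show B (q.1 _) (q.2 _) = _
    rw [h3, hH]
    simp only [side]
    rw [if_neg (by show ¬ a < a; omega), if_neg (by show ¬ b < b; omega)]

theorem ham_self {n : ℕ} (A : Fin n → Fin n → Bool) : ham A A = 0 := by
  simp [ham]

theorem remH_side {k a b : ℕ} (G : Fin 2 → Fin 2 → Bool) (H : Fin k → Fin k → Bool)
    (ha : 1 ≤ a) (hak : a < k) (hb : 1 ≤ b) (hbk : b < k)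
    (hH : ∀ i j, H i j = G (side a i) (side b j)) : RemH H := by
  classical
  obtain ⟨C, hC⟩ := rem2_all G
  refine ⟨(8 * k ^ 2) ^ (2 * k), C * a * (k - a) * b * (k - b) * (2 * k),
    Nat.one_le_pow _ _ (by have : 0 < k ^ 2 := Nat.pow_pos (by omega); omega), ?_⟩
  intro m hm n hn A hfar
  have h1 := hC m hm n hn A fun B hB => hfar B (cntH_zero_of_cnt_zero G H ha hak hb hbk hH B hB)
  have hcnt : cnt G A = (univ.filter fun p : Fin n × Fin n × Fin n × Fin n =>
      OccRel G A p.1 p.2.1 p.2.2.1 p.2.2.2).card := by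
    unfold cnt
    refine card_bij (fun p _ => (p.1.1, p.1.2, p.2.1, p.2.2)) ?_ ?_ ?_
    · intro p hp
      exact mem_filter.mpr ⟨mem_univ _, (mem_filter.mp hp).2⟩
    · intro p _ q _ hpq
      simp only [Prod.mk.injEq] at hpq
      obtain ⟨h1, h2, h3, h4⟩ := hpq
      exact Prod.ext (Prod.ext h1 h2) (Prod.ext h3 h4)
    · intro p hp
      exact ⟨((p.1, p.2.1), (p.2.2.1, p.2.2.2)),
        mem_filter.mpr ⟨mem_univ _, (mem_filter.mp hp).2⟩, rfl⟩
  rw [hcnt] at h1
  have h2 := blow_count hn (OccRel G A) a (k - a) b (k - b) ha (by omega) hb (by omega)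
    (m ^ C) h1
  have e1 : a + (k - a) + b + (k - b) = 2 * k := by omega
  rw [e1] at h2
  have hH1 : 1 ≤ cntH H A := by
    by_contra h0
    have := hfar A (by omega)
    rw [ham_self] at this
    have : 1 ≤ n ^ 2 := Nat.one_le_pow _ _ hn
    omega
  have hMpos : 1 ≤ (((((m ^ C) ^ a) ^ (k - a)) ^ b) ^ (k - b)) := by
    have h0 : 0 < m := by omega
    have h1 : 0 < (((((m ^ C) ^ a) ^ (k - a)) ^ b) ^ (k - b)) := by positivity
    exact h1
  have h3 := blow_numbers (k := k) (n := n) (M := (((((m ^ C) ^ a) ^ (k - a)) ^ b) ^ (k - b)))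
    (Nb := (univ.filter (Blown (OccRel G A) a (k - a) b (k - b))).card)
    (Ng := (univ.filter fun p : Quad n a (k - a) b (k - b) =>
      Blown (OccRel G A) a (k - a) b (k - b) p ∧ AllInj p).card)
    (Nbad := (univ.filter fun p : Quad n a (k - a) b (k - b) => ¬ AllInj p).card)
    (NH := cntH H A) (by omega) hMpos hn h2 ?_
    (card_not_allInj hn ha (by omega) hb (by omega) (by omega) (by omega))
    (card_good_le G H A ha (by omega) hb (by omega) (by omega) (by omega) hH) hH1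
  · refine h3.trans (le_of_eq ?_)
    congr 1
    rw [mul_pow]
    congr 1
    simp only [← pow_mul]
  · refine le_trans (card_le_card ?_) (card_union_le _ _)
    intro p hp
    have hp2 := (mem_filter.mp hp).2
    by_cases hi : AllInj p
    · exact mem_union_left _ (mem_filter.mpr ⟨mem_univ _, hp2, hi⟩)
    · exact mem_union_right _ (mem_filter.mpr ⟨mem_univ _, hi⟩)

/-- A monotone map to a two element type is given by a threshold. -/
theorem monotone_side {k : ℕ} (hk : 2 ≤ k) (f : Fin k → Fin 2) (hf : Monotone f) :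
    ∃ (a : ℕ) (φ : Fin 2 → Fin 2), 1 ≤ a ∧ a < k ∧ ∀ i, f i = φ (side a i) := by
  by_cases hall : ∃ i : Fin k, f i ≠ f ⟨0, by omega⟩
  · -- the threshold is the number of indices with value equal to the initial value
    have hex : ∃ a : ℕ, ∃ h : a < k, f ⟨a, h⟩ ≠ f ⟨0, by omega⟩ := by
      obtain ⟨i, hi⟩ := hall
      exact ⟨i.val, i.isLt, hi⟩
    classical
    set a := Nat.find hex with ha
    obtain ⟨hak, hav⟩ := Nat.find_spec hex
    have hmin : ∀ j : Fin k, j.val < a → f j = f ⟨0, by omega⟩ := by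
      intro j hj
      have := Nat.find_min hex hj
      push Not at this
      exact this j.isLt
    have ha1 : 1 ≤ a := by
      by_contra h0
      have h0' : a = 0 := by omega
      apply hav
      congr 1
      exact Fin.ext h0'
    have h00 : f ⟨0, by omega⟩ = 0 := by
      have h1 : f ⟨0, by omega⟩ ≤ f ⟨a, hak⟩ := hf (Fin.le_def.mpr (Nat.zero_le _))
      have h2 : f ⟨a, hak⟩ ≠ f ⟨0, by omega⟩ := hav
      generalize f ⟨0, by omega⟩ = u at h1 h2 ⊢
      generalize f ⟨a, hak⟩ = v at h1 h2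
      revert u v
      decide
    have ha2 : f ⟨a, hak⟩ = 1 := by
      have h2 : f ⟨a, hak⟩ ≠ f ⟨0, by omega⟩ := hav
      rw [h00] at h2
      generalize f ⟨a, hak⟩ = v at h2
      revert v
      decide
    refine ⟨a, id, ha1, hak, ?_⟩
    intro i
    unfold side
    by_cases hi : i.val < a
    · rw [if_pos hi, hmin i hi, h00]
      rfl
    · rw [if_neg hi]
      have h3 : f ⟨a, hak⟩ ≤ f i := hf (Fin.le_def.mpr (by simp only; omega))
      rw [ha2] at h3
      show f i = 1
      generalize f i = v at h3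
      revert v
      decide
  · push Not at hall
    refine ⟨1, fun _ => f ⟨0, by omega⟩, le_rfl, by omega, ?_⟩
    intro i
    exact hall i

/-- Polynomial removal for all monotone blow-ups of two by two patterns, of size at least two. -/
theorem remH_blowup {k : ℕ} (hk : 2 ≤ k) (G : Fin 2 → Fin 2 → Bool) (f g : Fin k → Fin 2)
    (hf : Monotone f) (hg : Monotone g) (H : Fin k → Fin k → Bool)
    (hH : ∀ i j, H i j = G (f i) (g j)) : RemH H := by
  obtain ⟨a, φ, ha, hak, h1⟩ := monotone_side hk f hf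
  obtain ⟨b, ψ, hb, hbk, h2⟩ := monotone_side hk g hg
  refine remH_side (fun i j => G (φ i) (ψ j)) H ha hak hb hbk ?_
  intro i j
  rw [hH, h1, h2]

/-- The case of size one. -/
theorem remH_one (H : Fin 1 → Fin 1 → Bool) : RemH H := by
  classical
  refine ⟨1, 1, le_rfl, ?_⟩
  intro m hm n hn A hfar
  have hlt : ∀ (u : Fin n), StrictMono fun _ : Fin 1 => u := by
    intro u i j hij
    exact absurd hij (by omega)
  have h0 : cntH H (fun _ _ => !(H 0 0) : Fin n → Fin n → Bool) = 0 := by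
    unfold cntH
    rw [card_eq_zero, eq_empty_iff_forall_notMem]
    intro q hq
    obtain ⟨_, _, h3⟩ := (mem_filter.mp hq).2
    have := h3 0 0
    simp at this
  have h1 := hfar _ h0
  have h2 : ham A (fun _ _ => !(H 0 0)) ≤ cntH H A := by
    unfold ham cntH
    refine card_le_card_of_injOn (fun p => (fun _ => p.1, fun _ => p.2)) ?_ ?_
    · intro p hp
      have hp2 := (mem_filter.mp (mem_coe.mp hp)).2
      refine mem_coe.mpr (mem_filter.mpr ⟨mem_univ _, hlt _, hlt _, ?_⟩)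
      intro i j
      have hi : i = 0 := Subsingleton.elim _ _
      have hj : j = 0 := Subsingleton.elim _ _
      subst hi
      subst hj
      show A p.1 p.2 = H 0 0
      revert hp2
      cases A p.1 p.2 <;> cases H 0 0 <;> simp
    · intro p _ q _ hpq
      simp only [Prod.mk.injEq] at hpq
      exact Prod.ext (congrFun hpq.1 0) (congrFun hpq.2 0)
  calc n ^ (2 * 1) = n ^ 2 := by norm_num
    _ ≤ m * ham A (fun _ _ => !(H 0 0)) := h1
    _ ≤ m * cntH H A := Nat.mul_le_mul_left _ h2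
    _ = _ := by ring

end Vale.Agent.OrdRem
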