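import Vale.Agent.Lib.OrdRem.Cut

/-!
# Scanning rows and counting exceptional rows
-/

namespace Vale.Agent.OrdRem

open Finset

variable {n : ℕ}

/-- Scan the rows in increasing order, keeping those that satisfy `cond` relative to the rows kept
so far. -/
noncomputable def marks (cond : Finset (Fin n) → Fin n → Prop) : ℕ → Finset (Fin n)
  | 0 => ∅
  | t + 1 => by
      classical exact
        if h : t < n then
          (if cond (marks cond t) ⟨t, h⟩ then insert ⟨t, h⟩ (marks cond t) else marks cond t)
        else marks cond t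

theorem mem_marks {cond : Finset (Fin n) → Fin n → Prop} {t : ℕ} {ρ : Fin n} :
    ρ ∈ marks cond t ↔ ρ.val < t ∧ cond (marks cond ρ.val) ρ := by
  classical
  induction t with
  | zero => simp [marks]
  | succ t ih =>
    rw [marks]
    by_cases h : t < n
    · rw [dif_pos h]
      by_cases hc : cond (marks cond t) ⟨t, h⟩
      · rw [if_pos hc, mem_insert, ih]
        constructor
        · rintro (h1 | h1)
          · subst h1
            exact ⟨by simp, hc⟩
          · exact ⟨by omega, h1.2⟩
        · rintro ⟨h1, h2⟩
          by_cases h3 : ρ.val = t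
          · left
            exact Fin.ext h3
          · right
            exact ⟨by omega, h2⟩
      · rw [if_neg hc, ih]
        constructor
        · rintro ⟨h1, h2⟩
          exact ⟨by omega, h2⟩
        · rintro ⟨h1, h2⟩
          refine ⟨?_, h2⟩
          by_contra h3
          have h4 : ρ.val = t := by omega
          have h5 : ρ = ⟨t, h⟩ := Fin.ext h4
          rw [h5] at h2
          exact hc h2
    · rw [dif_neg h, ih]
      constructor
      · rintro ⟨h1, h2⟩
        exact ⟨by omega, h2⟩
      · rintro ⟨h1, h2⟩
        exact ⟨by have := ρ.isLt; omega, h2⟩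

theorem mem_marks_lt {cond : Finset (Fin n) → Fin n → Prop} {r ρ : Fin n} :
    ρ ∈ marks cond r.val ↔ ρ < r ∧ ρ ∈ marks cond n := by
  rw [mem_marks, mem_marks]
  constructor
  · rintro ⟨h1, h2⟩
    exact ⟨h1, ρ.isLt, h2⟩
  · rintro ⟨h1, _, h2⟩
    exact ⟨h1, h2⟩

theorem marks_mono {cond : Finset (Fin n) → Fin n → Prop} {s t : ℕ} (h : s ≤ t) :
    marks cond s ⊆ marks cond t := by
  intro ρ hρ
  rw [mem_marks] at hρ ⊢
  exact ⟨by omega, hρ.2⟩

/-- The rows with many bad partners are few. -/
theorem card_atyp (bad : Fin n → Fin n → Prop) [DecidableRel bad] (q Bd : ℕ)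
    (hB : (univ.filter fun p : Fin n × Fin n => p.1 < p.2 ∧ bad p.1 p.2).card ≤ Bd) :
    (univ.filter fun ρ : Fin n => q < (univ.filter fun r => ρ < r ∧ bad ρ r).card).card * (q + 1)
      ≤ Bd := by
  classical
  set X := univ.filter fun ρ : Fin n => q < (univ.filter fun r => ρ < r ∧ bad ρ r).card with hX
  refine le_trans ?_ hB
  have h1 : X.card * (q + 1) ≤ ∑ ρ ∈ X, (univ.filter fun r => ρ < r ∧ bad ρ r).card := by
    rw [← smul_eq_mul]
    apply Finset.card_nsmul_le_sum
    intro ρ hρ
    exact (mem_filter.1 hρ).2
  refine h1.trans ?_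
  have h2 : (univ.filter fun p : Fin n × Fin n => p.1 < p.2 ∧ bad p.1 p.2).card =
      ∑ ρ : Fin n, (univ.filter fun r => ρ < r ∧ bad ρ r).card := by
    simp only [card_filter]
    rw [← Finset.univ_product_univ, Finset.sum_product]
  rw [h2]
  exact Finset.sum_le_sum_of_subset (subset_univ _)

/-- The rows that are bad with some mark are few. -/
theorem card_badmark (bad : Fin n → Fin n → Prop) [DecidableRel bad] (S : Finset (Fin n)) (q : ℕ)
    (hS : ∀ ρ ∈ S, (univ.filter fun r => ρ < r ∧ bad ρ r).card ≤ q) :
    (univ.filter fun r : Fin n => ∃ ρ ∈ S, ρ < r ∧ bad ρ r).card ≤ S.card * q := by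
  classical
  have h1 : (univ.filter fun r : Fin n => ∃ ρ ∈ S, ρ < r ∧ bad ρ r) ⊆
      S.biUnion fun ρ => univ.filter fun r => ρ < r ∧ bad ρ r := by
    intro r hr
    obtain ⟨ρ, hρ, h2⟩ := (mem_filter.1 hr).2
    exact mem_biUnion.2 ⟨ρ, hρ, mem_filter.2 ⟨mem_univ _, h2⟩⟩
  refine (card_le_card h1).trans ?_
  refine card_biUnion_le.trans ?_
  rw [← smul_eq_mul]
  exact Finset.sum_le_card_nsmul _ _ _ hS

/-- Markov's inequality for a relation: the pairs with more than `t` witnesses are few. -/
theorem card_pairs_mul {α β : Type*} [Fintype α] [Fintype β] [DecidableEq α] [DecidableEq β]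
    (P : α → β → Prop) [∀ a b, Decidable (P a b)] (t N : ℕ)
    (hN : (univ.filter fun p : α × β => P p.1 p.2).card ≤ N) :
    (univ.filter fun a : α => t < (univ.filter fun b => P a b).card).card * (t + 1) ≤ N := by
  classical
  set X := univ.filter fun a : α => t < (univ.filter fun b => P a b).card with hX
  refine le_trans ?_ hN
  have h1 : X.card * (t + 1) ≤ ∑ a ∈ X, (univ.filter fun b => P a b).card := by
    rw [← smul_eq_mul]
    apply Finset.card_nsmul_le_sum
    intro a ha
    exact (mem_filter.1 ha).2
  refine h1.trans ?_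
  have h2 : (univ.filter fun p : α × β => P p.1 p.2).card =
      ∑ a : α, (univ.filter fun b => P a b).card := by
    simp only [card_filter]
    rw [← Finset.univ_product_univ, Finset.sum_product]
  rw [h2]
  exact Finset.sum_le_sum_of_subset (subset_univ _)

/-- The Hamming distance as a sum over rows. -/
theorem ham_eq_sum (A B : Fin n → Fin n → Bool) :
    ham A B = ∑ r : Fin n, (univ.filter fun c => A r c ≠ B r c).card := by
  classical
  unfold ham
  simp only [card_filter]
  rw [← Finset.univ_product_univ, Finset.sum_product]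

/-- Bounding the Hamming distance: exceptional rows and ordinary rows. -/
theorem ham_le_of_rows (A B : Fin n → Fin n → Bool) (X : Finset (Fin n)) (e : ℕ)
    (h : ∀ r, r ∉ X → (univ.filter fun c => A r c ≠ B r c).card ≤ e) :
    ham A B ≤ X.card * n + n * e := by
  classical
  rw [ham_eq_sum]
  calc ∑ r : Fin n, (univ.filter fun c => A r c ≠ B r c).card
      ≤ ∑ r : Fin n, ((if r ∈ X then n else 0) + e) := by
        apply Finset.sum_le_sum
        intro r _
        by_cases hr : r ∈ X
        · rw [if_pos hr]
          have := card_filter_le (univ : Finset (Fin n)) (fun c => A r c ≠ B r c)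
          simp only [card_univ, Fintype.card_fin] at this
          omega
        · rw [if_neg hr]
          have := h r hr
          omega
    _ = X.card * n + n * e := by
        rw [Finset.sum_add_distrib]
        simp

end Vale.Agent.OrdRem
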