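import Vale.Agent.Lib.OrdRem.Reach
import Vale.Agent.Lib.OrdRem.Marks

/-!
# The combinatorial core of polynomial removal for the corner pattern
-/

namespace Vale.Agent.OrdRem

open Finset

variable {n : ℕ}

/-- The rows of a matrix as sets of columns. -/
def rows (A : Fin n → Fin n → Bool) (r : Fin n) : Finset (Fin n) :=
  univ.filter fun c => A r c = true

theorem mem_rows {A : Fin n → Fin n → Bool} {r c : Fin n} : c ∈ rows A r ↔ A r c = true := by
  simp [rows]

/-- The pattern with a single zero, in the lower right corner. -/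
def corner : Fin 2 → Fin 2 → Bool := fun i j => !(i == 1 && j == 1)

theorem occ_corner_iff {A : Fin n → Fin n → Bool} {q : (Fin n × Fin n) × (Fin n × Fin n)} :
    Occ corner A q ↔ q.1.1 < q.1.2 ∧ Gam (rows A) q.1.1 q.1.2 q.2.1 q.2.2 := by
  unfold Occ Gam corner
  simp [mem_rows]

theorem cnt_corner_eq_zero_iff {A : Fin n → Fin n → Bool} :
    cnt corner A = 0 ↔ ∀ ρ r x y, ρ < r → ¬ Gam (rows A) ρ r x y := by
  unfold cnt
  rw [card_eq_zero, filter_eq_empty_iff]
  constructor
  · intro h ρ r x y hρr hG
    exact h (mem_univ ((ρ, r), (x, y))) (occ_corner_iff.2 ⟨hρr, hG⟩)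
  · intro h q _ hq
    rw [occ_corner_iff] at hq
    exact h _ _ _ _ hq.1 hq.2

theorem cut_of_gam {F : Fin n → Finset (Fin n)} {ρ r : Fin n} {t : ℕ}
    (h : (univ.filter fun p : Fin n × Fin n => Gam F ρ r p.1 p.2).card ≤ t ^ 2) {x y : Fin n}
    (hG : Gam F ρ r x y) (hx : x ∉ cutSet (F ρ ∩ F r) (F ρ \ F r) t)
    (hy : y ∉ cutSet (F ρ ∩ F r) (F ρ \ F r) t) : False := by
  obtain ⟨hxy, h1, h2, h3, h4⟩ := hG
  refine cutSet_spec (X := F ρ ∩ F r) (Y := F ρ \ F r) ?_ (mem_inter.2 ⟨h1, h3⟩)
    (mem_sdiff.2 ⟨h2, h4⟩) hxy hx hy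
  refine le_trans (card_le_card ?_) h
  intro p hp
  simp only [mem_filter, mem_product, mem_inter, mem_sdiff] at hp
  exact mem_filter.2 ⟨mem_univ _, hp.2, hp.1.1.1, hp.1.2.1, hp.1.1.2, hp.1.2.2⟩

/-- The combinatorial core for the corner pattern. -/
theorem corner_core (A : Fin n → Fin n → Bool) (t0 t1 t4 g3 q u h g : ℕ) (hh : 0 < h)
    (hg : g * n ≤ u * h) (hcol : h + cnt corner A / (g3 + 1) ≤ t0) :
    ∃ (B : Fin n → Fin n → Bool) (s v a : ℕ), cnt corner B = 0 ∧ v * g ≤ n ∧
      s * (t1 + 1) ≤ v * n ∧
      a * (q + 1) ≤ cnt corner A / (t4 ^ 2 + 1) + v * (g3 / (t4 + 1)) ∧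
      ham A B ≤ (u + a + s * q + s) * n + n * (t0 + t1 +
        (s ^ 2 * (2 * t4) + v * (s ^ 2 * (t4 + (s ^ 2 * (2 * t4) + s * (3 * t4) + 1)))) +
          s * (3 * t4)) := by
  classical
  set F := rows A with hF
  -- atypical columns
  set atc : Finset (Fin n) := univ.filter fun c => g3 < (univ.filter fun p : (Fin n × Fin n) × Fin n
    => p.1.1 < p.1.2 ∧ Gam F p.1.1 p.1.2 c p.2).card with hatc
  have hatc_card : atc.card ≤ cnt corner A / (g3 + 1) := by
    rw [Nat.le_div_iff_mul_le (by omega)]
    refine card_pairs_mul (α := Fin n) (β := (Fin n × Fin n) × Fin n)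
      (fun c p => p.1.1 < p.1.2 ∧ Gam F p.1.1 p.1.2 c p.2) g3 (cnt corner A) ?_
    unfold cnt
    refine le_of_eq ?_
    refine Finset.card_bij (fun p _ => ((p.2.1.1, p.2.1.2), (p.1, p.2.2))) ?_ ?_ ?_
    · intro p hp
      simp only [mem_filter, mem_univ, true_and] at hp ⊢
      rw [occ_corner_iff]
      exact hp
    · rintro ⟨a, ⟨b, c⟩, d⟩ _ ⟨a', ⟨b', c'⟩, d'⟩ _ h
      simp only [Prod.mk.injEq] at h
      simp only [Prod.mk.injEq]
      tauto
    · rintro ⟨⟨a, b⟩, ⟨c, d⟩⟩ hp
      simp only [mem_filter, mem_univ, true_and] at hp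
      rw [occ_corner_iff] at hp
      exact ⟨(c, ((a, b), d)), by simpa using hp, rfl⟩
  set E : Fin n → Finset (Fin n) := fun r => (low (F r) t0).filter fun c => c ∉ atc with hE
  set R : Finset (Fin n) := univ.filter fun r => t0 ≤ (F r).card with hR
  have hEcard : ∀ r ∈ R, h ≤ (E r).card := by
    intro r hr
    have h1 : t0 ≤ (F r).card := (mem_filter.1 hr).2
    have h2 := le_card_low (F r) t0
    rw [min_eq_left h1] at h2
    have h3 : (low (F r) t0).card ≤ (E r).card + atc.card := by
      rw [hE]
      calc (low (F r) t0).card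
          = ((low (F r) t0).filter fun c => c ∉ atc).card +
            ((low (F r) t0).filter fun c => ¬ (c ∉ atc)).card :=
            (Finset.card_filter_add_card_filter_not _).symm
        _ ≤ _ := by
            apply Nat.add_le_add_left
            apply card_le_card
            intro c hc
            simpa using (mem_filter.1 hc).2
    omega
  obtain ⟨V, hVcard, hVu, hVE⟩ := exists_hitting R E h u g hh hEcard hg
  have hRn : R.card ≤ n := by
    have := card_filter_le (univ : Finset (Fin n)) (fun r => t0 ≤ (F r).card)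
    simpa using this
  have hVtyp : ∀ c ∈ V, (univ.filter fun p : (Fin n × Fin n) × Fin n
      => p.1.1 < p.1.2 ∧ Gam F p.1.1 p.1.2 c p.2).card ≤ g3 := by
    intro c hc
    obtain ⟨r, _, hcr⟩ := hVE c hc
    have h1 := (mem_filter.1 hcr).2
    rw [hatc] at h1
    simp only [mem_filter, mem_univ, true_and, not_lt] at h1
    exact h1
  -- bad pairs
  set bad : Fin n → Fin n → Prop := fun ρ r =>
    t4 ^ 2 < (univ.filter fun p : Fin n × Fin n => Gam F ρ r p.1 p.2).card ∨
      ∃ c ∈ V, t4 < (univ.filter fun y => Gam F ρ r c y).card with hbad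
  set bd : ℕ := cnt corner A / (t4 ^ 2 + 1) + V.card * (g3 / (t4 + 1)) with hbd
  have hbdcard : (univ.filter fun p : Fin n × Fin n => p.1 < p.2 ∧ bad p.1 p.2).card ≤ bd := by
    have h1 : (univ.filter fun p : Fin n × Fin n => p.1 < p.2 ∧ bad p.1 p.2) ⊆
        (univ.filter fun p : Fin n × Fin n => t4 ^ 2 < (univ.filter fun p' : Fin n × Fin n =>
          p.1 < p.2 ∧ Gam F p.1 p.2 p'.1 p'.2).card) ∪
        V.biUnion fun c => (univ.filter fun p : Fin n × Fin n => t4 <
          (univ.filter fun y => p.1 < p.2 ∧ Gam F p.1 p.2 c y).card) := by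
      intro p hp
      simp only [mem_filter, mem_univ, true_and] at hp
      obtain ⟨hlt, hb⟩ := hp
      rcases hb with hb | ⟨c, hc, hb⟩
      · apply mem_union_left
        simp only [mem_filter, mem_univ, true_and, hlt]
        exact hb
      · apply mem_union_right
        refine mem_biUnion.2 ⟨c, hc, ?_⟩
        simp only [mem_filter, mem_univ, true_and, hlt]
        exact hb
    refine (card_le_card h1).trans ?_
    refine (card_union_le _ _).trans ?_
    apply Nat.add_le_add
    · rw [Nat.le_div_iff_mul_le (by omega)]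
      refine card_pairs_mul (α := Fin n × Fin n) (β := Fin n × Fin n)
        (fun p p' => p.1 < p.2 ∧ Gam F p.1 p.2 p'.1 p'.2) (t4 ^ 2) (cnt corner A) ?_
      unfold cnt
      apply card_le_card
      intro p hp
      simp only [mem_filter, mem_univ, true_and] at hp ⊢
      rw [occ_corner_iff]
      exact hp
    · refine card_biUnion_le.trans ?_
      rw [← smul_eq_mul]
      apply Finset.sum_le_card_nsmul
      intro c hc
      rw [Nat.le_div_iff_mul_le (by omega)]
      exact card_pairs_mul (α := Fin n × Fin n) (β := Fin n)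
        (fun p y => p.1 < p.2 ∧ Gam F p.1 p.2 c y) t4 g3 (hVtyp c hc)
  set atr : Finset (Fin n) := univ.filter fun ρ : Fin n =>
    q < (univ.filter fun r => ρ < r ∧ bad ρ r).card with hatr
  have hatr_card : atr.card * (q + 1) ≤ bd := card_atyp bad q bd hbdcard
  -- the scan
  set hit : Fin n → Prop := fun r => ∃ c ∈ V, c ∈ E r with hhit
  set base : Fin n → Fin n := fun r => if h : hit r then h.choose else r with hbase
  have hbase_spec : ∀ r, hit r → base r ∈ V ∧ base r ∈ E r := by
    intro r hr
    rw [hbase]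
    simp only [dif_pos hr]
    exact hr.choose_spec
  set newset : Finset (Fin n) → Fin n → Finset (Fin n) := fun T r =>
    (F r).filter fun y => base r < y ∧ ∀ ρ ∈ T, base r ∈ F ρ → y ∉ F ρ with hnew
  set ok : Finset (Fin n) → Fin n → Prop := fun T r =>
    hit r ∧ r ∉ atr ∧ ∀ ρ ∈ T, ¬ bad ρ r with hok
  set cond : Finset (Fin n) → Fin n → Prop := fun T r =>
    ok T r ∧ t1 < (newset T r).card with hcond
  set S := marks cond n with hS
  set T : Fin n → Finset (Fin n) := fun r => marks cond r.val with hT
  have hTS : ∀ r ρ, ρ ∈ T r ↔ ρ < r ∧ ρ ∈ S := fun r ρ => mem_marks_lt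
  have hScond : ∀ ρ ∈ S, cond (T ρ) ρ := fun ρ hρ => (mem_marks.1 hρ).2
  set live : Fin n → Prop := fun r => ok (T r) r ∧ (newset (T r) r).card ≤ t1 with hlive
  -- the number of marks
  have hScard : S.card * (t1 + 1) ≤ V.card * n := by
    have h1 : S.card * (t1 + 1) ≤ ∑ r ∈ S, (newset (T r) r).card := by
      rw [← smul_eq_mul]
      apply Finset.card_nsmul_le_sum
      intro r hr
      exact (hScond r hr).2
    refine h1.trans ?_
    have h2 : ∀ r ∈ S, base r ∈ V := fun r hr => (hbase_spec r (hScond r hr).1.1).1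
    rw [← Finset.sum_fiberwise_of_maps_to h2]
    rw [← smul_eq_mul]
    apply Finset.sum_le_card_nsmul
    intro c _
    have h3 : ∀ r ∈ S.filter (fun r => base r = c), ∀ r' ∈ S.filter (fun r => base r = c),
        r < r' → Disjoint (newset (T r) r) (newset (T r') r') := by
      intro r hr r' hr' hlt
      rw [Finset.disjoint_left]
      intro y hy hy'
      obtain ⟨hrS, hrc⟩ := mem_filter.1 hr
      obtain ⟨hrS', hrc'⟩ := mem_filter.1 hr'
      have h4 := (mem_filter.1 hy')
      have h5 : r ∈ T r' := (hTS r' r).2 ⟨hlt, hrS⟩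
      have h6 : base r' ∈ F r := by
        rw [hrc', ← hrc]
        have := (hbase_spec r (hScond r hrS).1.1).2
        have := (mem_filter.1 this).1
        exact (mem_filter.1 this).1
      exact h4.2.2 r h5 h6 (mem_filter.1 hy).1
    rw [← Finset.card_biUnion]
    · exact (card_le_univ _).trans (by simp)
    · intro r hr r' hr' hne
      rcases lt_or_gt_of_ne hne with hlt | hlt
      · exact h3 r hr r' hr' hlt
      · exact (h3 r' hr' r hr hlt).symm
  -- deletions
  set Dg : Finset (Fin n) := S.biUnion fun ρ => S.biUnion fun σ =>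
    cutSet (F ρ ∩ F σ) (F ρ \ F σ) t4 with hDg
  set Dr : Fin n → Finset (Fin n) := fun r => (T r).biUnion fun ρ =>
    cutSet (F ρ ∩ F r) (F ρ \ F r) t4 ∪ univ.filter (fun y => Gam F ρ r (base r) y) with hDr
  have hDgcard : Dg.card ≤ S.card ^ 2 * (2 * t4) := by
    have h1 : Dg.card ≤ S.card * (S.card * (2 * t4)) := by
      refine card_biUnion_le.trans ?_
      rw [← smul_eq_mul]
      apply Finset.sum_le_card_nsmul
      intro ρ _
      refine card_biUnion_le.trans ?_
      rw [← smul_eq_mul]
      apply Finset.sum_le_card_nsmul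
      intro σ _
      exact card_cutSet_le _ _ _
    calc Dg.card ≤ _ := h1
      _ = _ := by ring
  have hTcard : ∀ r, (T r).card ≤ S.card := fun r => card_le_card (marks_mono r.isLt.le)
  have hDrcard : ∀ r, hit r → (∀ ρ ∈ T r, ¬ bad ρ r) → (Dr r).card ≤ S.card * (3 * t4) := by
    intro r hr hnb
    refine card_biUnion_le.trans ?_
    calc ∑ ρ ∈ T r, (cutSet (F ρ ∩ F r) (F ρ \ F r) t4 ∪
          univ.filter (fun y => Gam F ρ r (base r) y)).card
        ≤ (T r).card • (3 * t4) := by
          apply Finset.sum_le_card_nsmul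
          intro ρ hρ
          refine (card_union_le _ _).trans ?_
          have h1 := card_cutSet_le (F ρ ∩ F r) (F ρ \ F r) t4
          have h2 := hnb ρ hρ
          rw [hbad] at h2
          simp only [not_or, not_exists, not_and, not_lt] at h2
          have h3 := h2.2 (base r) (hbase_spec r hr).1
          omega
      _ ≤ S.card * (3 * t4) := by
          rw [smul_eq_mul]
          exact Nat.mul_le_mul_right _ (hTcard r)
  set t2 : ℕ := S.card ^ 2 * (2 * t4) + S.card * (3 * t4) + 1 with ht2
  set Wc : Finset (Fin n) := Dg ∪ V.biUnion fun c => S.biUnion fun ρ => S.biUnion fun σ =>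
    (if ρ < σ then univ.filter (fun y => Gam F ρ σ c y) else ∅) ∪
      low ((F ρ ∩ F σ).filter fun y => c < y) t2 with hWc
  have hgood : ∀ ρ ∈ S, ∀ σ ∈ S, ρ < σ → ¬ bad ρ σ := by
    intro ρ hρ σ hσ hlt
    exact (hScond σ hσ).1.2.2 ρ ((hTS σ ρ).2 ⟨hlt, hρ⟩)
  have hWccard : Wc.card ≤ S.card ^ 2 * (2 * t4) + V.card * (S.card ^ 2 * (t4 + t2)) := by
    refine (card_union_le _ _).trans (Nat.add_le_add hDgcard ?_)
    refine card_biUnion_le.trans ?_
    rw [← smul_eq_mul]
    apply Finset.sum_le_card_nsmul
    intro c hc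
    have h1 : (S.biUnion fun ρ => S.biUnion fun σ =>
        (if ρ < σ then univ.filter (fun y => Gam F ρ σ c y) else ∅) ∪
        low ((F ρ ∩ F σ).filter fun y => c < y) t2).card ≤ S.card * (S.card * (t4 + t2)) := by
      refine card_biUnion_le.trans ?_
      rw [← smul_eq_mul]
      apply Finset.sum_le_card_nsmul
      intro ρ hρ
      refine card_biUnion_le.trans ?_
      rw [← smul_eq_mul]
      apply Finset.sum_le_card_nsmul
      intro σ hσ
      refine (card_union_le _ _).trans (Nat.add_le_add ?_ (card_low_le _ _))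
      by_cases hlt : ρ < σ
      · rw [if_pos hlt]
        have h2 := hgood ρ hρ σ hσ hlt
        rw [hbad] at h2
        simp only [not_or, not_exists, not_and, not_lt] at h2
        exact h2.2 c hc
      · rw [if_neg hlt]
        simp
    calc _ ≤ _ := h1
      _ = _ := by ring
  set W : Finset (Fin n) := univ \ Wc with hW
  have hWDg : ∀ y ∈ W, y ∉ Dg := by
    intro y hy hyD
    have := (mem_sdiff.1 hy).2
    exact this (mem_union_left _ hyD)
  have hgW : ∀ ρ ∈ S, ∀ σ ∈ S, ρ < σ → ∀ x y, Gam F ρ σ x y → x ∉ Dg → y ∉ Dg → False := by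
    intro ρ hρ σ hσ hlt x y hG hx hy
    have h2 := hgood ρ hρ σ hσ hlt
    rw [hbad] at h2
    simp only [not_or, not_exists, not_and, not_lt] at h2
    refine cut_of_gam h2.1 hG ?_ ?_
    · intro hx'
      exact hx (mem_biUnion.2 ⟨ρ, hρ, mem_biUnion.2 ⟨σ, hσ, hx'⟩⟩)
    · intro hy'
      exact hy (mem_biUnion.2 ⟨ρ, hρ, mem_biUnion.2 ⟨σ, hσ, hy'⟩⟩)
  have hgV : ∀ ρ ∈ S, ∀ σ ∈ S, ρ < σ → ∀ c ∈ V, ∀ y ∈ W, ¬ Gam F ρ σ c y := by
    intro ρ hρ σ hσ hlt c hc y hy hG
    have h1 := (mem_sdiff.1 hy).2
    apply h1
    apply mem_union_right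
    refine mem_biUnion.2 ⟨c, hc, mem_biUnion.2 ⟨ρ, hρ, mem_biUnion.2 ⟨σ, hσ, ?_⟩⟩⟩
    apply mem_union_left
    rw [if_pos hlt]
    simpa using hG
  -- the new matrix
  set B : Fin n → Fin n → Bool := fun r c => decide (live r ∧ c ∈ content F (T r) W (base r))
    with hB
  have hBrow : ∀ r c, c ∈ rows B r ↔ live r ∧ c ∈ content F (T r) W (base r) := by
    intro r c
    rw [mem_rows, hB]
    simp
  refine ⟨B, S.card, V.card, atr.card, ?_, hVcard.trans hRn, hScard, hatr_card, ?_⟩
  · rw [cnt_corner_eq_zero_iff]
    rintro r r' x y hlt ⟨hxy, h1, h2, h3, h4⟩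
    rw [hBrow] at h1 h2 h3 h4
    apply h4
    refine ⟨h3.1, ?_⟩
    have hsub : T r ⊆ T r' := marks_mono (by exact hlt.le)
    have hTrS : ∀ ρ ∈ T r, ρ ∈ S := fun ρ hρ => ((hTS r ρ).1 hρ).2
    refine content_exact hsub ?_ ?_ h1.2 h2.2 h3.2 hxy
    · intro ρ hρ σ hσ hρσ x hx y hy hG
      exact hgW ρ (hTrS ρ hρ) σ (hTrS σ hσ) hρσ x y hG (hWDg x hx) (hWDg y hy)
    · intro ρ hρ σ hσ hρσ y hy
      exact hgV ρ (hTrS ρ hρ) σ (hTrS σ hσ) hρσ _ (hbase_spec r h1.1.1.1).1 y hy
  · -- the distance
    set X : Finset (Fin n) := univ.filter fun r => ¬ live r ∧ t0 ≤ (F r).card with hX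
    have hXcard : X.card ≤ u + atr.card + S.card * q + S.card := by
      have hsub : X ⊆ ((R.filter fun r => Disjoint (E r) V) ∪ atr) ∪
          (univ.filter fun r : Fin n => ∃ ρ ∈ S, ρ < r ∧ bad ρ r) ∪ S := by
        intro r hr
        obtain ⟨hnl, hcard⟩ := (mem_filter.1 hr).2
        by_cases hhr : hit r
        · by_cases h2 : r ∈ atr
          · simp [h2]
          by_cases h3 : ∃ ρ ∈ S, ρ < r ∧ bad ρ r
          · apply mem_union_left
            apply mem_union_right
            simpa using h3
          · have hokr : ok (T r) r := by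
              refine ⟨hhr, h2, ?_⟩
              intro ρ hρ hb
              exact h3 ⟨ρ, ((hTS r ρ).1 hρ).2, ((hTS r ρ).1 hρ).1, hb⟩
            have h4 : t1 < (newset (T r) r).card := by
              by_contra hcon
              push Not at hcon
              exact hnl ⟨hokr, hcon⟩
            apply mem_union_right
            exact mem_marks.2 ⟨r.isLt, hokr, h4⟩
        · apply mem_union_left
          apply mem_union_left
          apply mem_union_left
          refine mem_filter.2 ⟨mem_filter.2 ⟨mem_univ _, hcard⟩, ?_⟩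
          rw [Finset.disjoint_left]
          intro c hc hcV
          exact hhr ⟨c, hcV, hc⟩
      have h1 := card_le_card hsub
      have h2 := card_union_le (((R.filter fun r => Disjoint (E r) V) ∪ atr) ∪
          (univ.filter fun r : Fin n => ∃ ρ ∈ S, ρ < r ∧ bad ρ r)) S
      have h3 := card_union_le ((R.filter fun r => Disjoint (E r) V) ∪ atr)
          (univ.filter fun r : Fin n => ∃ ρ ∈ S, ρ < r ∧ bad ρ r)
      have h4 := card_union_le (R.filter fun r => Disjoint (E r) V) atr
      have h5 := card_badmark bad S q (by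
        intro ρ hρ
        have := (hScond ρ hρ).1.2.1
        rw [hatr] at this
        simpa using this)
      omega
    refine (ham_le_of_rows A B X _ ?_).trans
      (Nat.add_le_add_right (Nat.mul_le_mul_right n hXcard) _)
    intro r hr
    by_cases hl : live r
    · obtain ⟨⟨hhr, hna, hnb⟩, hnew1⟩ := hl
      have hbV := (hbase_spec r hhr).1
      have hbE := (hbase_spec r hhr).2
      have hblow : base r ∈ low (F r) t0 := (mem_filter.1 hbE).1
      have hbF : base r ∈ F r := (mem_filter.1 hblow).1
      have hbrk : rk (F r) (base r) < t0 := (mem_filter.1 hblow).2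
      have hDrc := hDrcard r hhr hnb
      have hsub : (univ.filter fun c => A r c ≠ B r c) ⊆
          (((insert (base r) ((F r).filter (· < base r))) ∪ newset (T r) r) ∪ Wc) ∪ Dr r := by
        intro c hc
        have hne := (mem_filter.1 hc).2
        by_cases hcF : c ∈ F r
        · -- `c` is a one of `A`, hence not in the content
          apply mem_union_left
          have hcB : c ∉ rows B r := by
            intro hcB
            rw [hF, mem_rows] at hcF
            rw [mem_rows] at hcB
            exact hne (by rw [hcF, hcB])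
          rw [hBrow] at hcB
          by_contra hcon
          simp only [mem_union, not_or, mem_insert, mem_filter, not_and, not_lt] at hcon
          obtain ⟨⟨⟨hc1, hc2⟩, hc3⟩, hc4⟩ := hcon
          have hcb : base r < c := lt_of_le_of_ne (hc2 hcF) (Ne.symm hc1)
          have hex : ∃ ρ ∈ T r, base r ∈ F ρ ∧ c ∈ F ρ := by
            by_contra hno
            push Not at hno
            apply hc3
            rw [hnew]
            refine mem_filter.2 ⟨hcF, hcb, ?_⟩
            intro ρ hρ h1
            exact hno ρ hρ h1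
          obtain ⟨ρ, hρ, h1, h2⟩ := hex
          apply hcB
          refine ⟨⟨⟨hhr, hna, hnb⟩, hnew1⟩, ?_⟩
          rw [mem_content]
          refine ⟨0, c, ⟨hcb, ?_, ρ, hρ, h1, h2⟩, rfl⟩
          rw [hW]
          exact mem_sdiff.2 ⟨mem_univ _, hc4⟩
        · apply mem_union_right
          have hcB : c ∈ rows B r := by
            by_contra hcB
            rw [hF, mem_rows] at hcF
            rw [mem_rows] at hcB
            simp only [Bool.not_eq_true] at hcF hcB
            exact hne (by rw [hcF, hcB])
          rw [hBrow] at hcB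
          have hTrS : ∀ ρ ∈ T r, ρ ∈ S := fun ρ hρ => ((hTS r ρ).1 hρ).2
          have hcl := content_close (F := F) (T := T r) (W := W) (Dg := Dg) (Dr := Dr r)
            (c := base r) (r := r) hbF ?_ ?_ ?_ hWDg ?_ hcB.2
          · rcases hcl with h1 | h1
            · exact absurd h1 hcF
            · exact h1
          · intro ρ hρ x y hG hx hy
            have h2 := hnb ρ hρ
            rw [hbad] at h2
            simp only [not_or, not_exists, not_and, not_lt] at h2
            refine cut_of_gam h2.1 hG ?_ ?_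
            · intro hx'
              exact hx (mem_biUnion.2 ⟨ρ, hρ, mem_union_left _ hx'⟩)
            · intro hy'
              exact hy (mem_biUnion.2 ⟨ρ, hρ, mem_union_left _ hy'⟩)
          · intro ρ hρ y hG
            refine mem_biUnion.2 ⟨ρ, hρ, mem_union_right _ ?_⟩
            simpa using hG
          · intro ρ hρ σ hσ hρσ x y
            exact hgW ρ (hTrS ρ hρ) σ (hTrS σ hσ) hρσ x y
          · intro ρ hρ σ hσ y hyW hyρ hyσ hcy
            -- there are many common elements between the base column and `y`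
            set Z : Finset (Fin n) := (F ρ ∩ F σ).filter fun y => base r < y with hZ
            have hyZ : y ∈ Z := mem_filter.2 ⟨mem_inter.2 ⟨hyρ, hyσ⟩, hcy⟩
            have hynl : y ∉ low Z t2 := by
              intro hyl
              have h1 := (mem_sdiff.1 hyW).2
              apply h1
              apply mem_union_right
              refine mem_biUnion.2 ⟨base r, hbV, mem_biUnion.2 ⟨ρ, hTrS ρ hρ, mem_biUnion.2
                ⟨σ, hTrS σ hσ, mem_union_right _ hyl⟩⟩⟩
            have hrk : t2 ≤ rk Z y := by
              by_contra hcon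
              push Not at hcon
              exact hynl (mem_filter.2 ⟨hyZ, hcon⟩)
            have hex : ∃ u ∈ Z.filter (· < y), u ∉ Dg ∪ Dr r := by
              by_contra hno
              push Not at hno
              have h1 : (Z.filter (· < y)).card ≤ (Dg ∪ Dr r).card :=
                card_le_card (fun u hu => hno u hu)
              have h2 := card_union_le Dg (Dr r)
              have h3 : rk Z y = (Z.filter (· < y)).card := rfl
              omega
            obtain ⟨u, hu, hu'⟩ := hex
            simp only [hZ, mem_filter, mem_inter] at hu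
            simp only [mem_union, not_or] at hu'
            exact ⟨u, hu.1.1.1, hu.1.1.2, hu.1.2, hu.2, hu'.1, hu'.2⟩
      refine (card_le_card hsub).trans ?_
      have h1 := card_union_le (((insert (base r) ((F r).filter (· < base r))) ∪
        newset (T r) r) ∪ Wc) (Dr r)
      have h2 := card_union_le ((insert (base r) ((F r).filter (· < base r))) ∪
        newset (T r) r) Wc
      have h3 := card_union_le (insert (base r) ((F r).filter (· < base r))) (newset (T r) r)
      have h4 := card_insert_le (base r) ((F r).filter (· < base r))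
      have h5 : ((F r).filter (· < base r)).card < t0 := hbrk
      rw [ht2] at hWccard
      omega
    · have hcard : (F r).card < t0 := by
        by_contra hcon
        push Not at hcon
        exact hr (mem_filter.2 ⟨mem_univ _, hl, hcon⟩)
      have hsub : (univ.filter fun c => A r c ≠ B r c) ⊆ F r := by
        intro c hc
        have hne := (mem_filter.1 hc).2
        rw [hF, mem_rows]
        by_contra hcA
        simp only [Bool.not_eq_true] at hcA
        have hcB : c ∉ rows B r := by
          intro hcB
          rw [hBrow] at hcB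
          exact hl hcB.1
        rw [mem_rows] at hcB
        simp only [Bool.not_eq_true] at hcB
        exact hne (by rw [hcA, hcB])
      have := card_le_card hsub
      omega

end Vale.Agent.OrdRem
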