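import Vale.Agent.Lib.OrdRem.Basic

/-!
# Low and high parts of finite sets and the cut lemma
-/

namespace Vale.Agent.OrdRem

open Finset

variable {n : ℕ}

/-- The rank of `c` in `F`: the number of elements of `F` below `c`. -/
def rk (F : Finset (Fin n)) (c : Fin n) : ℕ := (F.filter (· < c)).card

/-- The elements of `F` of rank less than `t`. -/
def low (F : Finset (Fin n)) (t : ℕ) : Finset (Fin n) := F.filter fun c => rk F c < t

/-- The elements of `F` with fewer than `t` elements of `F` above them. -/
def high (F : Finset (Fin n)) (t : ℕ) : Finset (Fin n) :=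
  F.filter fun c => (F.filter (c < ·)).card < t

theorem rk_lt_rk {F : Finset (Fin n)} {c c' : Fin n} (hc : c ∈ F) (h : c < c') :
    rk F c < rk F c' := by
  unfold rk
  apply Finset.card_lt_card
  refine ⟨?_, ?_⟩
  · intro x hx
    simp only [mem_filter] at hx ⊢
    exact ⟨hx.1, hx.2.trans h⟩
  · intro hsub
    have := hsub (by simp [hc, h] : c ∈ F.filter (· < c'))
    simp at this

theorem rk_injOn (F : Finset (Fin n)) : Set.InjOn (rk F) (F : Set (Fin n)) := by
  intro a ha b hb hab
  rcases lt_trichotomy a b with h | h | h
  · have := rk_lt_rk (mem_coe.1 ha) h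
    omega
  · exact h
  · have := rk_lt_rk (mem_coe.1 hb) h
    omega

theorem rk_lt_card {F : Finset (Fin n)} {c : Fin n} (hc : c ∈ F) : rk F c < F.card := by
  unfold rk
  apply Finset.card_lt_card
  refine ⟨filter_subset _ _, ?_⟩
  intro hsub
  have := hsub hc
  simp at this

theorem image_rk (F : Finset (Fin n)) : F.image (rk F) = range F.card := by
  apply Finset.eq_of_subset_of_card_le
  · intro i hi
    obtain ⟨c, hc, rfl⟩ := mem_image.1 hi
    exact mem_range.2 (rk_lt_card hc)
  · rw [card_range, card_image_of_injOn (rk_injOn F)]

theorem card_low_le (F : Finset (Fin n)) (t : ℕ) : (low F t).card ≤ t := by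
  have h1 : ((low F t).image (rk F)).card = (low F t).card := by
    apply card_image_of_injOn
    intro a ha b hb hab
    exact rk_injOn F (mem_coe.2 (mem_filter.1 (mem_coe.1 ha)).1)
      (mem_coe.2 (mem_filter.1 (mem_coe.1 hb)).1) hab
  rw [← h1]
  calc ((low F t).image (rk F)).card ≤ (range t).card := by
        apply card_le_card
        intro i hi
        obtain ⟨c, hc, rfl⟩ := mem_image.1 hi
        exact mem_range.2 (mem_filter.1 hc).2
    _ = t := card_range t

theorem le_card_low (F : Finset (Fin n)) (t : ℕ) : min t F.card ≤ (low F t).card := by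
  calc min t F.card = (range (min t F.card)).card := (card_range _).symm
    _ ≤ ((low F t).image (rk F)).card := by
        apply card_le_card
        intro i hi
        have hi' := mem_range.1 hi
        have h1 : i ∈ F.image (rk F) := by
          rw [image_rk]
          exact mem_range.2 (lt_of_lt_of_le hi' (min_le_right _ _))
        obtain ⟨c, hc, hci⟩ := mem_image.1 h1
        refine mem_image.2 ⟨c, mem_filter.2 ⟨hc, ?_⟩, hci⟩
        rw [hci]
        exact lt_of_lt_of_le hi' (min_le_left _ _)
    _ ≤ (low F t).card := card_image_le

theorem card_high_le (F : Finset (Fin n)) (t : ℕ) : (high F t).card ≤ t := by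
  have hinj : Set.InjOn (fun c => (F.filter (c < ·)).card) (F : Set (Fin n)) := by
    have key : ∀ a ∈ F, ∀ b ∈ F, a < b →
        (F.filter (b < ·)).card < (F.filter (a < ·)).card := by
      intro a ha b hb h
      apply Finset.card_lt_card
      refine ⟨?_, ?_⟩
      · intro x hx
        simp only [mem_filter] at hx ⊢
        exact ⟨hx.1, h.trans hx.2⟩
      · intro hsub
        have := hsub (by simp [hb, h] : b ∈ F.filter (a < ·))
        simp at this
    intro a ha b hb hab
    simp only at hab
    rcases lt_trichotomy a b with h | h | h
    · have := key a (mem_coe.1 ha) b (mem_coe.1 hb) h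
      omega
    · exact h
    · have := key b (mem_coe.1 hb) a (mem_coe.1 ha) h
      omega
  have h1 : ((high F t).image (fun c => (F.filter (c < ·)).card)).card = (high F t).card := by
    apply card_image_of_injOn
    intro a ha b hb hab
    exact hinj (mem_coe.2 (mem_filter.1 (mem_coe.1 ha)).1)
      (mem_coe.2 (mem_filter.1 (mem_coe.1 hb)).1) hab
  rw [← h1]
  calc ((high F t).image (fun c => (F.filter (c < ·)).card)).card ≤ (range t).card := by
        apply card_le_card
        intro i hi
        obtain ⟨c, hc, rfl⟩ := mem_image.1 hi
        exact mem_range.2 (mem_filter.1 hc).2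
    _ = t := card_range t

/-- The deletion set of the cut lemma. -/
def cutSet (X Y : Finset (Fin n)) (t : ℕ) : Finset (Fin n) := low X t ∪ high Y t

theorem card_cutSet_le (X Y : Finset (Fin n)) (t : ℕ) : (cutSet X Y t).card ≤ 2 * t := by
  unfold cutSet
  have h1 := card_union_le (low X t) (high Y t)
  have h2 := card_low_le X t
  have h3 := card_high_le Y t
  omega

/-- The cut lemma: if few pairs of `X × Y` are increasing then few deletions destroy them all. -/
theorem cutSet_spec {X Y : Finset (Fin n)} {t : ℕ}
    (h : ((X ×ˢ Y).filter fun p => p.1 < p.2).card ≤ t ^ 2) {x y : Fin n} (hx : x ∈ X)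
    (hy : y ∈ Y) (hxy : x < y) (hxD : x ∉ cutSet X Y t) (hyD : y ∉ cutSet X Y t) : False := by
  simp only [cutSet, mem_union, not_or, low, high, mem_filter, not_and, not_lt] at hxD hyD
  have h1 : t ≤ rk X x := hxD.1 hx
  have h2 : t ≤ (Y.filter (y < ·)).card := hyD.2 hy
  have h3 : t + 1 ≤ (X.filter (· ≤ x)).card := by
    have : X.filter (· ≤ x) = insert x (X.filter (· < x)) := by
      ext z
      simp only [mem_filter, mem_insert]
      constructor
      · rintro ⟨hz, hzx⟩
        rcases hzx.eq_or_lt with h | h
        · exact Or.inl h
        · exact Or.inr ⟨hz, h⟩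
      · rintro (h | h)
        · subst h
          exact ⟨hx, le_refl _⟩
        · exact ⟨h.1, h.2.le⟩
    rw [this, card_insert_of_notMem (by simp)]
    unfold rk at h1
    omega
  have h4 : t + 1 ≤ (Y.filter (y ≤ ·)).card := by
    have : Y.filter (y ≤ ·) = insert y (Y.filter (y < ·)) := by
      ext z
      simp only [mem_filter, mem_insert]
      constructor
      · rintro ⟨hz, hzx⟩
        rcases hzx.eq_or_lt with h | h
        · exact Or.inl h.symm
        · exact Or.inr ⟨hz, h⟩
      · rintro (h | h)
        · subst h
          exact ⟨hy, le_refl _⟩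
        · exact ⟨h.1, h.2.le⟩
    rw [this, card_insert_of_notMem (by simp)]
    omega
  have h5 : ((X.filter (· ≤ x)) ×ˢ (Y.filter (y ≤ ·))).card ≤
      ((X ×ˢ Y).filter fun p => p.1 < p.2).card := by
    apply card_le_card
    intro p hp
    simp only [mem_product, mem_filter] at hp ⊢
    exact ⟨⟨hp.1.1, hp.2.1⟩, lt_of_le_of_lt hp.1.2 (lt_of_lt_of_le hxy hp.2.2)⟩
  rw [card_product] at h5
  have h6 : (t + 1) * (t + 1) ≤ (X.filter (· ≤ x)).card * (Y.filter (y ≤ ·)).card :=
    Nat.mul_le_mul h3 h4
  nlinarith

/-- Greedy hitting sets: if every row of `R` has at least `h` columns and `g * n ≤ u * h` then some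
set `V` with `|V| * g ≤ |R|` of columns of these sets hits all but at most `u` rows. -/
theorem exists_hitting {ι : Type*} [DecidableEq ι] (R : Finset ι) (E : ι → Finset (Fin n))
    (h u g : ℕ) (hh : 0 < h) (hE : ∀ r ∈ R, h ≤ (E r).card) (hg : g * n ≤ u * h) :
    ∃ V : Finset (Fin n), V.card * g ≤ R.card ∧
      (R.filter fun r => Disjoint (E r) V).card ≤ u ∧
      ∀ v ∈ V, ∃ r ∈ R, v ∈ E r := by
  classical
  have key : ∀ N : ℕ, ∀ V : Finset (Fin n), (R.filter fun r => Disjoint (E r) V).card ≤ N →
      V.card * g + (R.filter fun r => Disjoint (E r) V).card ≤ R.card →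
      (∀ v ∈ V, ∃ r ∈ R, v ∈ E r) →
      ∃ V : Finset (Fin n), V.card * g ≤ R.card ∧
      (R.filter fun r => Disjoint (E r) V).card ≤ u ∧ ∀ v ∈ V, ∃ r ∈ R, v ∈ E r := by
    intro N
    induction N with
    | zero =>
      intro V h1 h2 h3
      exact ⟨V, by omega, by omega, h3⟩
    | succ N ih =>
      intro V h1 h2 h3
      by_cases hsmall : (R.filter fun r => Disjoint (E r) V).card ≤ u
      · exact ⟨V, by omega, hsmall, h3⟩
      push Not at hsmall
      set U := R.filter fun r => Disjoint (E r) V with hU
      have hdc : ∑ c : Fin n, (U.filter fun r => c ∈ E r).card = ∑ r ∈ U, (E r).card := by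
        simp only [card_filter]
        rw [Finset.sum_comm]
        apply Finset.sum_congr rfl
        intro r _
        rw [← card_filter]
        congr 1
        ext c
        simp
      have hge : U.card * h ≤ ∑ r ∈ U, (E r).card := by
        rw [← smul_eq_mul]
        apply Finset.card_nsmul_le_sum
        intro r hr
        exact hE r (mem_filter.1 hr).1
      have hex : ∃ c : Fin n, g ≤ (U.filter fun r => c ∈ E r).card ∧
          1 ≤ (U.filter fun r => c ∈ E r).card := by
        by_contra hno
        push Not at hno
        rcases Nat.eq_zero_or_pos g with hg0 | hg0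
        · subst hg0
          have hz : ∑ c : Fin n, (U.filter fun r => c ∈ E r).card = 0 := by
            apply Finset.sum_eq_zero
            intro c _
            have := hno c (Nat.zero_le _)
            omega
          rw [hdc] at hz
          have : 0 < U.card * h := Nat.mul_pos (by omega) hh
          omega
        · have hlt : ∑ c : Fin n, (U.filter fun r => c ∈ E r).card ≤ n * (g - 1) := by
            calc ∑ c : Fin n, (U.filter fun r => c ∈ E r).card
                ≤ ∑ _c : Fin n, (g - 1) := by
                  apply Finset.sum_le_sum
                  intro c _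
                  by_contra hcc
                  push Not at hcc
                  have := hno c (by omega)
                  omega
              _ = n * (g - 1) := by simp
          rw [hdc] at hlt
          have h4 : (u + 1) * h ≤ U.card * h := Nat.mul_le_mul_right _ hsmall
          have h5 : (u + 1) * h = u * h + h := by ring
          have h6 : n * (g - 1) + n = g * n := by
            obtain ⟨g', rfl⟩ : ∃ g', g = g' + 1 := ⟨g - 1, by omega⟩
            simp only [Nat.add_sub_cancel]
            ring
          omega
      obtain ⟨c, hc, hc1⟩ := hex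
      have hcV : c ∉ V := by
        intro hcV
        have hne : (U.filter fun r => c ∈ E r).Nonempty := card_pos.1 (by omega)
        obtain ⟨r, hr⟩ := hne
        have hr' := mem_filter.1 hr
        have hdis := (mem_filter.1 hr'.1).2
        exact (Finset.disjoint_left.1 hdis hr'.2) hcV
      have hsplit : (R.filter fun r => Disjoint (E r) (insert c V)).card +
          (U.filter fun r => c ∈ E r).card ≤ U.card := by
        have h7 : (R.filter fun r => Disjoint (E r) (insert c V)) =
            U.filter fun r => c ∉ E r := by
          ext r
          simp only [hU, mem_filter, Finset.disjoint_insert_right]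
          tauto
        rw [h7, add_comm]
        exact le_of_eq (Finset.card_filter_add_card_filter_not _)
      refine ih (insert c V) (by omega) ?_ ?_
      · rw [card_insert_of_notMem hcV]
        have : (V.card + 1) * g = V.card * g + g := by ring
        omega
      · intro v hv
        rcases mem_insert.1 hv with h | h
        · subst h
          obtain ⟨r, hr⟩ : (U.filter fun r => v ∈ E r).Nonempty := card_pos.1 (by omega)
          have hr' := mem_filter.1 hr
          exact ⟨r, (mem_filter.1 hr'.1).1, hr'.2⟩
        · exact h3 v h
  refine key R.card ∅ (card_filter_le _ _) ?_ (by simp)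
  simp only [card_empty, Nat.zero_mul, Nat.zero_add]
  exact card_filter_le _ _

end Vale.Agent.OrdRem
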