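import Vale.Agent.Lib.OrdRem.CornerRem

/-!
# Polynomial removal for the constant pattern and for the striped pattern
-/

namespace Vale.Agent.OrdRem

open Finset

variable {n : ℕ}

theorem two_mul_card_lt (X : Finset (Fin n)) :
    2 * ((X ×ˢ X).filter fun p => p.1 < p.2).card + X.card = X.card ^ 2 := by
  classical
  have h1 : ((X ×ˢ X).filter fun p => p.2 < p.1).card =
      ((X ×ˢ X).filter fun p => p.1 < p.2).card := by
    refine Finset.card_bij (fun p _ => (p.2, p.1)) ?_ ?_ ?_
    · intro p hp
      simp only [mem_filter, mem_product] at hp ⊢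
      exact ⟨⟨hp.1.2, hp.1.1⟩, hp.2⟩
    · intro p _ q _ h
      simp only [Prod.mk.injEq] at h
      exact Prod.ext h.2 h.1
    · intro p hp
      simp only [mem_filter, mem_product] at hp
      exact ⟨(p.2, p.1), by simp only [mem_filter, mem_product]; exact ⟨⟨hp.1.2, hp.1.1⟩, hp.2⟩,
        rfl⟩
  have h2 : ((X ×ˢ X).filter fun p => p.1 = p.2).card = X.card := by
    refine Finset.card_bij (fun p _ => p.1) ?_ ?_ ?_
    · intro p hp
      simp only [mem_filter, mem_product] at hp
      exact hp.1.1
    · intro p hp q hq h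
      simp only [mem_filter, mem_product] at hp hq
      exact Prod.ext h (by rw [← hp.2, ← hq.2, h])
    · intro x hx
      exact ⟨(x, x), by simp [hx], rfl⟩
  have h3 : (X ×ˢ X).card = ((X ×ˢ X).filter fun p => p.1 < p.2).card +
      (((X ×ˢ X).filter fun p => p.1 = p.2).card +
        ((X ×ˢ X).filter fun p => p.2 < p.1).card) := by
    rw [← card_union_of_disjoint, ← card_union_of_disjoint]
    · congr 1
      ext p
      simp only [mem_union, mem_filter]
      constructor
      · intro hp
        rcases lt_trichotomy p.1 p.2 with h | h | h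
        · exact Or.inl ⟨hp, h⟩
        · exact Or.inr (Or.inl ⟨hp, h⟩)
        · exact Or.inr (Or.inr ⟨hp, h⟩)
      · rintro (h | h | h)
        · exact h.1
        · exact h.1
        · exact h.1
    · rw [Finset.disjoint_left]
      intro p hp hp'
      simp only [mem_union, mem_filter] at hp hp'
      rcases hp' with h | h
      · exact absurd hp.2 (by rw [h.2]; exact lt_irrefl _)
      · exact absurd (hp.2.trans h.2) (lt_irrefl _)
    · rw [Finset.disjoint_left]
      intro p hp hp'
      simp only [mem_filter] at hp hp'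
      exact absurd hp'.2 (by rw [hp.2]; exact lt_irrefl _)
  rw [card_product] at h3
  rw [sq]
  omega

theorem mul_card_le (X : Finset (Fin n)) (T : ℕ) :
    T * X.card ≤ T ^ 2 + 2 * ((X ×ˢ X).filter fun p => p.1 < p.2).card := by
  have h := two_mul_card_lt X
  by_cases hT : X.card ≤ T
  · calc T * X.card ≤ T * T := Nat.mul_le_mul_left _ hT
      _ ≤ _ := by rw [← sq]; omega
  · push Not at hT
    have h1 : (T + 1) * X.card ≤ X.card * X.card := Nat.mul_le_mul_right _ hT
    have h2 : (T + 1) * X.card = T * X.card + X.card := by ring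
    rw [sq] at h
    omega

/-- Double counting for families indexed by pairs of rows. -/
theorem mul_sum_pairs_le (Z : Fin n × Fin n → Finset (Fin n)) (T : ℕ) :
    T * ∑ p ∈ univ.filter (fun p : Fin n × Fin n => p.1 < p.2), (Z p).card ≤
      n ^ 2 * T ^ 2 + 2 * ∑ p ∈ univ.filter (fun p : Fin n × Fin n => p.1 < p.2),
        ((Z p ×ˢ Z p).filter fun x => x.1 < x.2).card := by
  classical
  rw [Finset.mul_sum]
  calc ∑ p ∈ univ.filter (fun p : Fin n × Fin n => p.1 < p.2), T * (Z p).card
      ≤ ∑ p ∈ univ.filter (fun p : Fin n × Fin n => p.1 < p.2),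
        (T ^ 2 + 2 * ((Z p ×ˢ Z p).filter fun x => x.1 < x.2).card) :=
        Finset.sum_le_sum fun p _ => mul_card_le _ _
    _ = (univ.filter (fun p : Fin n × Fin n => p.1 < p.2)).card * T ^ 2 +
        2 * ∑ p ∈ univ.filter (fun p : Fin n × Fin n => p.1 < p.2),
        ((Z p ×ˢ Z p).filter fun x => x.1 < x.2).card := by
        rw [Finset.sum_add_distrib, Finset.sum_const, smul_eq_mul, Finset.mul_sum]
    _ ≤ _ := by
        apply Nat.add_le_add_right
        apply Nat.mul_le_mul_right
        have := card_le_univ (univ.filter (fun p : Fin n × Fin n => p.1 < p.2))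
        simp only [Fintype.card_prod, Fintype.card_fin] at this
        rw [sq]
        exact this

theorem sum_pairs_eq (Z : Fin n × Fin n → Finset (Fin n)) :
    ∑ p ∈ univ.filter (fun p : Fin n × Fin n => p.1 < p.2), (Z p).card =
      ∑ c : Fin n, (univ.filter fun p : Fin n × Fin n => p.1 < p.2 ∧ c ∈ Z p).card := by
  classical
  have h1 : ∀ p : Fin n × Fin n, (Z p).card = ∑ c : Fin n, if c ∈ Z p then 1 else 0 := by
    intro p
    simp
  simp only [h1]
  rw [Finset.sum_comm]
  apply Finset.sum_congr rfl
  intro c _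
  rw [← card_filter, filter_filter]

/-- The number of copies of a pattern whose two columns are equal, row by row. -/
theorem cnt_eq_sum_pairs (G : Fin 2 → Fin 2 → Bool) (A : Fin n → Fin n → Bool)
    (Z : Fin n × Fin n → Finset (Fin n))
    (hZ : ∀ p x y, Occ G A (p, (x, y)) ↔ p.1 < p.2 ∧ x < y ∧ x ∈ Z p ∧ y ∈ Z p) :
    ∑ p ∈ univ.filter (fun p : Fin n × Fin n => p.1 < p.2),
        ((Z p ×ˢ Z p).filter fun x => x.1 < x.2).card = cnt G A := by
  classical
  unfold cnt
  rw [← Finset.card_sigma]
  refine Finset.card_bij (fun s _ => (s.1, s.2)) ?_ ?_ ?_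
  · rintro ⟨p, x⟩ hs
    simp only [mem_sigma, mem_filter, mem_univ, true_and, mem_product] at hs
    simp only [mem_filter, mem_univ, true_and]
    exact (hZ p x.1 x.2).2 ⟨hs.1, hs.2.2, hs.2.1.1, hs.2.1.2⟩
  · rintro ⟨p, x⟩ _ ⟨p', x'⟩ _ h
    simp only [Prod.mk.injEq] at h
    obtain ⟨h1, h2⟩ := h
    subst h1
    subst h2
    rfl
  · rintro ⟨p, x⟩ hq
    simp only [mem_filter, mem_univ, true_and] at hq
    have := (hZ p x.1 x.2).1 hq
    refine ⟨⟨p, x⟩, ?_, rfl⟩
    simp only [mem_sigma, mem_filter, mem_univ, true_and, mem_product]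
    exact ⟨this.1, ⟨this.2.2.1, this.2.2.2⟩, this.2.1⟩

/-- The common numerical part of both proofs. -/
theorem easy_numeric {m n N I D : ℕ} (hm : 2 ≤ m) (hn : m ^ 100 ≤ n) (hN : m ^ 100 * N < n ^ 4)
    (hI : ∀ T, T * I ≤ n ^ 2 * T ^ 2 + 2 * N) (hD : ∀ T, T * D ≤ 2 * (n * T ^ 2) + 2 * I) :
    m * D < n ^ 2 := by
  set μ : ℕ := m ^ 7 with hμ
  have hμ128 : 128 ≤ μ := by
    calc 128 = 2 ^ 7 := by norm_num
      _ ≤ m ^ 7 := Nat.pow_le_pow_left hm 7
  have hmpow : ∀ a b : ℕ, a ≤ b → m ^ a ≤ m ^ b := fun a b h =>
    Nat.pow_le_pow_right (by omega) h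
  have hμpow : ∀ k : ℕ, μ ^ k = m ^ (7 * k) := fun k => by rw [hμ, ← pow_mul]
  have hμn : ∀ k : ℕ, k ≤ 14 → μ ^ k ≤ n := by
    intro k hk
    rw [hμpow]
    exact (hmpow _ _ (by omega)).trans hn
  have hμpos : 0 < μ := by omega
  have hnpos : 0 < n := lt_of_lt_of_le (pow_pos hμpos 1) (hμn 1 (by norm_num))
  obtain ⟨a1, a2, a3, a4⟩ := div_bounds (n := n) (c := μ ^ 4) (by positivity)
    (hμn 4 (by norm_num))
  obtain ⟨b1, b2, b3, b4⟩ := div_bounds (n := n) (c := μ ^ 2) (by positivity)
    (hμn 2 (by norm_num))
  have h1 := hI (n / μ ^ 4)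
  have h2 := hD (n / μ ^ 2)
  set T := n / μ ^ 4
  set T' := n / μ ^ 2
  have h3 : 4 * μ ^ 8 * N ≤ n ^ 4 := by
    calc 4 * μ ^ 8 * N ≤ m ^ 100 * N := by
          apply Nat.mul_le_mul_right
          calc 4 * μ ^ 8 ≤ μ * μ ^ 8 := Nat.mul_le_mul_right _ (by omega)
            _ = μ ^ 9 := by ring
            _ = m ^ (7 * 9) := hμpow 9
            _ ≤ m ^ 100 := hmpow _ _ (by norm_num)
      _ ≤ n ^ 4 := hN.le
  have h4 : I * μ ^ 4 ≤ 3 * n ^ 3 := by
    have h5 : I * μ ^ 4 * n ≤ 3 * n ^ 3 * n := by
      calc I * μ ^ 4 * n ≤ I * μ ^ 4 * (2 * (T * μ ^ 4)) := Nat.mul_le_mul_left _ a2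
        _ = (T * I) * (2 * μ ^ 8) := by ring
        _ ≤ (n ^ 2 * T ^ 2 + 2 * N) * (2 * μ ^ 8) := Nat.mul_le_mul_right _ h1
        _ = 2 * n ^ 2 * (T * μ ^ 4) ^ 2 + 4 * μ ^ 8 * N := by ring
        _ ≤ 2 * n ^ 2 * n ^ 2 + n ^ 4 := by gcongr
        _ = 3 * n ^ 3 * n := by ring
    exact Nat.le_of_mul_le_mul_right h5 hnpos
  have h6 : D * μ ^ 2 ≤ 16 * n ^ 2 := by
    have h5 : D * μ ^ 2 * n ≤ 16 * n ^ 2 * n := by
      calc D * μ ^ 2 * n ≤ D * μ ^ 2 * (2 * (T' * μ ^ 2)) := Nat.mul_le_mul_left _ b2
        _ = (T' * D) * (2 * μ ^ 4) := by ring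
        _ ≤ (2 * (n * T' ^ 2) + 2 * I) * (2 * μ ^ 4) := Nat.mul_le_mul_right _ h2
        _ = 4 * n * (T' * μ ^ 2) ^ 2 + 4 * (I * μ ^ 4) := by ring
        _ ≤ 4 * n * n ^ 2 + 4 * (3 * n ^ 3) := by gcongr
        _ = 16 * n ^ 2 * n := by ring
    exact Nat.le_of_mul_le_mul_right h5 hnpos
  have h7 : 128 * (m * D) ≤ D * μ ^ 2 := by
    calc 128 * (m * D) ≤ μ * (m ^ 7 * D) := by
          apply Nat.mul_le_mul hμ128
          apply Nat.mul_le_mul_right
          exact Nat.le_self_pow (by norm_num) m
      _ = D * μ ^ 2 := by rw [hμ]; ring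
  have hn2 : 0 < n ^ 2 := by positivity
  omega

/-- The constant pattern. -/
def ones : Fin 2 → Fin 2 → Bool := fun _ _ => true

theorem rem2_ones : Rem2 ones := by
  refine rem2_of_large ones 100 ?_
  intro m hm n hn A hcnt
  classical
  have hc2 : 2 ≤ n := by
    calc 2 ≤ m := hm
      _ = m ^ 1 := (pow_one m).symm
      _ ≤ m ^ 100 := Nat.pow_le_pow_right (by omega) (by norm_num)
      _ ≤ n := hn
  refine ⟨fun _ _ => false, ?_, ?_⟩
  · unfold cnt
    rw [card_eq_zero, filter_eq_empty_iff]
    intro q _ hq
    exact absurd hq.2.2.1 (by simp [ones])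
  set F := rows A with hF
  set Z : Fin n × Fin n → Finset (Fin n) := fun p => F p.1 ∩ F p.2 with hZ
  have h1 := cnt_eq_sum_pairs ones A Z (by
    intro p x y
    simp only [Occ, ones, hZ, mem_inter, hF, mem_rows]
    tauto)
  refine easy_numeric hm hn hcnt (I := ∑ p ∈ univ.filter (fun p : Fin n × Fin n => p.1 < p.2),
    (Z p).card) (fun T => by rw [← h1]; exact mul_sum_pairs_le Z T) ?_
  intro T
  rw [sum_pairs_eq Z]
  have h2 : ham A (fun _ _ => false) = ∑ c : Fin n, (univ.filter fun r => A r c = true).card := by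
    unfold ham
    simp only [card_filter]
    rw [← Finset.univ_product_univ, Finset.sum_product_right]
    apply Finset.sum_congr rfl
    intro c _
    apply Finset.sum_congr rfl
    intro r _
    simp
  rw [h2, Finset.mul_sum, Finset.mul_sum]
  have h3 : ∀ c : Fin n, T * (univ.filter fun r => A r c = true).card ≤
      T ^ 2 + 2 * (univ.filter fun p : Fin n × Fin n => p.1 < p.2 ∧ c ∈ Z p).card := by
    intro c
    refine (mul_card_le _ T).trans ?_
    apply Nat.add_le_add_left
    apply Nat.mul_le_mul_left
    apply card_le_card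
    intro p hp
    simp only [mem_filter, mem_product, mem_univ, true_and] at hp
    simp only [mem_filter, mem_univ, true_and, hZ, mem_inter, hF, mem_rows]
    exact ⟨hp.2, hp.1⟩
  refine (Finset.sum_le_sum fun c _ => h3 c).trans ?_
  rw [Finset.sum_add_distrib]
  simp only [Finset.sum_const, card_univ, Fintype.card_fin, smul_eq_mul]
  have : n * T ^ 2 ≤ 2 * (n * T ^ 2) := by omega
  omega

/-- The striped pattern: a row of ones above a row of zeros. -/
def stripe : Fin 2 → Fin 2 → Bool := fun i _ => i == 0

theorem rem2_stripe : Rem2 stripe := by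
  refine rem2_of_large stripe 100 ?_
  intro m hm n hn A hcnt
  classical
  set F := rows A with hF
  set z : Fin n → ℕ := fun c => (univ.filter fun r => A r c = false).card with hz
  refine ⟨fun r c => decide (z c ≤ r.val), ?_, ?_⟩
  · unfold cnt
    rw [card_eq_zero, filter_eq_empty_iff]
    intro q _ hq
    obtain ⟨h1, _, h2, _, h3, _⟩ := hq
    simp only [stripe, decide_eq_true_eq] at h2 h3
    simp only [show ((0 : Fin 2) == 0) = true from rfl, decide_eq_true_eq] at h2
    simp only [show ((1 : Fin 2) == 0) = false from rfl, decide_eq_false_iff_not, not_le] at h3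
    have h4 : q.1.1.val < q.1.2.val := h1
    omega
  set Z : Fin n × Fin n → Finset (Fin n) := fun p => F p.1 \ F p.2 with hZ
  have h1 := cnt_eq_sum_pairs stripe A Z (by
    intro p x y
    simp only [Occ, stripe, hZ, mem_sdiff, hF, mem_rows, Bool.not_eq_true]
    simp only [show ((0 : Fin 2) == 0) = true from rfl, show ((1 : Fin 2) == 0) = false from rfl]
    tauto)
  refine easy_numeric hm hn hcnt (I := ∑ p ∈ univ.filter (fun p : Fin n × Fin n => p.1 < p.2),
    (Z p).card) (fun T => by rw [← h1]; exact mul_sum_pairs_le Z T) ?_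
  intro T
  rw [sum_pairs_eq Z]
  have h2 : ham A (fun r c => decide (z c ≤ r.val)) =
      ∑ c : Fin n, (univ.filter fun r => A r c ≠ decide (z c ≤ r.val)).card := by
    unfold ham
    simp only [card_filter]
    rw [← Finset.univ_product_univ, Finset.sum_product_right]
  rw [h2, Finset.mul_sum, Finset.mul_sum]
  have h3 : ∀ c : Fin n, T * (univ.filter fun r => A r c ≠ decide (z c ≤ r.val)).card ≤
      2 * T ^ 2 + 2 * (univ.filter fun p : Fin n × Fin n => p.1 < p.2 ∧ c ∈ Z p).card := by
    intro c
    set P : Finset (Fin n) := univ.filter fun r => A r c = true ∧ r.val < z c with hP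
    set Q : Finset (Fin n) := univ.filter fun r => A r c = false ∧ z c ≤ r.val with hQ
    have h4 : (univ.filter fun r => A r c ≠ decide (z c ≤ r.val)).card = P.card + Q.card := by
      rw [← card_union_of_disjoint]
      · congr 1
        ext r
        simp only [mem_filter, mem_univ, true_and, mem_union, hP, hQ]
        by_cases hr : z c ≤ r.val
        · simp only [hr, decide_true, and_true]
          have : ¬ (r.val < z c) := by omega
          simp [this]
        · simp only [hr, decide_false, and_false, or_false]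
          have : r.val < z c := by omega
          simp [this]
      · rw [Finset.disjoint_left]
        intro r hr hr'
        simp only [mem_filter, mem_univ, true_and, hP, hQ] at hr hr'
        rw [hr.1] at hr'
        exact absurd hr'.1 (by simp)
    have h5 : P.card = Q.card := by
      have e1 : z c = (univ.filter fun r : Fin n => A r c = false ∧ r.val < z c).card + Q.card := by
        conv_lhs => rw [hz]
        simp only
        rw [← card_union_of_disjoint]
        · congr 1
          ext r
          simp only [mem_filter, mem_univ, true_and, mem_union, hQ]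
          constructor
          · intro h
            rcases lt_or_ge r.val (z c) with h' | h'
            · exact Or.inl ⟨h, h'⟩
            · exact Or.inr ⟨h, h'⟩
          · rintro (h | h)
            · exact h.1
            · exact h.1
        · rw [Finset.disjoint_left]
          intro r hr hr'
          simp only [mem_filter, mem_univ, true_and, hQ] at hr hr'
          omega
      have e2 : z c = (univ.filter fun r : Fin n => A r c = false ∧ r.val < z c).card + P.card := by
        have hzn : z c ≤ n := by
          have := card_le_univ (univ.filter fun r : Fin n => A r c = false)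
          simpa [hz] using this
        have e3 : (univ.filter fun r : Fin n => r.val < z c).card = z c := by
          have := Fin.card_filter_val_lt (n := n) (m := z c)
          rw [this]
          exact min_eq_right hzn
        conv_lhs => rw [← e3]
        rw [← card_union_of_disjoint]
        · congr 1
          ext r
          simp only [mem_filter, mem_univ, true_and, mem_union, hP]
          constructor
          · intro h
            rcases Bool.eq_false_or_eq_true (A r c) with h' | h'
            · exact Or.inr ⟨h', h⟩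
            · exact Or.inl ⟨h', h⟩
          · rintro (h | h)
            · exact h.2
            · exact h.2
        · rw [Finset.disjoint_left]
          intro r hr hr'
          simp only [mem_filter, mem_univ, true_and, hP] at hr hr'
          rw [hr.1] at hr'
          exact absurd hr'.1 (by simp)
      omega
    have h6 : P.card * Q.card ≤
        (univ.filter fun p : Fin n × Fin n => p.1 < p.2 ∧ c ∈ Z p).card := by
      rw [← card_product]
      apply card_le_card
      intro p hp
      simp only [mem_product, mem_filter, mem_univ, true_and, hP, hQ] at hp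
      simp only [mem_filter, mem_univ, true_and, hZ, mem_sdiff, hF, mem_rows, Bool.not_eq_true]
      refine ⟨?_, hp.1.1, hp.2.1⟩
      show p.1.val < p.2.val
      omega
    rw [h4, ← h5]
    rw [← h5] at h6
    have h7 : T * P.card ≤ T ^ 2 + P.card * P.card := by
      rcases le_total P.card T with h | h
      · calc T * P.card ≤ T * T := Nat.mul_le_mul_left _ h
          _ ≤ _ := by rw [← sq]; omega
      · calc T * P.card ≤ P.card * P.card := Nat.mul_le_mul_right _ h
          _ ≤ _ := by omega
    calc T * (P.card + P.card) = 2 * (T * P.card) := by ring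
      _ ≤ 2 * (T ^ 2 + P.card * P.card) := Nat.mul_le_mul_left _ h7
      _ ≤ _ := by omega
  refine (Finset.sum_le_sum fun c _ => h3 c).trans ?_
  rw [Finset.sum_add_distrib]
  simp only [Finset.sum_const, card_univ, Fintype.card_fin, smul_eq_mul]
  have : n * (2 * T ^ 2) = 2 * (n * T ^ 2) := by ring
  omega

end Vale.Agent.OrdRem
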