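import Vale.Agent.Lib.OrdRem.Marks

/-!
# Scanning rows with epochs
-/

namespace Vale.Agent.OrdRem

open Finset

variable {n : ℕ}

/-- Scan the rows in increasing order, keeping marks labelled by epochs.  A row that is not `ok` is
skipped; a row that crosses a mark of the current epoch starts a new epoch; a row whose class is not
yet present in the current epoch becomes a mark. -/
noncomputable def scan (ok : Finset (Fin n × ℕ) → Fin n → Prop) (crs : Fin n → Fin n → Prop)
    (cls : Fin n → ℕ) : ℕ → Finset (Fin n × ℕ) × ℕ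
  | 0 => (∅, 0)
  | t + 1 => by
      classical exact
        if h : t < n then
          (if ok (scan ok crs cls t).1 ⟨t, h⟩ then
            (if ∃ ρ, (ρ, (scan ok crs cls t).2) ∈ (scan ok crs cls t).1 ∧ crs ρ ⟨t, h⟩ then
              (insert (⟨t, h⟩, (scan ok crs cls t).2 + 1) (scan ok crs cls t).1,
                (scan ok crs cls t).2 + 1)
            else if ∃ ρ, (ρ, (scan ok crs cls t).2) ∈ (scan ok crs cls t).1 ∧ cls ρ = cls ⟨t, h⟩
              then scan ok crs cls t
            else (insert (⟨t, h⟩, (scan ok crs cls t).2) (scan ok crs cls t).1,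
              (scan ok crs cls t).2))
          else scan ok crs cls t)
        else scan ok crs cls t

variable {ok : Finset (Fin n × ℕ) → Fin n → Prop} {crs : Fin n → Fin n → Prop} {cls : Fin n → ℕ}

/-- The possible results of one step of the scan. -/
theorem scan_succ (t : ℕ) (h : t < n) :
    (¬ ok (scan ok crs cls t).1 ⟨t, h⟩ ∧ scan ok crs cls (t + 1) = scan ok crs cls t) ∨
    (ok (scan ok crs cls t).1 ⟨t, h⟩ ∧
      (∃ ρ, (ρ, (scan ok crs cls t).2) ∈ (scan ok crs cls t).1 ∧ crs ρ ⟨t, h⟩) ∧
      scan ok crs cls (t + 1) = (insert (⟨t, h⟩, (scan ok crs cls t).2 + 1)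
        (scan ok crs cls t).1, (scan ok crs cls t).2 + 1)) ∨
    (ok (scan ok crs cls t).1 ⟨t, h⟩ ∧
      (∀ ρ, (ρ, (scan ok crs cls t).2) ∈ (scan ok crs cls t).1 → ¬ crs ρ ⟨t, h⟩) ∧
      (∃ ρ, (ρ, (scan ok crs cls t).2) ∈ (scan ok crs cls t).1 ∧ cls ρ = cls ⟨t, h⟩) ∧
      scan ok crs cls (t + 1) = scan ok crs cls t) ∨
    (ok (scan ok crs cls t).1 ⟨t, h⟩ ∧
      (∀ ρ, (ρ, (scan ok crs cls t).2) ∈ (scan ok crs cls t).1 → ¬ crs ρ ⟨t, h⟩) ∧
      (∀ ρ, (ρ, (scan ok crs cls t).2) ∈ (scan ok crs cls t).1 → cls ρ ≠ cls ⟨t, h⟩) ∧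
      scan ok crs cls (t + 1) = (insert (⟨t, h⟩, (scan ok crs cls t).2)
        (scan ok crs cls t).1, (scan ok crs cls t).2)) := by
  classical
  rw [show scan ok crs cls (t + 1) = _ from rfl]
  rw [scan]
  rw [dif_pos h]
  by_cases h1 : ok (scan ok crs cls t).1 ⟨t, h⟩
  · rw [if_pos h1]
    by_cases h2 : ∃ ρ, (ρ, (scan ok crs cls t).2) ∈ (scan ok crs cls t).1 ∧ crs ρ ⟨t, h⟩
    · rw [if_pos h2]
      exact Or.inr (Or.inl ⟨h1, h2, rfl⟩)
    · rw [if_neg h2]
      push Not at h2
      by_cases h3 : ∃ ρ, (ρ, (scan ok crs cls t).2) ∈ (scan ok crs cls t).1 ∧ cls ρ = cls ⟨t, h⟩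
      · rw [if_pos h3]
        exact Or.inr (Or.inr (Or.inl ⟨h1, h2, h3, rfl⟩))
      · rw [if_neg h3]
        push Not at h3
        exact Or.inr (Or.inr (Or.inr ⟨h1, h2, h3, rfl⟩))
  · rw [if_neg h1]
    exact Or.inl ⟨h1, rfl⟩

theorem scan_le_succ (t : ℕ) : (scan ok crs cls t).1 ⊆ (scan ok crs cls (t + 1)).1 ∧
    (scan ok crs cls t).2 ≤ (scan ok crs cls (t + 1)).2 := by
  by_cases h : t < n
  · rcases scan_succ (ok := ok) (crs := crs) (cls := cls) t h with h1 | h1 | h1 | h1
    · rw [h1.2]
      exact ⟨Subset.refl _, le_refl _⟩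
    · rw [h1.2.2]
      exact ⟨subset_insert _ _, by simp⟩
    · rw [h1.2.2.2]
      exact ⟨Subset.refl _, le_refl _⟩
    · rw [h1.2.2.2]
      exact ⟨subset_insert _ _, le_refl _⟩
  · have : scan ok crs cls (t + 1) = scan ok crs cls t := by
      rw [scan, dif_neg h]
    rw [this]
    exact ⟨Subset.refl _, le_refl _⟩

theorem scan_mono {s t : ℕ} (hst : s ≤ t) : (scan ok crs cls s).1 ⊆ (scan ok crs cls t).1 ∧
    (scan ok crs cls s).2 ≤ (scan ok crs cls t).2 := by
  induction t, hst using Nat.le_induction with
  | base => exact ⟨Subset.refl _, le_refl _⟩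
  | succ t _ ih =>
    have := scan_le_succ (ok := ok) (crs := crs) (cls := cls) t
    exact ⟨ih.1.trans this.1, ih.2.trans this.2⟩

/-- The invariants of the scan. -/
structure ScanInv (ok : Finset (Fin n × ℕ) → Fin n → Prop) (crs : Fin n → Fin n → Prop)
    (cls : Fin n → ℕ) (t : ℕ) (M : Finset (Fin n × ℕ)) (e : ℕ) : Prop where
  lt : ∀ p ∈ M, p.1.val < t ∧ p.2 ≤ e
  mono : ∀ p ∈ M, ∀ p' ∈ M, p.1 < p'.1 → p.2 ≤ p'.2
  uniq : ∀ p ∈ M, ∀ p' ∈ M, p.1 = p'.1 → p = p'
  ncr : ∀ p ∈ M, ∀ p' ∈ M, p.2 = p'.2 → p.1 < p'.1 → ¬ crs p.1 p'.1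
  ncl : ∀ p ∈ M, ∀ p' ∈ M, p.2 = p'.2 → p.1 < p'.1 → cls p.1 ≠ cls p'.1
  ep : ∀ j < e, ∃ ρ r, (ρ, j) ∈ M ∧ (r, j + 1) ∈ M ∧ ρ < r ∧ crs ρ r ∧
    ∀ p ∈ M, j + 1 ≤ p.2 → r ≤ p.1
  okm : ∀ p ∈ M, ∃ M', ok M' p.1 ∧ ∀ p' ∈ M, p'.1 < p.1 → p' ∈ M'

theorem scan_inv (t : ℕ) :
    ScanInv ok crs cls t (scan ok crs cls t).1 (scan ok crs cls t).2 := by
  classical
  induction t with
  | zero =>
    refine ⟨?_, ?_, ?_, ?_, ?_, ?_, ?_⟩
    all_goals simp [scan]
  | succ t ih =>
    by_cases h : t < n
    swap
    · have h1 : scan ok crs cls (t + 1) = scan ok crs cls t := by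
        rw [scan, dif_neg h]
      rw [h1]
      exact ⟨fun p hp => ⟨by have := (ih.lt p hp).1; omega, (ih.lt p hp).2⟩, ih.mono, ih.uniq,
        ih.ncr, ih.ncl, ih.ep, ih.okm⟩
    have hkeep : scan ok crs cls (t + 1) = scan ok crs cls t →
        ScanInv ok crs cls (t + 1) (scan ok crs cls (t + 1)).1 (scan ok crs cls (t + 1)).2 := by
      intro h1
      rw [h1]
      exact ⟨fun p hp => ⟨by have := (ih.lt p hp).1; omega, (ih.lt p hp).2⟩, ih.mono, ih.uniq,
        ih.ncr, ih.ncl, ih.ep, ih.okm⟩
    rcases scan_succ (ok := ok) (crs := crs) (cls := cls) t h with h1 | h1 | h1 | h1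
    · exact hkeep h1.2
    · -- a new epoch
      obtain ⟨hok, ⟨ρ0, hρ0, hcr0⟩, heq⟩ := h1
      rw [heq]
      set M := (scan ok crs cls t).1 with hM
      set e := (scan ok crs cls t).2 with he
      have hlt : ∀ p ∈ M, p.1 < (⟨t, h⟩ : Fin n) := fun p hp => (ih.lt p hp).1
      refine ⟨?_, ?_, ?_, ?_, ?_, ?_, ?_⟩
      · intro p hp
        rcases mem_insert.1 hp with hp | hp
        · subst hp
          exact ⟨by simp, le_refl _⟩
        · have := ih.lt p hp
          exact ⟨by omega, by simp only; omega⟩
      · intro p hp p' hp' hlt'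
        rcases mem_insert.1 hp with hp | hp <;> rcases mem_insert.1 hp' with hp' | hp'
        · subst hp; subst hp'; exact absurd hlt' (lt_irrefl _)
        · subst hp; exact absurd (hlt'.trans (hlt p' hp')) (lt_irrefl _)
        · subst hp'
          have := (ih.lt p hp).2
          simp only
          omega
        · exact ih.mono p hp p' hp' hlt'
      · intro p hp p' hp' heq'
        rcases mem_insert.1 hp with hp | hp <;> rcases mem_insert.1 hp' with hp' | hp'
        · subst hp; subst hp'; rfl
        · subst hp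
          have := hlt p' hp'
          rw [← heq'] at this
          exact absurd this (lt_irrefl _)
        · subst hp'
          have := hlt p hp
          rw [heq'] at this
          exact absurd this (lt_irrefl _)
        · exact ih.uniq p hp p' hp' heq'
      · intro p hp p' hp' h2 hlt'
        rcases mem_insert.1 hp with hp | hp <;> rcases mem_insert.1 hp' with hp' | hp'
        · subst hp; subst hp'; exact absurd hlt' (lt_irrefl _)
        · subst hp; exact absurd (hlt'.trans (hlt p' hp')) (lt_irrefl _)
        · subst hp'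
          have := (ih.lt p hp).2
          simp only at h2
          omega
        · exact ih.ncr p hp p' hp' h2 hlt'
      · intro p hp p' hp' h2 hlt'
        rcases mem_insert.1 hp with hp | hp <;> rcases mem_insert.1 hp' with hp' | hp'
        · subst hp; subst hp'; exact absurd hlt' (lt_irrefl _)
        · subst hp; exact absurd (hlt'.trans (hlt p' hp')) (lt_irrefl _)
        · subst hp'
          have := (ih.lt p hp).2
          simp only at h2
          omega
        · exact ih.ncl p hp p' hp' h2 hlt'
      · intro j hj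
        simp only at hj
        rcases Nat.lt_succ_iff_lt_or_eq.1 hj with hj | hj
        · obtain ⟨ρ, r, h2, h3, h4, h5, h6⟩ := ih.ep j hj
          refine ⟨ρ, r, mem_insert_of_mem h2, mem_insert_of_mem h3, h4, h5, ?_⟩
          intro p hp hle
          rcases mem_insert.1 hp with hp | hp
          · subst hp
            exact (hlt _ h3).le
          · exact h6 p hp hle
        · subst hj
          refine ⟨ρ0, ⟨t, h⟩, mem_insert_of_mem hρ0, mem_insert_self _ _, hlt _ hρ0, hcr0, ?_⟩
          intro p hp hle
          rcases mem_insert.1 hp with hp | hp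
          · subst hp
            exact le_refl _
          · have := (ih.lt p hp).2
            omega
      · intro p hp
        rcases mem_insert.1 hp with hp | hp
        · subst hp
          refine ⟨M, hok, ?_⟩
          intro p' hp' hlt'
          rcases mem_insert.1 hp' with hp' | hp'
          · subst hp'
            exact absurd hlt' (lt_irrefl _)
          · exact hp'
        · obtain ⟨M', h2, h3⟩ := ih.okm p hp
          refine ⟨M', h2, ?_⟩
          intro p' hp' hlt'
          rcases mem_insert.1 hp' with hp' | hp'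
          · subst hp'
            exact absurd (hlt'.trans (hlt p hp)) (lt_irrefl _)
          · exact h3 p' hp' hlt'
    · exact hkeep h1.2.2.2
    · -- a new mark in the current epoch
      obtain ⟨hok, hncr, hncl, heq⟩ := h1
      rw [heq]
      set M := (scan ok crs cls t).1 with hM
      set e := (scan ok crs cls t).2 with he
      have hlt : ∀ p ∈ M, p.1 < (⟨t, h⟩ : Fin n) := fun p hp => (ih.lt p hp).1
      refine ⟨?_, ?_, ?_, ?_, ?_, ?_, ?_⟩
      · intro p hp
        rcases mem_insert.1 hp with hp | hp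
        · subst hp
          exact ⟨by simp, le_refl _⟩
        · have := ih.lt p hp
          exact ⟨by omega, this.2⟩
      · intro p hp p' hp' hlt'
        rcases mem_insert.1 hp with hp | hp <;> rcases mem_insert.1 hp' with hp' | hp'
        · subst hp; subst hp'; exact absurd hlt' (lt_irrefl _)
        · subst hp; exact absurd (hlt'.trans (hlt p' hp')) (lt_irrefl _)
        · subst hp'
          exact (ih.lt p hp).2
        · exact ih.mono p hp p' hp' hlt'
      · intro p hp p' hp' heq'
        rcases mem_insert.1 hp with hp | hp <;> rcases mem_insert.1 hp' with hp' | hp'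
        · subst hp; subst hp'; rfl
        · subst hp
          have := hlt p' hp'
          rw [← heq'] at this
          exact absurd this (lt_irrefl _)
        · subst hp'
          have := hlt p hp
          rw [heq'] at this
          exact absurd this (lt_irrefl _)
        · exact ih.uniq p hp p' hp' heq'
      · intro p hp p' hp' h2 hlt'
        rcases mem_insert.1 hp with hp | hp <;> rcases mem_insert.1 hp' with hp' | hp'
        · subst hp; subst hp'; exact absurd hlt' (lt_irrefl _)
        · subst hp; exact absurd (hlt'.trans (hlt p' hp')) (lt_irrefl _)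
        · subst hp'
          apply hncr p.1
          simp only at h2
          rw [← h2]
          exact hp
        · exact ih.ncr p hp p' hp' h2 hlt'
      · intro p hp p' hp' h2 hlt'
        rcases mem_insert.1 hp with hp | hp <;> rcases mem_insert.1 hp' with hp' | hp'
        · subst hp; subst hp'; exact absurd hlt' (lt_irrefl _)
        · subst hp; exact absurd (hlt'.trans (hlt p' hp')) (lt_irrefl _)
        · subst hp'
          apply hncl p.1
          simp only at h2
          rw [← h2]
          exact hp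
        · exact ih.ncl p hp p' hp' h2 hlt'
      · intro j hj
        obtain ⟨ρ, r, h2, h3, h4, h5, h6⟩ := ih.ep j hj
        refine ⟨ρ, r, mem_insert_of_mem h2, mem_insert_of_mem h3, h4, h5, ?_⟩
        intro p hp hle
        rcases mem_insert.1 hp with hp | hp
        · subst hp
          exact (hlt _ h3).le
        · exact h6 p hp hle
      · intro p hp
        rcases mem_insert.1 hp with hp | hp
        · subst hp
          refine ⟨M, hok, ?_⟩
          intro p' hp' hlt'
          rcases mem_insert.1 hp' with hp' | hp'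
          · subst hp'
            exact absurd hlt' (lt_irrefl _)
          · exact hp'
        · obtain ⟨M', h2, h3⟩ := ih.okm p hp
          refine ⟨M', h2, ?_⟩
          intro p' hp' hlt'
          rcases mem_insert.1 hp' with hp' | hp'
          · subst hp'
            exact absurd (hlt'.trans (hlt p hp)) (lt_irrefl _)
          · exact h3 p' hp' hlt'

/-- What an `ok` row sees: a mark of its own class in its own epoch that it does not cross. -/
theorem scan_rep (r : Fin n) (hok : ok (scan ok crs cls r.val).1 r) :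
    ∃ σ, (σ, (scan ok crs cls (r.val + 1)).2) ∈ (scan ok crs cls n).1 ∧ cls σ = cls r ∧
      (σ = r ∨ ¬ crs σ r) := by
  have hsub := (scan_mono (ok := ok) (crs := crs) (cls := cls) (Nat.succ_le_of_lt r.isLt)).1
  rcases scan_succ (ok := ok) (crs := crs) (cls := cls) r.val r.isLt with h1 | h1 | h1 | h1
  · exact absurd hok h1.1
  · refine ⟨r, ?_, rfl, Or.inl rfl⟩
    apply hsub
    rw [Nat.succ_eq_add_one, h1.2.2]
    exact mem_insert_self _ _
  · obtain ⟨_, hncr, ⟨ρ, hρ, hcl⟩, heq⟩ := h1
    refine ⟨ρ, ?_, hcl, Or.inr (hncr ρ hρ)⟩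
    apply hsub
    rw [Nat.succ_eq_add_one, heq]
    exact hρ
  · refine ⟨r, ?_, rfl, Or.inl rfl⟩
    apply hsub
    rw [Nat.succ_eq_add_one, h1.2.2.2]
    exact mem_insert_self _ _

end Vale.Agent.OrdRem
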