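import Vale.Agent.Lib.OrdRem.Corner
import Vale.Agent.Lib.OrdRem.Scan

/-!
# The combinatorial core of polynomial removal for the identity pattern
-/

namespace Vale.Agent.OrdRem

open Finset

variable {n : ℕ}

/-- The two by two identity pattern. -/
def iden : Fin 2 → Fin 2 → Bool := fun i j => i == j

/-- Rows `ρ`, `r` and columns `x < y` carry the pattern `1 0 / 0 1`. -/
def Xng (F : Fin n → Finset (Fin n)) (ρ r x y : Fin n) : Prop :=
  x < y ∧ x ∈ F ρ ∧ y ∉ F ρ ∧ x ∉ F r ∧ y ∈ F r

instance (F : Fin n → Finset (Fin n)) (ρ r x y : Fin n) : Decidable (Xng F ρ r x y) := by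
  unfold Xng; infer_instance

theorem occ_iden_iff {A : Fin n → Fin n → Bool} {q : (Fin n × Fin n) × (Fin n × Fin n)} :
    Occ iden A q ↔ q.1.1 < q.1.2 ∧ Xng (rows A) q.1.1 q.1.2 q.2.1 q.2.2 := by
  unfold Occ Xng iden
  simp [mem_rows]

theorem cnt_iden_eq_zero_iff {A : Fin n → Fin n → Bool} :
    cnt iden A = 0 ↔ ∀ ρ r x y, ρ < r → ¬ Xng (rows A) ρ r x y := by
  unfold cnt
  rw [card_eq_zero, filter_eq_empty_iff]
  constructor
  · intro h ρ r x y hρr hG
    exact h (mem_univ ((ρ, r), (x, y))) (occ_iden_iff.2 ⟨hρr, hG⟩)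
  · intro h q _ hq
    rw [occ_iden_iff] at hq
    exact h _ _ _ _ hq.1 hq.2

theorem xng_prod_le {F : Fin n → Finset (Fin n)} {ρ r : Fin n} {t : ℕ}
    (h : (univ.filter fun p : Fin n × Fin n => Xng F ρ r p.1 p.2).card ≤ t ^ 2) :
    (((F ρ \ F r) ×ˢ (F r \ F ρ)).filter fun p => p.1 < p.2).card ≤ t ^ 2 := by
  refine le_trans (card_le_card ?_) h
  intro p hp
  simp only [mem_filter, mem_product, mem_sdiff] at hp
  exact mem_filter.2 ⟨mem_univ _, hp.2, hp.1.1.1, hp.1.2.2, hp.1.1.2, hp.1.2.1⟩

theorem cut_of_xng {F : Fin n → Finset (Fin n)} {ρ r : Fin n} {t : ℕ}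
    (h : (univ.filter fun p : Fin n × Fin n => Xng F ρ r p.1 p.2).card ≤ t ^ 2) {x y : Fin n}
    (hG : Xng F ρ r x y) (hx : x ∉ cutSet (F ρ \ F r) (F r \ F ρ) t)
    (hy : y ∉ cutSet (F ρ \ F r) (F r \ F ρ) t) : False := by
  obtain ⟨hxy, h1, h2, h3, h4⟩ := hG
  exact cutSet_spec (xng_prod_le h) (mem_sdiff.2 ⟨h1, h3⟩) (mem_sdiff.2 ⟨h4, h2⟩) hxy hx hy

/-- Number of elements below the level `z`. -/
def pre (F : Finset (Fin n)) (z : ℕ) : ℕ := (F.filter fun c => c.val < z).card

/-- Number of elements at or above the level `z`. -/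
def suf (F : Finset (Fin n)) (z : ℕ) : ℕ := (F.filter fun c => z ≤ c.val).card

theorem card_window_le (F : Finset (Fin n)) (z w : ℕ) :
    (F.filter fun c => z ≤ c.val ∧ c.val < z + w).card ≤ w := by
  calc (F.filter fun c => z ≤ c.val ∧ c.val < z + w).card
      = ((F.filter fun c => z ≤ c.val ∧ c.val < z + w).image Fin.val).card := by
        rw [card_image_of_injective _ Fin.val_injective]
    _ ≤ (Finset.Ico z (z + w)).card := by
        apply card_le_card
        intro i hi
        obtain ⟨c, hc, rfl⟩ := mem_image.1 hi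
        exact mem_Ico.2 (mem_filter.1 hc).2
    _ = w := by simp

theorem pre_sub (X Y : Finset (Fin n)) (z : ℕ) :
    pre Y z + pre (X \ Y) z = pre X z + pre (Y \ X) z := by
  have h1 : pre X z = pre (X ∩ Y) z + pre (X \ Y) z := by
    unfold pre
    rw [← card_union_of_disjoint]
    · congr 1
      ext c
      simp only [mem_filter, mem_union, mem_inter, mem_sdiff]
      tauto
    · rw [Finset.disjoint_left]
      intro c hc hc'
      simp only [mem_filter, mem_inter, mem_sdiff] at hc hc'
      exact hc'.1.2 hc.1.2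
  have h2 : pre Y z = pre (X ∩ Y) z + pre (Y \ X) z := by
    unfold pre
    rw [← card_union_of_disjoint]
    · congr 1
      ext c
      simp only [mem_filter, mem_union, mem_inter, mem_sdiff]
      tauto
    · rw [Finset.disjoint_left]
      intro c hc hc'
      simp only [mem_filter, mem_inter, mem_sdiff] at hc hc'
      exact hc'.1.2 hc.1.1
  omega

theorem suf_sub (X Y : Finset (Fin n)) (z : ℕ) :
    suf Y z + suf (X \ Y) z = suf X z + suf (Y \ X) z := by
  have h1 : suf X z = suf (X ∩ Y) z + suf (X \ Y) z := by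
    unfold suf
    rw [← card_union_of_disjoint]
    · congr 1
      ext c
      simp only [mem_filter, mem_union, mem_inter, mem_sdiff]
      tauto
    · rw [Finset.disjoint_left]
      intro c hc hc'
      simp only [mem_filter, mem_inter, mem_sdiff] at hc hc'
      exact hc'.1.2 hc.1.2
  have h2 : suf Y z = suf (X ∩ Y) z + suf (Y \ X) z := by
    unfold suf
    rw [← card_union_of_disjoint]
    · congr 1
      ext c
      simp only [mem_filter, mem_union, mem_inter, mem_sdiff]
      tauto
    · rw [Finset.disjoint_left]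
      intro c hc hc'
      simp only [mem_filter, mem_inter, mem_sdiff] at hc hc'
      exact hc'.1.2 hc.1.1
  omega

theorem pre_add_suf (X : Finset (Fin n)) (z : ℕ) : pre X z + suf X z = X.card := by
  unfold pre suf
  have := Finset.card_filter_add_card_filter_not (s := X) (fun c : Fin n => c.val < z)
  rw [← this]
  congr 1
  congr 1
  ext c
  simp

theorem pre_le (X : Finset (Fin n)) (z : ℕ) : pre X z ≤ n := by
  have := card_le_univ (X.filter fun c => c.val < z)
  simpa [pre] using this

theorem suf_le (X : Finset (Fin n)) (z : ℕ) : suf X z ≤ n := by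
  have := card_le_univ (X.filter fun c => z ≤ c.val)
  simpa [suf] using this

/-- A good crossing pair moves mass to the left across a grid line. -/
theorem cross_move {X Y : Finset (Fin n)} {t τ g : ℕ} (hg : 0 < g) (htτ : t ≤ τ)
    (h : (((X \ Y) ×ˢ (Y \ X)).filter fun p => p.1 < p.2).card ≤ t ^ 2)
    (hX : τ < (X \ Y).card) (hY : τ < (Y \ X).card) :
    ∃ i < n / g + 1, pre X (i * g) + τ + 1 ≤ pre Y (i * g) + 2 * t + g ∧
      suf Y (i * g) + τ + 1 ≤ suf X (i * g) + 2 * t + g := by
  classical
  have hne : ((X \ Y) \ low (X \ Y) t).Nonempty := by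
    rw [← card_pos]
    have h1 := card_low_le (X \ Y) t
    have h2 := le_card_sdiff (low (X \ Y) t) (X \ Y)
    omega
  set x := ((X \ Y) \ low (X \ Y) t).min' hne with hx
  have hxm : x ∈ (X \ Y) \ low (X \ Y) t := min'_mem _ _
  have hxX : x ∈ X \ Y := (mem_sdiff.1 hxm).1
  have hxmin : ∀ y ∈ (X \ Y) \ low (X \ Y) t, x ≤ y := fun y hy => min'_le _ _ hy
  set i := x.val / g with hi
  refine ⟨i, ?_, ?_⟩
  · have : x.val / g ≤ n / g := Nat.div_le_div_right x.isLt.le
    omega
  have hz1 : i * g ≤ x.val := Nat.div_mul_le_self _ _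
  have hz2 : x.val < i * g + g := by
    have := Nat.lt_div_mul_add (a := x.val) hg
    rw [hi]
    exact this
  -- elements of `X \ Y` below `x` are low
  have h1 : pre (X \ Y) (i * g) ≤ t := by
    refine le_trans ?_ (card_low_le (X \ Y) t)
    apply card_le_card
    intro c hc
    have hc' := mem_filter.1 hc
    by_contra hcon
    have := hxmin c (mem_sdiff.2 ⟨hc'.1, hcon⟩)
    have h2 : x.val ≤ c.val := this
    omega
  have h2 : suf (Y \ X) (i * g) ≤ t + g := by
    have hsub : ((Y \ X).filter fun c => i * g ≤ c.val) ⊆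
        high (Y \ X) t ∪ ((Y \ X).filter fun c => i * g ≤ c.val ∧ c.val < i * g + g) := by
      intro c hc
      have hc' := mem_filter.1 hc
      by_cases hlt : c.val < i * g + g
      · exact mem_union_right _ (mem_filter.2 ⟨hc'.1, hc'.2, hlt⟩)
      · apply mem_union_left
        by_contra hcon
        push Not at hlt
        have hxc : x < c := by
          show x.val < c.val
          omega
        refine cutSet_spec h hxX hc'.1 hxc ?_ ?_
        · simp only [cutSet, mem_union, not_or]
          refine ⟨(mem_sdiff.1 hxm).2, ?_⟩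
          intro hh
          have := (mem_filter.1 hh).1
          exact (mem_sdiff.1 this).2 (mem_sdiff.1 hxX).1
        · simp only [cutSet, mem_union, not_or]
          refine ⟨?_, hcon⟩
          intro hh
          have := (mem_filter.1 hh).1
          exact (mem_sdiff.1 this).2 (mem_sdiff.1 hc'.1).1
    have h3 := card_le_card hsub
    have h4 := card_union_le (high (Y \ X) t)
      ((Y \ X).filter fun c => i * g ≤ c.val ∧ c.val < i * g + g)
    have h5 := card_high_le (Y \ X) t
    have h6 := card_window_le (Y \ X) (i * g) g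
    unfold suf
    omega
  have h3 := pre_sub X Y (i * g)
  have h4 := suf_sub X Y (i * g)
  have h5 := pre_add_suf (X \ Y) (i * g)
  have h6 := pre_add_suf (Y \ X) (i * g)
  constructor <;> omega

/-- A good pair cannot move mass to the right across a line. -/
theorem no_back_move {X Y : Finset (Fin n)} {t z : ℕ}
    (h : (((X \ Y) ×ˢ (Y \ X)).filter fun p => p.1 < p.2).card ≤ t ^ 2)
    (h1 : pre Y z + t + 1 ≤ pre X z) (h2 : suf X z + t + 1 ≤ suf Y z) : False := by
  have h3 := pre_sub X Y z
  have h4 := suf_sub X Y z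
  have h5 : t + 1 ≤ pre (X \ Y) z := by omega
  have h6 : t + 1 ≤ suf (Y \ X) z := by omega
  have h7 : (((X \ Y).filter fun c => c.val < z) ×ˢ ((Y \ X).filter fun c => z ≤ c.val)).card ≤
      (((X \ Y) ×ˢ (Y \ X)).filter fun p => p.1 < p.2).card := by
    apply card_le_card
    intro p hp
    simp only [mem_product, mem_filter] at hp ⊢
    refine ⟨⟨hp.1.1, hp.2.1⟩, ?_⟩
    show p.1.val < p.2.val
    omega
  rw [card_product] at h7
  have h8 : (t + 1) * (t + 1) ≤ pre (X \ Y) z * suf (Y \ X) z := Nat.mul_le_mul h5 h6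
  unfold pre suf at h8
  nlinarith

end Vale.Agent.OrdRem
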