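import Vale.Agent.Lib.OrdRem.Iden

/-!
# The combinatorial core of polynomial removal for the identity pattern, second part
-/

namespace Vale.Agent.OrdRem

open Finset

variable {n : ℕ}

theorem epoch_bound {F : Fin n → Finset (Fin n)} {ok : Finset (Fin n × ℕ) → Fin n → Prop}
    {crs : Fin n → Fin n → Prop} {cls : Fin n → ℕ} {M : Finset (Fin n × ℕ)} {e : ℕ}
    (inv : ScanInv ok crs cls n M e) {t τ g h : ℕ} (hg : 0 < g) (hh : 0 < h)
    (hτ : h + 3 * t + g ≤ τ)
    (hgood : ∀ p ∈ M, ∀ p' ∈ M, p.1 < p'.1 →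
      (((F p.1 \ F p'.1) ×ˢ (F p'.1 \ F p.1)).filter fun x => x.1 < x.2).card ≤ t ^ 2)
    (hcrs : ∀ ρ r, crs ρ r → τ < (F ρ \ F r).card ∧ τ < (F r \ F ρ).card) :
    e ≤ (n / g + 1) * ((n / h + 1) * (n / h + 1)) := by
  classical
  have hch : ∀ j : ℕ, ∃ c : ℕ × ℕ × ℕ, j < e → (c.1 < n / g + 1 ∧ ∃ ρ r, (ρ, j) ∈ M ∧
      (r, j + 1) ∈ M ∧ (∀ p ∈ M, j + 1 ≤ p.2 → r ≤ p.1) ∧
      pre (F ρ) (c.1 * g) + τ + 1 ≤ pre (F r) (c.1 * g) + 2 * t + g ∧
      suf (F r) (c.1 * g) + τ + 1 ≤ suf (F ρ) (c.1 * g) + 2 * t + g ∧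
      c.2.1 = pre (F ρ) (c.1 * g) / h ∧ c.2.2 = suf (F ρ) (c.1 * g) / h) := by
    intro j
    by_cases hj : j < e
    · obtain ⟨ρ, r, h1, h2, h3, h4, h5⟩ := inv.ep j hj
      have h4' := hcrs ρ r h4
      obtain ⟨i, hi, h6, h7⟩ := cross_move (X := F ρ) (Y := F r) (t := t) (τ := τ) hg
        (by omega) (hgood _ h1 _ h2 h3) h4'.1 h4'.2
      exact ⟨(i, pre (F ρ) (i * g) / h, suf (F ρ) (i * g) / h), fun _ =>
        ⟨hi, ρ, r, h1, h2, h5, h6, h7, rfl, rfl⟩⟩
    · exact ⟨(0, 0, 0), fun hj' => absurd hj' hj⟩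
  choose c hc using hch
  have hmaps : ∀ j ∈ range e, c j ∈ (range (n / g + 1)) ×ˢ
      ((range (n / h + 1)) ×ˢ (range (n / h + 1))) := by
    intro j hj
    obtain ⟨h1, ρ, r, _, _, _, _, _, h7, h8⟩ := hc j (mem_range.1 hj)
    refine mem_product.2 ⟨mem_range.2 h1, mem_product.2 ⟨mem_range.2 ?_, mem_range.2 ?_⟩⟩
    · rw [h7]
      have := Nat.div_le_div_right (c := h) (pre_le (F ρ) ((c j).1 * g))
      omega
    · rw [h8]
      have := Nat.div_le_div_right (c := h) (suf_le (F ρ) ((c j).1 * g))
      omega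
  have hinj : ∀ j ∈ range e, ∀ j' ∈ range e, j < j' → c j ≠ c j' := by
    intro j hj j' hj' hlt heq
    obtain ⟨_, ρ, r, h1, h2, h3, h4, h5, h6, h7⟩ := hc j (mem_range.1 hj)
    obtain ⟨_, ρ', r', h1', h2', _, _, _, h6', h7'⟩ := hc j' (mem_range.1 hj')
    rw [← heq] at h6' h7'
    set z := (c j).1 * g with hz
    have hle : r ≤ ρ' := h3 (ρ', j') h1' (by simp only; omega)
    have e1 : pre (F ρ) z / h = pre (F ρ') z / h := by rw [← h6, ← h6']
    have e2 : suf (F ρ) z / h = suf (F ρ') z / h := by rw [← h7, ← h7']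
    have a1 := Nat.div_add_mod (pre (F ρ) z) h
    have a2 := Nat.div_add_mod (pre (F ρ') z) h
    have a3 := Nat.div_add_mod (suf (F ρ) z) h
    have a4 := Nat.div_add_mod (suf (F ρ') z) h
    have b1 := Nat.mod_lt (pre (F ρ) z) hh
    have b2 := Nat.mod_lt (pre (F ρ') z) hh
    have b3 := Nat.mod_lt (suf (F ρ) z) hh
    have b4 := Nat.mod_lt (suf (F ρ') z) hh
    rw [e1] at a1
    rw [e2] at a3
    rcases hle.eq_or_lt with heq' | hlt'
    · subst heq'
      omega
    · refine no_back_move (z := z) (hgood _ h2 _ h1' hlt') ?_ ?_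
      · simp only
        omega
      · simp only
        omega
  have := Finset.card_le_card_of_injOn c hmaps (by
    intro j hj j' hj' heq
    rcases lt_trichotomy j j' with h1 | h1 | h1
    · exact absurd heq (hinj j (mem_coe.1 hj) j' (mem_coe.1 hj') h1)
    · exact h1
    · exact absurd heq.symm (hinj j' (mem_coe.1 hj') j (mem_coe.1 hj) h1))
  simpa [card_product] using this

theorem marks_bound {ok : Finset (Fin n × ℕ) → Fin n → Prop}
    {crs : Fin n → Fin n → Prop} {cls : Fin n → ℕ} {M : Finset (Fin n × ℕ)} {e L : ℕ}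
    (inv : ScanInv ok crs cls n M e) (hL : ∀ r, cls r < L) :
    (∀ j, (M.filter fun p => p.2 = j).card ≤ L) ∧ M.card ≤ (e + 1) * L := by
  classical
  have hepoch : ∀ j, ((M.filter fun p => p.2 = j).image fun p => cls p.1).card =
      (M.filter fun p => p.2 = j).card := by
    intro j
    apply card_image_of_injOn
    intro p hp p' hp' heq
    have hp1 := mem_filter.1 (mem_coe.1 hp)
    have hp2 := mem_filter.1 (mem_coe.1 hp')
    simp only at heq
    rcases lt_trichotomy p.1 p'.1 with h1 | h1 | h1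
    · exact absurd heq (inv.ncl p hp1.1 p' hp2.1 (by rw [hp1.2, hp2.2]) h1)
    · exact inv.uniq p hp1.1 p' hp2.1 h1
    · exact absurd heq.symm (inv.ncl p' hp2.1 p hp1.1 (by rw [hp1.2, hp2.2]) h1)
  have hepochle : ∀ j, (M.filter fun p => p.2 = j).card ≤ L := by
    intro j
    rw [← hepoch j]
    calc ((M.filter fun p => p.2 = j).image fun p => cls p.1).card
        ≤ (range L).card := by
          apply card_le_card
          intro i hi
          obtain ⟨p, _, rfl⟩ := mem_image.1 hi
          exact mem_range.2 (hL _)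
      _ = L := card_range _
  refine ⟨hepochle, ?_⟩
  have h1 : ∀ p ∈ M, p.2 ∈ range (e + 1) := by
    intro p hp
    have := (inv.lt p hp).2
    exact mem_range.2 (by omega)
  rw [Finset.card_eq_sum_card_fiberwise h1]
  calc ∑ j ∈ range (e + 1), (M.filter fun p => p.2 = j).card
      ≤ ∑ _j ∈ range (e + 1), L := Finset.sum_le_sum fun j _ => hepochle j
    _ = (e + 1) * L := by simp

theorem bad_pairs_iden (A : Fin n → Fin n → Bool) (t : ℕ) :
    (univ.filter fun p : Fin n × Fin n => p.1 < p.2 ∧ t ^ 2 <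
      (univ.filter fun p' : Fin n × Fin n => Xng (rows A) p.1 p.2 p'.1 p'.2).card).card ≤
      cnt iden A / (t ^ 2 + 1) := by
  classical
  rw [Nat.le_div_iff_mul_le (by omega)]
  have h1 : (univ.filter fun p : Fin n × Fin n => p.1 < p.2 ∧ t ^ 2 <
      (univ.filter fun p' : Fin n × Fin n => Xng (rows A) p.1 p.2 p'.1 p'.2).card) ⊆
      (univ.filter fun p : Fin n × Fin n => t ^ 2 < (univ.filter fun p' : Fin n × Fin n =>
        p.1 < p.2 ∧ Xng (rows A) p.1 p.2 p'.1 p'.2).card) := by
    intro p hp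
    simp only [mem_filter, mem_univ, true_and] at hp
    obtain ⟨hlt, hb⟩ := hp
    simp only [mem_filter, mem_univ, true_and, hlt]
    exact hb
  refine (Nat.mul_le_mul_right _ (card_le_card h1)).trans ?_
  refine card_pairs_mul (α := Fin n × Fin n) (β := Fin n × Fin n)
    (fun p p' => p.1 < p.2 ∧ Xng (rows A) p.1 p.2 p'.1 p'.2) (t ^ 2) (cnt iden A) ?_
  unfold cnt
  apply card_le_card
  intro p hp
  simp only [mem_filter, mem_univ, true_and] at hp ⊢
  rw [occ_iden_iff]
  exact hp

/-- The set deleted so that all pairs of marks become exactly free. -/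
noncomputable def delSet (F : Fin n → Finset (Fin n)) (M : Finset (Fin n × ℕ)) (t : ℕ) :
    Finset (Fin n) :=
  M.biUnion fun p => M.biUnion fun p' => cutSet (F p.1 \ F p'.1) (F p'.1 \ F p.1) t

theorem card_delSet_le (F : Fin n → Finset (Fin n)) (M : Finset (Fin n × ℕ)) (t : ℕ) :
    (delSet F M t).card ≤ M.card ^ 2 * (2 * t) := by
  have h1 : (delSet F M t).card ≤ M.card * (M.card * (2 * t)) := by
    refine card_biUnion_le.trans ?_
    rw [← smul_eq_mul]
    apply Finset.sum_le_card_nsmul
    intro ρ _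
    refine card_biUnion_le.trans ?_
    rw [← smul_eq_mul]
    apply Finset.sum_le_card_nsmul
    intro σ _
    exact card_cutSet_le _ _ _
  calc (delSet F M t).card ≤ _ := h1
    _ = _ := by ring

theorem delSet_spec {F : Fin n → Finset (Fin n)} {M : Finset (Fin n × ℕ)} {t : ℕ}
    {p p' : Fin n × ℕ} (hp : p ∈ M) (hp' : p' ∈ M)
    (h : (univ.filter fun x : Fin n × Fin n => Xng F p.1 p'.1 x.1 x.2).card ≤ t ^ 2)
    {x y : Fin n} (hX : Xng F p.1 p'.1 x y) (hx : x ∉ delSet F M t) (hy : y ∉ delSet F M t) :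
    False := by
  refine cut_of_xng h hX ?_ ?_
  · intro hx'
    exact hx (mem_biUnion.2 ⟨p, hp, mem_biUnion.2 ⟨p', hp', hx'⟩⟩)
  · intro hy'
    exact hy (mem_biUnion.2 ⟨p, hp, mem_biUnion.2 ⟨p', hp', hy'⟩⟩)

theorem iden_core (A : Fin n → Fin n → Bool) (t τ w g h q : ℕ) (hg : 0 < g) (hw : 0 < w)
    (hh : 0 < h) (hτ : h + 3 * t + g ≤ τ) :
    ∃ (B : Fin n → Fin n → Bool) (s a e : ℕ), cnt iden B = 0 ∧
      a * (q + 1) ≤ cnt iden A / (t ^ 2 + 1) ∧
      e ≤ (n / g + 1) * ((n / h + 1) * (n / h + 1)) ∧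
      s ≤ (e + 1) * (n / w + 1) ∧
      ham A B ≤ (a + s * q) * n + n * (s ^ 2 * (2 * t) + 2 * (τ + w) + (n / w + 1) * τ) := by
  classical
  set F := rows A with hF
  set bad : Fin n → Fin n → Prop := fun ρ r =>
    t ^ 2 < (univ.filter fun p : Fin n × Fin n => Xng F ρ r p.1 p.2).card with hbad
  set bd : ℕ := cnt iden A / (t ^ 2 + 1) with hbd
  have hbdcard : (univ.filter fun p : Fin n × Fin n => p.1 < p.2 ∧ bad p.1 p.2).card ≤ bd :=
    bad_pairs_iden A t
  set atr : Finset (Fin n) := univ.filter fun ρ : Fin n =>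
    q < (univ.filter fun r => ρ < r ∧ bad ρ r).card with hatr
  have hatr_card : atr.card * (q + 1) ≤ bd := card_atyp bad q bd hbdcard
  set ok : Finset (Fin n × ℕ) → Fin n → Prop := fun M r =>
    r ∉ atr ∧ ∀ p ∈ M, p.1 < r → ¬ bad p.1 r with hok
  set crs : Fin n → Fin n → Prop := fun ρ r => τ < (F ρ \ F r).card ∧ τ < (F r \ F ρ).card
    with hcrs
  set cls : Fin n → ℕ := fun r => (F r).card / w with hcls
  set M := (scan ok crs cls n).1 with hM
  set e := (scan ok crs cls n).2 with he
  have inv : ScanInv ok crs cls n M e := scan_inv n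
  have hMgood : ∀ p ∈ M, ∀ p' ∈ M, p.1 < p'.1 → ¬ bad p.1 p'.1 := by
    intro p hp p' hp' hlt
    obtain ⟨M', h1, h2⟩ := inv.okm p' hp'
    exact h1.2 p (h2 p hp hlt) hlt
  have hMtyp : ∀ p ∈ M, p.1 ∉ atr := by
    intro p hp
    obtain ⟨M', h1, _⟩ := inv.okm p hp
    exact h1.1
  have hgoodprod : ∀ p ∈ M, ∀ p' ∈ M, p.1 < p'.1 →
      (((F p.1 \ F p'.1) ×ˢ (F p'.1 \ F p.1)).filter fun x => x.1 < x.2).card ≤ t ^ 2 := by
    intro p hp p' hp' hlt
    have := hMgood p hp p' hp' hlt
    rw [hbad] at this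
    simp only [not_lt] at this
    exact xng_prod_le this
  have hebound : e ≤ (n / g + 1) * ((n / h + 1) * (n / h + 1)) :=
    epoch_bound inv hg hh hτ hgoodprod (fun ρ r hcr => hcr)
  have hclsbound : ∀ r, cls r < n / w + 1 := by
    intro r
    have h1 : (F r).card ≤ n := by
      have := card_le_univ (F r)
      simpa using this
    have := Nat.div_le_div_right (c := w) h1
    rw [hcls]
    simp only
    omega
  obtain ⟨hepochle, hMcard⟩ := marks_bound inv hclsbound
  set S := M.image Prod.fst with hS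
  have hScard : S.card ≤ M.card := card_image_le
  set Kc : Finset (Fin n) := delSet F M t with hKc
  have hKccard : Kc.card ≤ M.card ^ 2 * (2 * t) := card_delSet_le F M t
  have hexact : ∀ p ∈ M, ∀ p' ∈ M, p.1 < p'.1 → ∀ x y, Xng F p.1 p'.1 x y → x ∉ Kc →
      y ∉ Kc → False := by
    intro p hp p' hp' hlt x y hX hx hy
    have h1 := hMgood p hp p' hp' hlt
    rw [hbad] at h1
    simp only [not_lt] at h1
    exact delSet_spec hp hp' h1 hX hx hy
  set lab : Fin n → ℕ := fun r => (scan ok crs cls (r.val + 1)).2 with hlab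
  have hlabmono : ∀ r r' : Fin n, r < r' → lab r ≤ lab r' := by
    intro r r' hlt
    have h1 : r.val + 1 ≤ r'.val + 1 := by
      have : r.val < r'.val := hlt
      omega
    exact (scan_mono (ok := ok) (crs := crs) (cls := cls) h1).2
  set live : Fin n → Prop := fun r => ok (scan ok crs cls r.val).1 r with hlive
  set B : Fin n → Fin n → Bool := fun r c => decide (live r ∧ c ∉ Kc ∧
    ∀ p ∈ M, p.2 = lab r → cls r ≤ cls p.1 → c ∈ F p.1) with hB
  have hBrow : ∀ r c, c ∈ rows B r ↔ live r ∧ c ∉ Kc ∧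
      ∀ p ∈ M, p.2 = lab r → cls r ≤ cls p.1 → c ∈ F p.1 := by
    intro r c
    rw [mem_rows, hB]
    simp
  refine ⟨B, M.card, atr.card, e, ?_, hatr_card, hebound, hMcard, ?_⟩
  · rw [cnt_iden_eq_zero_iff]
    rintro r r' x y hlt ⟨hxy, h1, h2, h3, h4⟩
    rw [hBrow] at h1 h2 h3 h4
    rcases (hlabmono r r' hlt).eq_or_lt with heq | hlt'
    · rcases le_total (cls r) (cls r') with hc | hc
      · apply h3
        refine ⟨h4.1, h1.2.1, ?_⟩
        intro p hp hpl hpc
        exact h1.2.2 p hp (by rw [hpl, heq]) (hc.trans hpc)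
      · apply h2
        refine ⟨h1.1, h4.2.1, ?_⟩
        intro p hp hpl hpc
        exact h4.2.2 p hp (by rw [hpl, heq]) (hc.trans hpc)
    · have h5 : ∃ p ∈ M, p.2 = lab r ∧ cls r ≤ cls p.1 ∧ y ∉ F p.1 := by
        by_contra hno
        push Not at hno
        exact h2 ⟨h1.1, h4.2.1, hno⟩
      have h6 : ∃ p ∈ M, p.2 = lab r' ∧ cls r' ≤ cls p.1 ∧ x ∉ F p.1 := by
        by_contra hno
        push Not at hno
        exact h3 ⟨h4.1, h1.2.1, hno⟩
      obtain ⟨p, hp, hpl, hpc, hpy⟩ := h5
      obtain ⟨p', hp', hpl', hpc', hpx⟩ := h6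
      have hpp : p.1 < p'.1 := by
        rcases lt_trichotomy p.1 p'.1 with h | h | h
        · exact h
        · have := inv.uniq p hp p' hp' h
          rw [this] at hpl
          omega
        · have := inv.mono p' hp' p hp h
          omega
      exact hexact p hp p' hp' hpp x y ⟨hxy, h1.2.2 p hp hpl hpc, hpy, hpx,
        h4.2.2 p' hp' hpl' hpc'⟩ h1.2.1 h4.2.1
  · set X : Finset (Fin n) := univ.filter fun r => ¬ live r with hX
    have hXcard : X.card ≤ atr.card + M.card * q := by
      have hsub : X ⊆ atr ∪ (univ.filter fun r : Fin n => ∃ ρ ∈ S, ρ < r ∧ bad ρ r) := by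
        intro r hr
        have hnl := (mem_filter.1 hr).2
        by_cases h2 : r ∈ atr
        · exact mem_union_left _ h2
        · apply mem_union_right
          have h3 : ∃ p ∈ (scan ok crs cls r.val).1, p.1 < r ∧ bad p.1 r := by
            by_contra hno
            push Not at hno
            exact hnl ⟨h2, hno⟩
          obtain ⟨p, hp, hpr, hpb⟩ := h3
          refine mem_filter.2 ⟨mem_univ _, p.1, mem_image.2 ⟨p, ?_, rfl⟩, hpr, hpb⟩
          exact (scan_mono (ok := ok) (crs := crs) (cls := cls) r.isLt.le).1 hp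
      have h1 := card_le_card hsub
      have h2 := card_union_le atr (univ.filter fun r : Fin n => ∃ ρ ∈ S, ρ < r ∧ bad ρ r)
      have h3 := card_badmark bad S q (by
        intro ρ hρ
        obtain ⟨p, hp, rfl⟩ := mem_image.1 hρ
        have := hMtyp p hp
        rw [hatr] at this
        simpa using this)
      have h4 : S.card * q ≤ M.card * q := Nat.mul_le_mul_right _ hScard
      omega
    refine (ham_le_of_rows A B X _ ?_).trans
      (Nat.add_le_add_right (Nat.mul_le_mul_right n hXcard) _)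
    intro r hr
    have hl : live r := by
      by_contra hl
      exact hr (mem_filter.2 ⟨mem_univ _, hl⟩)
    obtain ⟨σ, hσM, hσc, hσ⟩ := scan_rep (ok := ok) (crs := crs) (cls := cls) r hl
    have hσM' : (σ, lab r) ∈ M := hσM
    -- `F σ` and `F r` are close
    have hcards : (F σ).card < (F r).card + w ∧ (F r).card < (F σ).card + w := by
      have e1 : (F σ).card / w = (F r).card / w := hσc
      have a1 := Nat.div_add_mod (F σ).card w
      have a2 := Nat.div_add_mod (F r).card w
      have b1 := Nat.mod_lt (F σ).card hw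
      have b2 := Nat.mod_lt (F r).card hw
      rw [e1] at a1
      constructor <;> omega
    have hid : (F σ).card + (F r \ F σ).card = (F r).card + (F σ \ F r).card := by
      have h1 := card_sdiff_add_card_inter (F r) (F σ)
      have h2 := card_sdiff_add_card_inter (F σ) (F r)
      rw [inter_comm] at h2
      omega
    have hclose : (F σ \ F r).card ≤ τ + w ∧ (F r \ F σ).card ≤ τ + w := by
      rcases hσ with hσ | hσ
      · subst hσ
        simp
      · rw [hcrs] at hσ
        simp only [not_and_or, not_lt] at hσ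
        rcases hσ with hσ | hσ
        · exact ⟨by omega, by omega⟩
        · exact ⟨by omega, by omega⟩
    set Ep : Finset (Fin n × ℕ) := M.filter fun p => p.2 = lab r with hEp
    have hother : ∀ p ∈ Ep, cls r ≤ cls p.1 → (F σ \ F p.1).card ≤ τ := by
      intro p hp hpc
      obtain ⟨hpM, hpl⟩ := mem_filter.1 hp
      by_cases hps : p.1 = σ
      · rw [hps]
        simp
      · have hncr : ¬ (τ < (F σ \ F p.1).card ∧ τ < (F p.1 \ F σ).card) := by
          rcases lt_or_gt_of_ne hps with h1 | h1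
          · have := inv.ncr p hpM (σ, lab r) hσM' hpl h1
            rw [hcrs] at this
            simp only at this
            tauto
          · have := inv.ncr (σ, lab r) hσM' p hpM hpl.symm h1
            rw [hcrs] at this
            exact this
        have hncl : cls p.1 ≠ cls σ := by
          rcases lt_or_gt_of_ne hps with h1 | h1
          · exact inv.ncl p hpM (σ, lab r) hσM' hpl h1
          · exact fun h => inv.ncl (σ, lab r) hσM' p hpM hpl.symm h1 h.symm
        have hlt : cls σ < cls p.1 := by omega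
        have hlt' : (F σ).card < (F p.1).card := by
          by_contra hcon
          push Not at hcon
          have := Nat.div_le_div_right (c := w) hcon
          rw [hcls] at hlt
          simp only at hlt
          omega
        have h1 := card_sdiff_add_card_inter (F p.1) (F σ)
        have h2 := card_sdiff_add_card_inter (F σ) (F p.1)
        rw [inter_comm] at h2
        by_contra hcon
        push Not at hcon
        exact hncr ⟨hcon, by omega⟩
    have hsub : (univ.filter fun c => A r c ≠ B r c) ⊆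
        ((Kc ∪ (F r \ F σ)) ∪ (Ep.filter fun p => cls r ≤ cls p.1).biUnion
          fun p => F σ \ F p.1) ∪ (F σ \ F r) := by
      intro c hc
      have hne := (mem_filter.1 hc).2
      by_cases hcF : c ∈ F r
      · apply mem_union_left
        have hcB : c ∉ rows B r := by
          intro hcB
          rw [hF, mem_rows] at hcF
          rw [mem_rows] at hcB
          exact hne (by rw [hcF, hcB])
        rw [hBrow] at hcB
        by_cases hcK : c ∈ Kc
        · exact mem_union_left _ (mem_union_left _ hcK)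
        by_cases hcσ : c ∈ F σ
        · apply mem_union_right
          have h1 : ∃ p ∈ M, p.2 = lab r ∧ cls r ≤ cls p.1 ∧ c ∉ F p.1 := by
            by_contra hno
            push Not at hno
            exact hcB ⟨hl, hcK, hno⟩
          obtain ⟨p, hp, hpl, hpc, hpn⟩ := h1
          exact mem_biUnion.2 ⟨p, mem_filter.2 ⟨mem_filter.2 ⟨hp, hpl⟩, hpc⟩,
            mem_sdiff.2 ⟨hcσ, hpn⟩⟩
        · exact mem_union_left _ (mem_union_right _ (mem_sdiff.2 ⟨hcF, hcσ⟩))
      · apply mem_union_right
        have hcB : c ∈ rows B r := by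
          by_contra hcB
          rw [hF, mem_rows] at hcF
          rw [mem_rows] at hcB
          simp only [Bool.not_eq_true] at hcF hcB
          exact hne (by rw [hcF, hcB])
        rw [hBrow] at hcB
        have h1 := hcB.2.2 (σ, lab r) hσM' rfl (by simp only; omega)
        exact mem_sdiff.2 ⟨h1, hcF⟩
    refine (card_le_card hsub).trans ?_
    have h1 := card_union_le ((Kc ∪ (F r \ F σ)) ∪ (Ep.filter fun p => cls r ≤ cls p.1).biUnion
          fun p => F σ \ F p.1) (F σ \ F r)
    have h2 := card_union_le (Kc ∪ (F r \ F σ)) ((Ep.filter fun p => cls r ≤ cls p.1).biUnion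
          fun p => F σ \ F p.1)
    have h3 := card_union_le Kc (F r \ F σ)
    have h4 : ((Ep.filter fun p => cls r ≤ cls p.1).biUnion fun p => F σ \ F p.1).card ≤
        (n / w + 1) * τ := by
      refine card_biUnion_le.trans ?_
      calc ∑ p ∈ Ep.filter (fun p => cls r ≤ cls p.1), (F σ \ F p.1).card
          ≤ (Ep.filter fun p => cls r ≤ cls p.1).card • τ := by
            apply Finset.sum_le_card_nsmul
            intro p hp
            have hp' := mem_filter.1 hp
            exact hother p hp'.1 hp'.2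
        _ ≤ (n / w + 1) * τ := by
            rw [smul_eq_mul]
            apply Nat.mul_le_mul_right
            exact (card_filter_le _ _).trans (hepochle (lab r))
    have h5 := hclose.1
    have h6 := hclose.2
    omega

end Vale.Agent.OrdRem
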