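import Vale.Agent.Lib.OrdRem.Cut

/-!
# Reachability contents for the corner pattern

`Gam F ρ r x y` says that rows `ρ, r` and columns `x < y` carry the pattern with a single zero in
the lower right corner.
-/

namespace Vale.Agent.OrdRem

open Finset

variable {n : ℕ}

/-- Rows `ρ`, `r` and columns `x < y` carry the pattern `1 1 / 1 0`. -/
def Gam (F : Fin n → Finset (Fin n)) (ρ r x y : Fin n) : Prop :=
  x < y ∧ x ∈ F ρ ∧ y ∈ F ρ ∧ x ∈ F r ∧ y ∉ F r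

instance (F : Fin n → Finset (Fin n)) (ρ r x y : Fin n) : Decidable (Gam F ρ r x y) := by
  unfold Gam; infer_instance

/-- One step of reachability through a row of `T`, landing in `W`. -/
def Stp (F : Fin n → Finset (Fin n)) (T W : Finset (Fin n)) (x y : Fin n) : Prop :=
  x < y ∧ y ∈ W ∧ ∃ ρ ∈ T, x ∈ F ρ ∧ y ∈ F ρ

/-- Reachability in exactly `k` steps. -/
def RN (F : Fin n → Finset (Fin n)) (T W : Finset (Fin n)) : ℕ → Fin n → Fin n → Prop
  | 0, x, y => x = y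
  | k + 1, x, y => ∃ w, Stp F T W x w ∧ RN F T W k w y

theorem RN.le {F : Fin n → Finset (Fin n)} {T W : Finset (Fin n)} :
    ∀ {k : ℕ} {x y : Fin n}, RN F T W k x y → x ≤ y
  | 0, x, y, h => le_of_eq h
  | k + 1, x, y, h => by
      obtain ⟨w, hw, hk⟩ := h
      exact hw.1.le.trans (RN.le hk)

theorem RN.trans {F : Fin n → Finset (Fin n)} {T W : Finset (Fin n)} :
    ∀ {k l : ℕ} {x y z : Fin n}, RN F T W k x y → RN F T W l y z → RN F T W (k + l) x z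
  | 0, l, x, y, z, h, h' => by
      have : x = y := h
      subst this
      simpa using h'
  | k + 1, l, x, y, z, h, h' => by
      obtain ⟨w, hw, hk⟩ := h
      have := RN.trans hk h'
      have e : k + 1 + l = (k + l) + 1 := by omega
      rw [e]
      exact ⟨w, hw, this⟩

theorem RN.mono {F : Fin n → Finset (Fin n)} {T T' W : Finset (Fin n)} (hT : T ⊆ T') :
    ∀ {k : ℕ} {x y : Fin n}, RN F T W k x y → RN F T' W k x y
  | 0, x, y, h => h
  | k + 1, x, y, h => by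
      obtain ⟨w, ⟨h1, h2, ρ, hρ, h3⟩, hk⟩ := h
      exact ⟨w, ⟨h1, h2, ρ, hT hρ, h3⟩, RN.mono hT hk⟩

/-- The coalescing lemma. -/
theorem RN.coalesce {F : Fin n → Finset (Fin n)} {T W : Finset (Fin n)}
    (hW : ∀ ρ ∈ T, ∀ σ ∈ T, ρ < σ → ∀ x ∈ W, ∀ y ∈ W, ¬ Gam F ρ σ x y) :
    ∀ (N : ℕ) (p q : ℕ) (z x y : Fin n), p + q ≤ N →
      (∀ ρ ∈ T, ∀ σ ∈ T, ρ < σ → ∀ y ∈ W, ¬ Gam F ρ σ z y) →
      RN F T W p z x → RN F T W q z y → x < y → ∃ k, RN F T W k x y := by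
  intro N
  induction N with
  | zero =>
    intro p q z x y hpq _ hx hy hxy
    have hp : p = 0 := by omega
    have hq : q = 0 := by omega
    subst hp
    subst hq
    have h1 : z = x := hx
    have h2 : z = y := hy
    exact absurd hxy (by rw [← h1, ← h2]; exact lt_irrefl _)
  | succ N ih =>
    intro p q z x y hpq hz hx hy hxy
    match p, q, hpq, hx, hy with
    | 0, q, hpq, hx, hy =>
      have h1 : z = x := hx
      subst h1
      exact ⟨q, hy⟩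
    | p + 1, 0, hpq, hx, hy =>
      have h1 : z = y := hy
      obtain ⟨w, hw, hwx⟩ := hx
      have h2 : z < x := lt_of_lt_of_le hw.1 (RN.le hwx)
      rw [← h1] at hxy
      exact absurd (h2.trans hxy) (lt_irrefl _)
    | p + 1, q + 1, hpq, hx, hy =>
      obtain ⟨w, ⟨hzw, hwW, ρ, hρ, hzρ, hwρ⟩, hwx⟩ := hx
      obtain ⟨v, ⟨hzv, hvW, σ, hσ, hzσ, hvσ⟩, hvy⟩ := hy
      have hcommon : ∃ τ ∈ T, w ∈ F τ ∧ v ∈ F τ := by
        rcases lt_trichotomy ρ σ with h | h | h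
        · refine ⟨σ, hσ, ?_, hvσ⟩
          by_contra hcon
          exact hz ρ hρ σ hσ h w hwW ⟨hzw, hzρ, hwρ, hzσ, hcon⟩
        · subst h
          exact ⟨ρ, hρ, hwρ, hvσ⟩
        · refine ⟨ρ, hρ, hwρ, ?_⟩
          by_contra hcon
          exact hz σ hσ ρ hρ h v hvW ⟨hzv, hzσ, hvσ, hzρ, hcon⟩
      obtain ⟨τ, hτ, hwτ, hvτ⟩ := hcommon
      rcases lt_trichotomy w v with h | h | h
      · exact ih p (q + 1) w x y (by omega)
          (fun ρ hρ σ hσ hρσ y hy => hW ρ hρ σ hσ hρσ w hwW y hy) hwx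
          ⟨v, ⟨h, hvW, τ, hτ, hwτ, hvτ⟩, hvy⟩ hxy
      · subst h
        exact ih p q w x y (by omega)
          (fun ρ hρ σ hσ hρσ y hy => hW ρ hρ σ hσ hρσ w hwW y hy) hwx hvy hxy
      · exact ih (p + 1) q v x y (by omega)
          (fun ρ hρ σ hσ hρσ y hy => hW ρ hρ σ hσ hρσ v hvW y hy)
          ⟨w, ⟨h, hwW, τ, hτ, hvτ, hwτ⟩, hwx⟩ hvy hxy

/-- The content with root `c` built from the rows of `T`. -/
noncomputable def content (F : Fin n → Finset (Fin n)) (T W : Finset (Fin n)) (c : Fin n) :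
    Finset (Fin n) := by
  classical exact univ.filter fun y => ∃ k, RN F T W (k + 1) c y

theorem mem_content {F : Fin n → Finset (Fin n)} {T W : Finset (Fin n)} {c y : Fin n} :
    y ∈ content F T W c ↔ ∃ k, RN F T W (k + 1) c y := by
  classical
  simp [content]

/-- Exactness of the contents. -/
theorem content_exact {F : Fin n → Finset (Fin n)} {T T' W : Finset (Fin n)} {c c' : Fin n}
    (hT : T ⊆ T')
    (hW : ∀ ρ ∈ T, ∀ σ ∈ T, ρ < σ → ∀ x ∈ W, ∀ y ∈ W, ¬ Gam F ρ σ x y)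
    (hc : ∀ ρ ∈ T, ∀ σ ∈ T, ρ < σ → ∀ y ∈ W, ¬ Gam F ρ σ c y) {x y : Fin n}
    (hx : x ∈ content F T W c) (hy : y ∈ content F T W c) (hx' : x ∈ content F T' W c')
    (hxy : x < y) : y ∈ content F T' W c' := by
  rw [mem_content] at *
  obtain ⟨p, hp⟩ := hx
  obtain ⟨q, hq⟩ := hy
  obtain ⟨l, hl⟩ := hx'
  obtain ⟨k, hk⟩ := RN.coalesce hW _ (p + 1) (q + 1) c x y le_rfl hc hp hq hxy
  refine ⟨l + k, ?_⟩
  have := RN.trans hl (RN.mono hT hk)
  have e : l + 1 + k = l + k + 1 := by omega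
  rwa [e] at this

/-- Closeness of the contents: the content is contained in the row up to the set `Dr`. -/
theorem content_close {F : Fin n → Finset (Fin n)} {T W Dg Dr : Finset (Fin n)} {c r : Fin n}
    (hcr : c ∈ F r)
    (ha : ∀ ρ ∈ T, ∀ x y, Gam F ρ r x y → x ∉ Dr → y ∉ Dr → False)
    (hb : ∀ ρ ∈ T, ∀ y, Gam F ρ r c y → y ∈ Dr)
    (hg : ∀ ρ ∈ T, ∀ σ ∈ T, ρ < σ → ∀ x y, Gam F ρ σ x y → x ∉ Dg → y ∉ Dg → False)
    (hWD : ∀ y ∈ W, y ∉ Dg)
    (hu : ∀ ρ ∈ T, ∀ σ ∈ T, ∀ y ∈ W, y ∈ F ρ → y ∈ F σ → c < y →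
      ∃ u, u ∈ F ρ ∧ u ∈ F σ ∧ c < u ∧ u < y ∧ u ∉ Dg ∧ u ∉ Dr)
    {y : Fin n} (hy : y ∈ content F T W c) : y ∈ F r ∨ y ∈ Dr := by
  classical
  -- the invariant
  set Inv : Fin n → Prop := fun y => ∃ ρ ∈ T, y ∈ F ρ ∧ ∃ v, v ∈ F ρ ∧ v ∈ F r ∧ v ≤ y ∧
    (v = c ∨ (v ∉ Dg ∧ v ∉ Dr)) with hInv
  have step : ∀ y y', Inv y → c < y → y ∈ W → Stp F T W y y' → Inv y' := by
    rintro y y' ⟨ρ, hρ, hyρ, v, hvρ, hvr, hvy, hv⟩ hcy hyW ⟨hyy', hy'W, σ, hσ, hyσ, hy'σ⟩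
    by_cases hρσ : ρ = σ
    · subst hρσ
      exact ⟨ρ, hρ, hy'σ, v, hvρ, hvr, hvy.trans hyy'.le, hv⟩
    obtain ⟨u, huρ, huσ, hcu, huy, huDg, huDr⟩ := hu ρ hρ σ hσ y hyW hyρ hyσ hcy
    by_cases hvu : v ≤ u
    · have hur : u ∈ F r := by
        rcases hvu.eq_or_lt with h | h
        · rw [← h]; exact hvr
        · by_contra hcon
          have hG : Gam F ρ r v u := ⟨h, hvρ, huρ, hvr, hcon⟩
          rcases hv with hv | hv
          · subst hv
            exact huDr (hb ρ hρ u hG)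
          · exact ha ρ hρ v u hG hv.2 huDr
      exact ⟨σ, hσ, hy'σ, u, huσ, hur, (huy.trans hyy').le, Or.inr ⟨huDg, huDr⟩⟩
    · push Not at hvu
      have hvc : v ≠ c := by
        intro h
        rw [h] at hvu
        exact absurd (hvu.trans hcu) (lt_irrefl _)
      have hv' : v ∉ Dg ∧ v ∉ Dr := by
        rcases hv with hv | hv
        · exact absurd hv hvc
        · exact hv
      rcases lt_or_gt_of_ne hρσ with h | h
      · have hvσ : v ∈ F σ := by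
          by_contra hcon
          exact hg ρ hρ σ hσ h u v ⟨hvu, huρ, hvρ, huσ, hcon⟩ huDg hv'.1
        exact ⟨σ, hσ, hy'σ, v, hvσ, hvr, hvy.trans hyy'.le, Or.inr hv'⟩
      · have hy'ρ : y' ∈ F ρ := by
          by_contra hcon
          exact hg σ hσ ρ hρ h u y' ⟨huy.trans hyy', huσ, hy'σ, huρ, hcon⟩ huDg (hWD y' hy'W)
        exact ⟨ρ, hρ, hy'ρ, v, hvρ, hvr, hvy.trans hyy'.le, Or.inr hv'⟩
  have run : ∀ k : ℕ, ∀ y y', Inv y → c < y → y ∈ W → RN F T W k y y' → Inv y' := by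
    intro k
    induction k with
    | zero =>
      intro y y' h _ _ hR
      have : y = y' := hR
      rwa [← this]
    | succ k ih =>
      intro y y' h hcy hyW hR
      obtain ⟨w, hw, hk⟩ := hR
      exact ih w y' (step y w h hcy hyW hw) (hcy.trans hw.1) hw.2.1 hk
  rw [mem_content] at hy
  obtain ⟨k, w, hw, hk⟩ := hy
  obtain ⟨hcw, hwW, ρ, hρ, hcρ, hwρ⟩ := hw
  have hInvw : Inv w := ⟨ρ, hρ, hwρ, c, hcρ, hcr, hcw.le, Or.inl rfl⟩
  obtain ⟨σ, hσ, hyσ, v, hvσ, hvr, hvy, hv⟩ := run k w y hInvw hcw hwW hk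
  by_cases hyr : y ∈ F r
  · exact Or.inl hyr
  · right
    have hne : v ≠ y := fun h => hyr (h ▸ hvr)
    have hG : Gam F σ r v y := ⟨lt_of_le_of_ne hvy hne, hvσ, hyσ, hvr, hyr⟩
    rcases hv with hv | hv
    · subst hv
      exact hb σ hσ y hG
    · by_contra hcon
      exact ha σ hσ v y hG hv.2 hcon

end Vale.Agent.OrdRem
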